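import Vale.Agent.P085.Main

open scoped ComplexOrder InnerProductSpace ComplexConjugate
open Filter Topology

set_option linter.unusedSimpArgs false
set_option linter.unusedSectionVars false

namespace Vale.Agent.P085

lemma hil {E : Type*} [NormedAddCommGroup E] [InnerProductSpace ℂ E] (K : Submodule ℂ E) (x : E)
    (ξ : ℕ → E) (hξ : ∀ z, ∀ ε > 0, ∃ k, ‖z - ξ k‖ < ε) (s : ℕ → ℝ) (hs : ∀ m, 0 < s m)
    (hs' : Tendsto s atTop (𝓝 0))
    (h : ∀ m k, ∀ η > 0, ∃ w ∈ K, ‖w‖ ≤ 1 ∧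
      ‖⟪ξ k, w⟫_ℂ - s m * ⟪ξ k, x⟫_ℂ‖ < 12 * s m ^ 2 * ‖ξ k‖ + η) :
    ∀ ε > 0, ∃ p ∈ K, ‖p - x‖ < ε := by
  let ι : E →L[ℂ] UniformSpace.Completion E := UniformSpace.Completion.toComplL
  have hι : ∀ z, ι z = (z : UniformSpace.Completion E) := fun _ => rfl
  let K' := (K.map ι.toLinearMap).topologicalClosure
  obtain ⟨y, hy, ζ, hζ, e⟩ := K'.exists_add_mem_mem_orthogonal (ι x)
  have key : ∀ m, ‖ζ‖ ^ 2 ≤ 12 * s m * ‖ζ‖ := by
    intro m
    have hm := hs m
    have : ∀ ε > 0, s m * ‖ζ‖ ^ 2 ≤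
        12 * s m ^ 2 * ‖ζ‖ + ε * (12 * s m ^ 2 + 2 + s m * ‖x‖) := by
      intro ε hε
      obtain ⟨z, hz⟩ := UniformSpace.Completion.denseRange_coe.exists_dist_lt ζ (half_pos hε)
      obtain ⟨k, hk⟩ := hξ z _ (half_pos hε)
      have a1 : ‖ζ - ι (ξ k)‖ ≤ ε := by
        rw [dist_eq_norm] at hz
        rw [← UniformSpace.Completion.norm_coe, ← hι, map_sub] at hk
        linarith [norm_sub_le_norm_sub_add_norm_sub ζ (ι z) (ι (ξ k)), hι z ▸ hz]
      obtain ⟨w, hw, hw1, hw2⟩ := h m k ε hε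
      have a2 : ⟪ζ, ι w⟫_ℂ = 0 := Submodule.inner_left_of_mem_orthogonal (K := K')
        ((K.map ι.toLinearMap).le_topologicalClosure ⟨w, hw, rfl⟩) hζ
      have a3 : ⟪ζ, ι x⟫_ℂ = ((‖ζ‖ ^ 2 : ℝ) : ℂ) := by
        rw [e, inner_add_right, Submodule.inner_left_of_mem_orthogonal hy hζ, zero_add,
          inner_self_eq_norm_sq_to_K]
        norm_cast
      rw [← UniformSpace.Completion.inner_coe (ξ k) w, ← UniformSpace.Completion.inner_coe (ξ k) x,
        ← UniformSpace.Completion.norm_coe (ξ k), ← hι, ← hι, ← hι] at hw2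
      have a4 : ‖ι (ξ k)‖ ≤ ‖ζ‖ + ε := by
        have := norm_sub_le ζ (ζ - ι (ξ k))
        rw [sub_sub_cancel] at this; linarith
      have a5 : ‖⟪ζ - ι (ξ k), ι w⟫_ℂ‖ ≤ ε * 1 := (norm_inner_le_norm _ _).trans
        (mul_le_mul a1 (by rwa [hι, UniformSpace.Completion.norm_coe]) (norm_nonneg _) hε.le)
      have a6 : ‖⟪ζ - ι (ξ k), ι x⟫_ℂ‖ ≤ ε * ‖x‖ := (norm_inner_le_norm _ _).trans
        (mul_le_mul a1 (by rw [hι, UniformSpace.Completion.norm_coe]) (norm_nonneg _) hε.le)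
      rw [inner_sub_left, a2] at a5
      rw [inner_sub_left, a3] at a6
      generalize ⟪ι (ξ k), ι w⟫_ℂ = A at *
      generalize ⟪ι (ξ k), ι x⟫_ℂ = B at *
      have a7 : ((s m * ‖ζ‖ ^ 2 : ℝ) : ℂ) =
          s m * (((‖ζ‖ ^ 2 : ℝ) : ℂ) - B) - (A - s m * B) - (0 - A) := by push_cast; ring
      have a8 : s m * ‖ζ‖ ^ 2 ≤ s m * (ε * ‖x‖) + ‖A - s m * B‖ + ε * 1 := by
        have := norm_sub_le ((s m : ℂ) * (((‖ζ‖ ^ 2 : ℝ) : ℂ) - B) - (A - s m * B)) (0 - A)
        rw [← a7, Complex.norm_real, Real.norm_of_nonneg (by positivity)] at this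
        have b := norm_sub_le ((s m : ℂ) * (((‖ζ‖ ^ 2 : ℝ) : ℂ) - B)) (A - s m * B)
        rw [norm_mul, Complex.norm_real, Real.norm_of_nonneg hm.le] at b
        have := mul_le_mul_of_nonneg_left a6 hm.le
        linarith
      have a9 : 12 * s m ^ 2 * ‖ι (ξ k)‖ ≤ 12 * s m ^ 2 * (‖ζ‖ + ε) := by gcongr
      nlinarith
    have b : s m * ‖ζ‖ ^ 2 ≤ 12 * s m ^ 2 * ‖ζ‖ := by
      refine le_of_forall_pos_le_add fun ε hε => ?_
      have hc : 0 < 12 * s m ^ 2 + 2 + s m * ‖x‖ := by positivity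
      have := this (ε / (12 * s m ^ 2 + 2 + s m * ‖x‖)) (by positivity)
      rwa [div_mul_cancel₀ _ hc.ne'] at this
    nlinarith
  have h0 : ‖ζ‖ ^ 2 ≤ 0 := by
    have := ((hs'.const_mul 12).mul_const ‖ζ‖)
    simp only [mul_zero, zero_mul] at this
    exact ge_of_tendsto' this key
  have h1 : ζ = 0 := by simpa using h0
  rw [h1, add_zero] at e
  rw [← e] at hy
  intro ε hε
  obtain ⟨_, ⟨p, hp, rfl⟩, hd⟩ := Metric.mem_closure_iff.1 hy ε hε
  refine ⟨p, hp, ?_⟩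
  rw [dist_comm, dist_eq_norm] at hd
  rw [← UniformSpace.Completion.norm_coe, ← hι, map_sub]
  exact hd

variable {M : Type*} [CStarAlgebra M]

lemma wd_lip (T : Tr M) {A : StarSubalgebra ℂ M} {a : ℕ → M} (ha : UA A a) {y y' : M}
    (hy : y ∈ unitary M) (hy' : y' ∈ unitary M) (B : ℕ) :
    T.n2 (wd a y B - wd a y' B) ≤ B * T.n2 (y - y') := by
  induction B with
  | zero => simp [wd]
  | succ B ih =>
    have e : wd a y (B + 1) - wd a y' (B + 1) =
        ((wd a y B - wd a y' B) * y + wd a y' B * (y - y')) * a B := by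
      simp only [wd]; noncomm_ring
    rw [e, T.n2_unit_right (Unitary.mul_star_self_of_mem (ha B).2)]
    refine (T.n2_add_le _ _).trans ?_
    rw [T.n2_unit_right (Unitary.mul_star_self_of_mem hy),
      T.n2_unit_left (Unitary.star_mul_self_of_mem (wd_unitary ha hy' B))]
    push_cast; linarith

lemma wd_mem {A P : StarSubalgebra ℂ M} {a : ℕ → M} (ha : UA A a) {y : M} (h : A ≤ P) (hy : y ∈ P)
    (B : ℕ) : wd a y B ∈ P := by
  induction B with
  | zero => exact one_mem _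
  | succ B ih => exact mul_mem (mul_mem ih hy) (h (ha B).1)

theorem generic {T : Tr M} {A : StarSubalgebra ℂ M} (hc : T.Cpl) (hF : FHP T A)
    (ξ : ℕ → M) (hξ : ∀ x, ∀ ε > 0, ∃ k, T.n2 (x - ξ k) < ε) :
    ∃ y ∈ unitary M, ∀ P : StarSubalgebra ℂ M, T.Cl2 P → A ≤ P → y ∈ P → ∀ z, z ∈ P := by
  have := T.nontriv
  let U := {η : T.H // T.toH.symm η ∈ unitary M}
  let c : U → M := fun η => T.toH.symm η.1
  have hd : ∀ y y' : U, dist y y' = T.n2 (c y - c y') := fun y y' => by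
    rw [Subtype.dist_eq, dist_eq_norm]; rfl
  have : CompleteSpace U := by
    apply Metric.complete_of_cauchySeq_tendsto
    intro u hu
    obtain ⟨z, hz, hl⟩ := hc (fun n => c (u n))
      (fun n => (CStarRing.norm_of_mem_unitary (u n).2).le)
      (uniformContinuous_subtype_val.comp_cauchySeq hu)
    have hz : z ∈ unitary M := by
      rw [Unitary.mem_iff]
      constructor
      · refine Tr.Lim.unique T (Tr.Lim.mul T (Tr.Lim.str T hl) hl (R := 1) fun n => ?_) ?_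
        · rw [norm_star]; exact (CStarRing.norm_of_mem_unitary (u n).2).le
        · simpa only [c, Unitary.star_mul_self_of_mem (u _).2] using T.lim_const 1
      · refine Tr.Lim.unique T (Tr.Lim.mul T hl (Tr.Lim.str T hl) (R := 1) fun n => ?_) ?_
        · exact (CStarRing.norm_of_mem_unitary (u n).2).le
        · simpa only [c, Unitary.mul_star_self_of_mem (u _).2] using T.lim_const 1
    rw [Tr.lim_iff] at hl
    exact ⟨⟨T.toH z, hz⟩, tendsto_subtype_rng.2 hl⟩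
  have : Nonempty U := ⟨⟨T.toH 1, one_mem (unitary M)⟩⟩
  choose x cf hx _ using fun k => CStarAlgebra.exists_sum_four_unitary (ξ k)
  let s : ℕ → ℝ := fun m => 1 / 2 * (1 / ((m : ℝ) + 1))
  have hs : ∀ m, 0 < s m := fun m => by positivity
  have hs1 : ∀ m, s m ≤ 1 / 2 := fun m => by
    refine mul_le_of_le_one_right (by norm_num) ?_
    rw [div_le_one (by positivity)]; linarith [Nat.cast_nonneg (α := ℝ) m]
  have hs' : Tendsto s atTop (𝓝 0) := by
    have := tendsto_one_div_add_atTop_nhds_zero_nat (𝕜 := ℝ).const_mul (1 / 2)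
    rwa [mul_zero] at this
  let O : (ℕ × Fin 4) × ℕ × ℕ × ℕ → Set U := fun t => {y | ∃ a, UA A a ∧ ∃ B,
    ‖T.τ (star (ξ t.2.1) * wd a (c y) B) - s t.2.2.1 * T.τ (star (ξ t.2.1) * x t.1.1 t.1.2)‖ <
      12 * s t.2.2.1 ^ 2 * T.n2 (ξ t.2.1) + s t.2.2.2}
  have hO : ∀ t, IsOpen (O t) := by
    intro t
    simp only [O, Set.setOf_exists, Set.setOf_and]
    refine isOpen_iUnion fun a => ?_
    by_cases ha : UA A a
    · refine IsOpen.inter (by simp [ha]) (isOpen_iUnion fun B => isOpen_lt ?_ continuous_const)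
      refine Continuous.norm (Continuous.sub ?_ continuous_const)
      refine (LipschitzWith.of_dist_le' (K := T.n2 (ξ t.2.1) * B) fun y y' => ?_).continuous
      rw [dist_eq_norm, ← map_sub, ← mul_sub, hd, mul_assoc]
      exact (T.cs _ _).trans (mul_le_mul_of_nonneg_left (wd_lip T ha y.2 y'.2 B) (T.n2_nonneg _))
    · simp [ha]
  have hD : ∀ t, Dense (O t) := by
    intro t
    rw [Metric.dense_iff]
    intro y r hr
    obtain ⟨y', hy', h1, h2⟩ := main_lemma hF y.2 (x t.1.1 t.1.2).2 (ξ t.2.1) (hs t.2.2.1).le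
      (hs1 t.2.2.1) hr (hs t.2.2.2)
    refine ⟨⟨T.toH y', hy'⟩, ?_, h2⟩
    rw [Metric.mem_ball, hd]; exact h1
  obtain ⟨y, hy⟩ := (dense_iInter_of_isOpen hO hD).nonempty
  rw [Set.mem_iInter] at hy
  refine ⟨c y, y.2, fun P hP hA hyP => ?_⟩
  have k1 : ∀ k i, (x k i : M) ∈ P := by
    intro k i
    refine T.kap hP fun ε hε => ?_
    obtain ⟨_, ⟨p, hp, rfl⟩, h⟩ := hil (P.toSubalgebra.toSubmodule.map T.toH.toLinearMap)
      (T.toH (x k i)) (fun k => T.toH (ξ k)) (fun z => hξ (T.toH.symm z)) s hs hs'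
      (fun m l η hη => by
        obtain ⟨r, hr⟩ := (hs'.eventually (gt_mem_nhds hη)).exists
        obtain ⟨a, ha, B, h⟩ := hy ((k, i), l, m, r)
        refine ⟨T.toH (wd a (c y) B), ⟨_, wd_mem ha hA hyP B, rfl⟩, ?_, h.trans ?_⟩
        · exact (T.n2_le_norm _).trans (CStarRing.norm_of_mem_unitary (wd_unitary ha y.2 B)).le
        · exact add_lt_add_right hr _) ε hε
    exact ⟨p, hp, h⟩
  intro z
  refine T.kap hP fun ε hε => ?_
  obtain ⟨k, hk⟩ := hξ z ε hε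
  refine ⟨ξ k, ?_, by rwa [T.n2_sub_rev]⟩
  rw [hx]
  exact sum_mem fun i _ => P.smul_mem (k1 k i) _

end Vale.Agent.P085
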