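import Mathlib

open scoped ComplexOrder InnerProductSpace ComplexConjugate
open Filter Topology

namespace Vale.Agent.P085

/-- faithful tracial state on a unital C*-algebra -/
structure Tr (M : Type*) [CStarAlgebra M] where
  τ : M →ₗ[ℂ] ℂ
  one : τ 1 = 1
  pos : ∀ x, 0 ≤ τ (star x * x)
  tr : ∀ x y, τ (x * y) = τ (y * x)
  faith : ∀ x, τ (star x * x) = 0 → x = 0

namespace Tr
variable {M : Type*} [CStarAlgebra M] (T : Tr M)

lemma im_ss (x : M) : (T.τ (star x * x)).im = 0 := by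
  have := T.pos x
  rw [Complex.le_def] at this
  simpa using this.2.symm

lemma re_ss (x : M) : 0 ≤ (T.τ (star x * x)).re := by
  have := T.pos x
  rw [Complex.le_def] at this
  simpa using this.1

lemma τ_star (x : M) : T.τ (star x) = conj (T.τ x) := by
  have h1 := T.im_ss (1 + x)
  have h2 := T.im_ss (1 + Complex.I • x)
  have h3 := T.im_ss x
  have e1 : star (1 + x) * (1 + x) = 1 + x + star x + star x * x := by
    simp [add_mul, mul_add]; abel
  have e2 : star (1 + Complex.I • x) * (1 + Complex.I • x)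
      = 1 + Complex.I • x - Complex.I • star x + star x * x := by
    simp [add_mul, mul_add, star_smul, smul_smul]; abel
  rw [e1] at h1; rw [e2] at h2
  simp only [map_add, map_sub, map_smul, T.one, Complex.add_im, Complex.sub_im, smul_eq_mul,
    Complex.mul_im, Complex.I_re, Complex.I_im, Complex.one_im, h3] at h1 h2
  apply Complex.ext <;> simp <;> linarith

/-- the algebra with the 2-norm -/
def H (_T : Tr M) := M

instance : AddCommGroup T.H := inferInstanceAs (AddCommGroup M)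
instance : Module ℂ T.H := inferInstanceAs (Module ℂ M)

noncomputable def toH : M ≃ₗ[ℂ] T.H := LinearEquiv.refl ℂ _

@[instance_reducible] noncomputable def core : InnerProductSpace.Core ℂ T.H where
  inner x y := T.τ (star (T.toH.symm x) * T.toH.symm y)
  conj_inner_symm x y := by
    rw [← T.τ_star]; simp
  re_inner_nonneg x := T.re_ss _
  add_left x y z := by simp [add_mul]
  smul_left x y r := by simp [star_smul]
  definite x hx := by
    have := T.faith _ hx
    simpa using this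

noncomputable instance : NormedAddCommGroup T.H :=
  @InnerProductSpace.Core.toNormedAddCommGroup ℂ T.H _ _ _ T.core
noncomputable instance : InnerProductSpace ℂ T.H := InnerProductSpace.ofCore T.core.toCore

lemma inner_toH (x y : M) : ⟪T.toH x, T.toH y⟫_ℂ = T.τ (star x * y) := rfl

noncomputable def n2 (x : M) : ℝ := ‖T.toH x‖

lemma n2_nonneg (x : M) : 0 ≤ T.n2 x := norm_nonneg _

lemma n2_sq (x : M) : T.n2 x ^ 2 = (T.τ (star x * x)).re := by
  rw [n2, ← T.inner_toH, @norm_sq_eq_re_inner ℂ]; rfl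

lemma n2_sq' (x : M) : T.τ (star x * x) = ((T.n2 x ^ 2 : ℝ) : ℂ) := by
  apply Complex.ext
  · rw [T.n2_sq]; simp
  · rw [T.im_ss, Complex.ofReal_im]

lemma cs (x y : M) : ‖T.τ (star x * y)‖ ≤ T.n2 x * T.n2 y := by
  rw [← T.inner_toH]; exact norm_inner_le_norm _ _

lemma n2_eq_zero {x : M} (h : T.n2 x = 0) : x = 0 := by
  have : T.toH x = 0 := norm_eq_zero.1 h
  simpa using this

@[simp] lemma n2_zero : T.n2 0 = 0 := by simp [n2]
lemma n2_add_le (x y : M) : T.n2 (x + y) ≤ T.n2 x + T.n2 y := by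
  simp only [n2, map_add]; exact norm_add_le _ _
lemma n2_sub_le (x y : M) : T.n2 (x - y) ≤ T.n2 x + T.n2 y := by
  simp only [n2, map_sub]; exact norm_sub_le _ _
lemma n2_neg (x : M) : T.n2 (-x) = T.n2 x := by simp [n2]
lemma n2_sub_rev (x y : M) : T.n2 (x - y) = T.n2 (y - x) := by
  simp only [n2, map_sub]; exact norm_sub_rev _ _
lemma n2_smul (c : ℂ) (x : M) : T.n2 (c • x) = ‖c‖ * T.n2 x := by
  simp only [n2, map_smul]; exact norm_smul _ _
lemma n2_tri (x y z : M) : T.n2 (x - z) ≤ T.n2 (x - y) + T.n2 (y - z) := by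
  have := T.n2_add_le (x - y) (y - z)
  simpa using this

lemma eq_of_sq {a b : ℝ} (ha : 0 ≤ a) (hb : 0 ≤ b) (h : a ^ 2 = b ^ 2) : a = b := by
  nlinarith [abs_eq_abs.2 (sq_eq_sq_iff_eq_or_eq_neg.1 h), abs_of_nonneg ha, abs_of_nonneg hb]

@[simp] lemma n2_one : T.n2 1 = 1 := by
  apply eq_of_sq (T.n2_nonneg _) zero_le_one
  rw [T.n2_sq]; simp [T.one]

lemma n2_star (x : M) : T.n2 (star x) = T.n2 x := by
  apply eq_of_sq (T.n2_nonneg _) (T.n2_nonneg _)
  rw [T.n2_sq, T.n2_sq, star_star, T.tr]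

lemma τ_le_n2 (x : M) : ‖T.τ x‖ ≤ T.n2 x := by
  simpa using T.cs 1 x

lemma τ_mul_le (x y : M) : ‖T.τ (x * y)‖ ≤ T.n2 x * T.n2 y := by
  have := T.cs (star x) y
  rwa [star_star, T.n2_star] at this

lemma re_nonneg_of_nonneg [PartialOrder M] [StarOrderedRing M] {a : M} (ha : 0 ≤ a) :
    0 ≤ (T.τ a).re := by
  obtain ⟨c, rfl⟩ := CStarAlgebra.nonneg_iff_eq_star_mul_self.1 ha
  exact T.re_ss c

lemma n2_mul_left (a x : M) : T.n2 (a * x) ≤ ‖a‖ * T.n2 x := by
  let _ := CStarAlgebra.spectralOrder M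
  let _ := CStarAlgebra.spectralOrderedRing M
  have h : star x * (star a * a) * x ≤ ‖star a * a‖ • (star x * x) :=
    CStarAlgebra.star_left_conjugate_le_norm_smul (b := star a * a) (IsSelfAdjoint.star_mul_self a)
  have h2 := T.re_nonneg_of_nonneg (sub_nonneg.2 h)
  rw [map_sub, Complex.sub_re, CStarRing.norm_star_mul_self, ← Complex.coe_smul, map_smul,
    T.n2_sq', smul_eq_mul, ← Complex.ofReal_mul, Complex.ofReal_re] at h2
  have e : star x * (star a * a) * x = star (a * x) * (a * x) := by simp [mul_assoc]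
  rw [e, ← T.n2_sq] at h2
  have := T.n2_nonneg x
  have := T.n2_nonneg (a * x)
  apply le_of_sq_le_sq _ (by positivity)
  nlinarith

lemma n2_mul_right (x a : M) : T.n2 (x * a) ≤ T.n2 x * ‖a‖ := by
  rw [← T.n2_star, star_mul, mul_comm, ← T.n2_star x, ← norm_star a]
  exact T.n2_mul_left _ _

lemma n2_le_norm (a : M) : T.n2 a ≤ ‖a‖ := by simpa using T.n2_mul_left a 1

lemma τ_le_norm (a : M) : ‖T.τ a‖ ≤ ‖a‖ := (T.τ_le_n2 a).trans (T.n2_le_norm a)

lemma n2_unit_left {u : M} (hu : star u * u = 1) (x : M) : T.n2 (u * x) = T.n2 x := by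
  apply eq_of_sq (T.n2_nonneg _) (T.n2_nonneg _)
  rw [T.n2_sq, T.n2_sq]
  have : star (u * x) * (u * x) = star x * (star u * u) * x := by simp [mul_assoc]
  rw [this, hu, mul_one]

lemma n2_unit_right {u : M} (hu : u * star u = 1) (x : M) : T.n2 (x * u) = T.n2 x := by
  rw [← T.n2_star, star_mul, T.n2_unit_left (by simpa using hu), T.n2_star]

lemma τ_smul_one (c : ℂ) : T.τ (c • (1 : M)) = c := by simp [T.one]

include T in
lemma nontriv : Nontrivial M := ⟨⟨0, 1, fun h => by
  have := T.one; rw [← h] at this; simp at this⟩⟩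

/-- left multiplication as a continuous map for the 2-norm -/
noncomputable def mulH (a b : M) : T.H →L[ℂ] T.H :=
  LinearMap.mkContinuous
    (T.toH.toLinearMap ∘ₗ (LinearMap.mulLeft ℂ a ∘ₗ LinearMap.mulRight ℂ b) ∘ₗ T.toH.symm.toLinearMap)
    (‖a‖ * ‖b‖) (fun x => by
      have h1 := T.n2_mul_left a (T.toH.symm x * b)
      have h2 := T.n2_mul_right (T.toH.symm x) b
      have : T.n2 (T.toH.symm x) = ‖x‖ := rfl
      rw [this] at h2
      change T.n2 (a * (T.toH.symm x * b)) ≤ _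
      calc _ ≤ ‖a‖ * (‖x‖ * ‖b‖) := h1.trans (by gcongr)
        _ = _ := by ring)

lemma mulH_toH (a b x : M) : T.mulH a b (T.toH x) = T.toH (a * x * b) := by
  rw [mul_assoc]; rfl

/-- convergence in the 2-norm -/
def Lim (x : ℕ → M) (z : M) : Prop := Tendsto (fun n => T.n2 (x n - z)) atTop (𝓝 0)

lemma lim_iff {x : ℕ → M} {z : M} :
    T.Lim x z ↔ Tendsto (fun n => T.toH (x n)) atTop (𝓝 (T.toH z)) := by
  rw [tendsto_iff_norm_sub_tendsto_zero]; rfl

lemma Lim.unique {x : ℕ → M} {z w : M} (h : T.Lim x z) (h' : T.Lim x w) : z = w := by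
  rw [lim_iff] at h h'
  exact T.toH.injective (tendsto_nhds_unique h h')

lemma lim_const (z : M) : T.Lim (fun _ => z) z := by simp [Lim]

lemma Lim.add {x y : ℕ → M} {z w : M} (h : T.Lim x z) (h' : T.Lim y w) :
    T.Lim (fun n => x n + y n) (z + w) := by
  rw [lim_iff] at *
  simpa using h.add h'

lemma Lim.sub {x y : ℕ → M} {z w : M} (h : T.Lim x z) (h' : T.Lim y w) :
    T.Lim (fun n => x n - y n) (z - w) := by
  rw [lim_iff] at *
  simpa using h.sub h'

lemma Lim.str {x : ℕ → M} {z : M} (h : T.Lim x z) : T.Lim (fun n => star (x n)) (star z) := by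
  unfold Lim at *
  simpa only [← star_sub, T.n2_star] using h

lemma Lim.mul {x y : ℕ → M} {z w : M} {R : ℝ} (h : T.Lim x z) (h' : T.Lim y w)
    (hR : ∀ n, ‖x n‖ ≤ R) : T.Lim (fun n => x n * y n) (z * w) := by
  unfold Lim at *
  have h1 : Tendsto (fun n => R * T.n2 (y n - w) + T.n2 (x n - z) * ‖w‖) atTop (𝓝 0) := by
    simpa using (h'.const_mul R).add (h.mul_const ‖w‖)
  refine squeeze_zero (fun n => T.n2_nonneg _) (fun n => ?_) h1
  have e : x n * y n - z * w = x n * (y n - w) + (x n - z) * w := by noncomm_ring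
  rw [e]
  refine (T.n2_add_le _ _).trans (add_le_add ((T.n2_mul_left _ _).trans ?_) (T.n2_mul_right _ _))
  have := T.n2_nonneg (y n - w)
  gcongr
  exact hR n

lemma Lim.mul_left {y : ℕ → M} {w : M} (h' : T.Lim y w) (a : M) :
    T.Lim (fun n => a * y n) (a * w) := Lim.mul T (T.lim_const a) h' (fun _ => le_rfl)

lemma Lim.mul_right {y : ℕ → M} {w : M} (h' : T.Lim y w) (a : M) :
    T.Lim (fun n => y n * a) (w * a) := by
  have := Lim.str T (Lim.mul_left T (Lim.str T h') (star a))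
  simpa using this

lemma Lim.τ {x : ℕ → M} {z : M} (h : T.Lim x z) :
    Tendsto (fun n => T.τ (x n)) atTop (𝓝 (T.τ z)) := by
  rw [tendsto_iff_norm_sub_tendsto_zero]
  refine squeeze_zero (fun n => norm_nonneg _) (fun n => ?_) h
  rw [← map_sub]; exact T.τ_le_n2 _

lemma lim_of_norm {x : ℕ → M} {z : M} (h : Tendsto x atTop (𝓝 z)) : T.Lim x z := by
  rw [tendsto_iff_norm_sub_tendsto_zero] at h
  exact squeeze_zero (fun n => T.n2_nonneg _) (fun n => T.n2_le_norm _) h

/-- completeness of the unit ball in 2-norm -/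
def Cpl : Prop := ∀ x : ℕ → M, (∀ n, ‖x n‖ ≤ 1) → CauchySeq (fun n => T.toH (x n)) →
  ∃ z, ‖z‖ ≤ 1 ∧ T.Lim x z

lemma Cpl.ball {T : Tr M} (h : T.Cpl) (R : ℝ) (x : ℕ → M) (hx : ∀ n, ‖x n‖ ≤ R)
    (hc : CauchySeq (fun n => T.toH (x n))) : ∃ z, ‖z‖ ≤ R ∧ T.Lim x z := by
  have hR : 0 ≤ R := (norm_nonneg _).trans (hx 0)
  rcases hR.eq_or_lt with rfl | hR
  · refine ⟨0, by simp, ?_⟩
    have : x = fun _ => 0 := funext fun n => norm_le_zero_iff.1 (hx n)
    rw [this]; exact T.lim_const 0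
  · obtain ⟨z, hz, hl⟩ := h (fun n => ((R⁻¹ : ℝ) : ℂ) • x n) (fun n => by
      rw [norm_smul, Complex.norm_real, Real.norm_of_nonneg (by positivity)]
      rw [inv_mul_le_iff₀ hR]; simpa using hx n) (by
      simp only [map_smul]
      exact (uniformContinuous_const_smul _).comp_cauchySeq hc)
    refine ⟨(R : ℂ) • z, ?_, ?_⟩
    · rw [norm_smul, Complex.norm_real, Real.norm_of_nonneg hR.le]; nlinarith
    · rw [lim_iff] at hl ⊢
      have := hl.const_smul (R : ℂ)
      simp only [map_smul, smul_smul] at this ⊢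
      have e : (R : ℂ) * ((R⁻¹ : ℝ) : ℂ) = 1 := by
        push_cast; exact mul_inv_cancel₀ (by exact_mod_cast hR.ne')
      simpa only [e, one_smul] using this

lemma Cpl.isComplete {T : Tr M} (h : T.Cpl) (R : ℝ) :
    IsComplete {ξ : T.H | ‖T.toH.symm ξ‖ ≤ R} := by
  rw [← completeSpace_coe_iff_isComplete]
  apply Metric.complete_of_cauchySeq_tendsto
  intro u hu
  obtain ⟨z, hz, hl⟩ := h.ball R (fun n => T.toH.symm (u n).1) (fun n => (u n).2)
    (uniformContinuous_subtype_val.comp_cauchySeq hu)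
  rw [lim_iff] at hl
  exact ⟨⟨T.toH z, hz⟩, tendsto_subtype_rng.2 hl⟩

end Tr
end Vale.Agent.P085
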