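import Vale.Agent.P085.Final

open scoped ComplexOrder InnerProductSpace ComplexConjugate
open Filter Topology

set_option linter.unusedSimpArgs false
set_option linter.deprecated false
set_option linter.unusedSectionVars false

namespace Vale.Agent.P085
variable {H : Type*} [NormedAddCommGroup H] [InnerProductSpace ℂ H] [CompleteSpace H]

def WT {ι : Type*} (l : Filter ι) (f : ι → H →L[ℂ] H) (x : H →L[ℂ] H) : Prop :=
  ∀ ξ η, Tendsto (fun i => ⟪η, f i ξ⟫_ℂ) l (𝓝 ⟪η, x ξ⟫_ℂ)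

lemma WT.mul_left {ι : Type*} {l : Filter ι} {f : ι → H →L[ℂ] H} {x : H →L[ℂ] H} (h : WT l f x)
    (c : H →L[ℂ] H) : WT l (fun i => c * f i) (c * x) := fun ξ η => by
  simpa only [ContinuousLinearMap.mul_apply, ← ContinuousLinearMap.adjoint_inner_left c] using
    h ξ (ContinuousLinearMap.adjoint c η)

lemma WT.mul_right {ι : Type*} {l : Filter ι} {f : ι → H →L[ℂ] H} {x : H →L[ℂ] H} (h : WT l f x)
    (c : H →L[ℂ] H) : WT l (fun i => f i * c) (x * c) := fun ξ η => h (c ξ) η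

lemma WT.const_sub {ι : Type*} {l : Filter ι} {f : ι → H →L[ℂ] H} {x : H →L[ℂ] H} (h : WT l f x)
    (c : H →L[ℂ] H) : WT l (fun i => c - f i) (c - x) := fun ξ η => by
  simpa only [ContinuousLinearMap.sub_apply, inner_sub_right] using (h ξ η).const_sub _

lemma WT.smul {ι : Type*} {l : Filter ι} {f : ι → H →L[ℂ] H} {x : H →L[ℂ] H} (h : WT l f x)
    (c : ℂ) : WT l (fun i => c • f i) (c • x) := fun ξ η => by
  simpa only [ContinuousLinearMap.smul_apply, inner_smul_right] using (h ξ η).const_mul c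

lemma WT.unique {ι : Type*} {l : Filter ι} [l.NeBot] {f : ι → H →L[ℂ] H} {x y : H →L[ℂ] H}
    (h : WT l f x) (h' : WT l f y) : x = y := by
  ext ξ
  exact ext_inner_left ℂ fun η => tendsto_nhds_unique (h ξ η) (h' ξ η)

lemma WT.mem {ι : Type*} {l : Filter ι} [l.NeBot] {f : ι → H →L[ℂ] H} {x : H →L[ℂ] H}
    (h : WT l f x) {M : VonNeumannAlgebra H} (hf : ∀ i, f i ∈ M) : x ∈ M := by
  rw [← M.commutant_commutant, VonNeumannAlgebra.mem_commutant_iff]
  intro g hg
  refine (h.mul_left g).unique ?_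
  simpa only [VonNeumannAlgebra.mem_commutant_iff.1 hg _ (hf _)] using h.mul_right g

lemma exists_WT {ι : Type*} (U : Ultrafilter ι) (f : ι → H →L[ℂ] H) {R : ℝ} (hR0 : 0 ≤ R)
    (hR : ∀ i, ‖f i‖ ≤ R) : ∃ z : H →L[ℂ] H, ‖z‖ ≤ R ∧ WT U f z := by
  have hb : ∀ i v w, ‖⟪f i v, w⟫_ℂ‖ ≤ R * ‖v‖ * ‖w‖ := fun i v w =>
    (norm_inner_le_norm _ _).trans (mul_le_mul_of_nonneg_right (((f i).le_opNorm v).trans
      (mul_le_mul_of_nonneg_right (hR i) (norm_nonneg _))) (norm_nonneg _))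
  have h1 : ∀ v w : H, ∃ c : ℂ, ‖c‖ ≤ R * ‖v‖ * ‖w‖ ∧
      Tendsto (fun i => ⟪f i v, w⟫_ℂ) U (𝓝 c) := fun v w => by
    obtain ⟨c, hc, h⟩ := (isCompact_closedBall (0 : ℂ) (R * ‖v‖ * ‖w‖)).ultrafilter_le_nhds
      (U.map fun i => ⟪f i v, w⟫_ℂ) (by
        rw [le_principal_iff, Ultrafilter.coe_map, mem_map]
        exact Eventually.of_forall fun i => by simpa using hb i v w)
    exact ⟨c, by simpa using hc, h⟩
  choose B hB hl using h1
  let B' : H →ₛₗ[starRingEnd ℂ] H →ₛₗ[RingHom.id ℂ] ℂ :=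
    LinearMap.mk₂'ₛₗ (starRingEnd ℂ) (RingHom.id ℂ) B
      (fun a b w => tendsto_nhds_unique (hl _ _) (by
        simpa only [map_add, inner_add_left] using (hl a w).add (hl b w)))
      (fun c a w => tendsto_nhds_unique (hl _ _) (by
        simpa only [map_smul, inner_smul_left, smul_eq_mul] using (hl a w).const_mul (conj c)))
      (fun a v w => tendsto_nhds_unique (hl _ _) (by
        simpa only [inner_add_right] using (hl a v).add (hl a w)))
      (fun c a w => tendsto_nhds_unique (hl _ _) (by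
        simpa only [inner_smul_right, smul_eq_mul, RingHom.id_apply] using (hl a w).const_mul c))
  let z := InnerProductSpace.continuousLinearMapOfBilin (B'.mkContinuous₂ R hB)
  have hz : ∀ v w, ⟪z v, w⟫_ℂ = B v w := fun v w =>
    InnerProductSpace.continuousLinearMapOfBilin_apply _ v w
  refine ⟨z, z.opNorm_le_bound hR0 fun v => ?_, fun ξ η => ?_⟩
  · have := hB v (z v)
    rw [← hz, inner_self_eq_norm_sq_to_K, norm_pow, RCLike.norm_ofReal, abs_norm, sq] at this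
    rcases (norm_nonneg (z v)).eq_or_lt with e | e
    · rw [← e]; positivity
    · exact le_of_mul_le_mul_right this e
  · have := (Complex.continuous_conj.tendsto _).comp (hl ξ η)
    rw [← hz, inner_conj_symm] at this
    refine this.congr fun i => ?_
    simp

theorem vnClosed (M : VonNeumannAlgebra H) : IsClosed (M.toStarSubalgebra : Set (H →L[ℂ] H)) := by
  rw [VonNeumannAlgebra.coe_toStarSubalgebra, ← M.centralizer_centralizer]
  exact Set.isClosed_centralizer _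

attribute [local instance] vnClosed

variable {M : VonNeumannAlgebra H} (T : Tr M.toStarSubalgebra)

def Nm : Prop := ∀ (l : Filter M.toStarSubalgebra) (x : M.toStarSubalgebra), ‖x‖ ≤ 1 →
  (∀ᶠ a in l, ‖a‖ ≤ 1) → WT l (fun a => (a : H →L[ℂ] H)) x → Tendsto T.τ l (𝓝 (T.τ x))

variable {T}

lemma Nm.lim (hn : Nm T) {ι : Type*} {l : Filter ι} {f : ι → M.toStarSubalgebra}
    {x : M.toStarSubalgebra} {R : ℝ} (hR : ∀ i, ‖f i‖ ≤ R)
    (h : WT l (fun i => (f i : H →L[ℂ] H)) x) : Tendsto (fun i => T.τ (f i)) l (𝓝 (T.τ x)) := by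
  set r := |R| + ‖x‖ + 1 with hr
  have r0 : 0 < r := by positivity
  have hb : ∀ a : M.toStarSubalgebra, ‖a‖ ≤ r → ‖((r⁻¹ : ℝ) : ℂ) • a‖ ≤ 1 := fun a ha => by
    rw [norm_smul, Complex.norm_real, Real.norm_of_nonneg (by positivity), inv_mul_le_iff₀ r0]
    simpa using ha
  have w : WT (l.map fun i => ((r⁻¹ : ℝ) : ℂ) • f i) (fun a => (a : H →L[ℂ] H))
      ((((r⁻¹ : ℝ) : ℂ) • x : M.toStarSubalgebra) : H →L[ℂ] H) := fun ξ η => by
    rw [tendsto_map'_iff]
    exact h.smul ((r⁻¹ : ℝ) : ℂ) ξ η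
  have := hn _ _ (hb _ (by linarith [abs_nonneg R])) (by
    rw [eventually_map]
    exact Eventually.of_forall fun i => hb _ (by linarith [hR i, le_abs_self R, norm_nonneg x])) w
  have t := (tendsto_map'_iff.1 this).const_mul (r : ℂ)
  have e : ∀ c : ℂ, (r : ℂ) * (((r⁻¹ : ℝ) : ℂ) * c) = c := fun c => by
    rw [← mul_assoc, ← Complex.ofReal_mul, mul_inv_cancel₀ r0.ne']; simp
  simpa only [Function.comp, map_smul, smul_eq_mul, e] using t

lemma Nm.cpl (hn : Nm T) : T.Cpl := by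
  intro x hx hc
  obtain ⟨z, hz, hl⟩ := exists_WT (hyperfilter ℕ) (fun n => (x n : H →L[ℂ] H)) zero_le_one hx
  let z' : M.toStarSubalgebra := ⟨z, hl.mem fun n => (x n).2⟩
  refine ⟨z', hz, ?_⟩
  rw [Tr.Lim, Metric.tendsto_atTop]
  intro ε hε
  obtain ⟨N, hN⟩ := Metric.cauchySeq_iff.1 hc (ε / 2) (half_pos hε)
  refine ⟨N, fun m hm => ?_⟩
  rw [Real.dist_eq, sub_zero, abs_of_nonneg (T.n2_nonneg _)]
  have t := (hn.lim (f := fun n => star (x m - z') * (x m - x n)) (x := star (x m - z') * (x m - z'))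
    (R := ‖star (x m - z')‖ * (1 + 1)) (fun n => (norm_mul_le _ _).trans (by
      gcongr; exact (norm_sub_le _ _).trans (add_le_add (hx m) (hx n))))
    ((hl.const_sub _).mul_left _)).norm
  have b : ‖T.τ (star (x m - z') * (x m - z'))‖ ≤ T.n2 (x m - z') * (ε / 2) := by
    refine le_of_tendsto t ?_
    filter_upwards [Nat.hyperfilter_le_atTop (eventually_ge_atTop N)] with n hn
    refine (T.cs _ _).trans (mul_le_mul_of_nonneg_left ?_ (T.n2_nonneg _))
    have := hN m hm n hn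
    rw [dist_eq_norm, ← map_sub] at this
    exact this.le
  rw [T.n2_sq', Complex.norm_real, Real.norm_of_nonneg (sq_nonneg _)] at b
  nlinarith [T.n2_nonneg (x m - z')]

lemma Nm.sot (hn : Nm T) {a : ℕ → M.toStarSubalgebra} {R : ℝ} (hR : ∀ n, ‖a n‖ ≤ R)
    (h : Tendsto (fun n => T.n2 (a n)) atTop (𝓝 0)) (ξ : H) :
    Tendsto (fun n => ‖(a n : H →L[ℂ] H) ξ‖) atTop (𝓝 0) := by
  have R0 : 0 ≤ R := (norm_nonneg _).trans (hR 0)
  have hb : ∀ n, ‖star (a n) * a n‖ ≤ R * R := fun n => by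
    rw [CStarRing.norm_star_mul_self]; exact mul_le_mul (hR n) (hR n) (norm_nonneg _) R0
  rw [tendsto_iff_ultrafilter]
  intro U hU
  obtain ⟨b, -, hl⟩ := exists_WT U (fun n => ((star (a n) * a n : M.toStarSubalgebra) : H →L[ℂ] H))
    (by positivity) hb
  let b' : M.toStarSubalgebra := ⟨b, hl.mem fun n => (star (a n) * a n).2⟩
  have t := hn.lim (f := fun n => star b' * (star (a n) * a n)) (x := star b' * b')
    (R := ‖star b'‖ * (R * R)) (fun n => (norm_mul_le _ _).trans (by gcongr; exact hb n))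
    (hl.mul_left _)
  have t2 : Tendsto (fun n => T.τ (star b' * (star (a n) * a n))) U (𝓝 0) := by
    have := (h.const_mul (T.n2 b' * R)).mono_left hU
    rw [mul_zero] at this
    refine squeeze_zero_norm (fun n => (T.cs _ _).trans ?_) this
    rw [mul_assoc]
    refine mul_le_mul_of_nonneg_left ((T.n2_mul_left _ _).trans ?_) (T.n2_nonneg _)
    rw [norm_star]
    exact mul_le_mul_of_nonneg_right (hR n) (T.n2_nonneg _)
  have h0 : b = 0 := congrArg Subtype.val (T.faith b' (tendsto_nhds_unique t t2))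
  have t3 := (hl ξ ξ).norm.sqrt
  simp only [h0, ContinuousLinearMap.zero_apply, inner_zero_right, norm_zero, Real.sqrt_zero] at t3
  refine t3.congr fun n => ?_
  change √‖⟪ξ, (star (a n : H →L[ℂ] H) * a n) ξ⟫_ℂ‖ = _
  rw [ContinuousLinearMap.mul_apply, ContinuousLinearMap.star_eq_adjoint,
    ContinuousLinearMap.adjoint_inner_right, inner_self_eq_norm_sq_to_K, norm_pow,
    RCLike.norm_ofReal, abs_norm, Real.sqrt_sq (norm_nonneg _)]

lemma Nm.wt (hn : Nm T) {x : ℕ → M.toStarSubalgebra} {z : M.toStarSubalgebra} {R : ℝ}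
    (hR : ∀ n, ‖x n‖ ≤ R) (h : T.Lim x z) : WT atTop (fun n => (x n : H →L[ℂ] H)) z := by
  intro ξ η
  have := hn.sot (a := fun n => x n - z) (R := R + ‖z‖)
    (fun n => (norm_sub_le _ _).trans (by linarith [hR n])) h ξ
  exact tendsto_const_nhds.inner (tendsto_iff_norm_sub_tendsto_zero.2 this)

lemma Nm.of_sot (hn : Nm T) {a : ℕ → M.toStarSubalgebra} {R : ℝ} (hR : ∀ n, ‖a n‖ ≤ R)
    (h : ∀ ξ, Tendsto (fun n => (a n : H →L[ℂ] H) ξ) atTop (𝓝 0)) :
    Tendsto (fun n => T.n2 (a n)) atTop (𝓝 0) := by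
  have R0 : 0 ≤ R := (norm_nonneg _).trans (hR 0)
  have hb : ∀ n, ‖star (a n) * a n‖ ≤ R * R := fun n => by
    rw [CStarRing.norm_star_mul_self]; exact mul_le_mul (hR n) (hR n) (norm_nonneg _) R0
  have t := (hn.lim (l := atTop) (x := 0) hb fun ξ η => by
    have := (h η).inner (𝕜 := ℂ) (h ξ)
    simp only [inner_zero_left] at this
    simp only [ZeroMemClass.coe_zero, ContinuousLinearMap.zero_apply, inner_zero_right]
    refine this.congr fun n => ?_
    change _ = ⟪η, (star (a n : H →L[ℂ] H) * a n) ξ⟫_ℂ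
    rw [ContinuousLinearMap.mul_apply, ContinuousLinearMap.star_eq_adjoint,
      ContinuousLinearMap.adjoint_inner_right]).norm.sqrt
  simp only [map_zero, norm_zero, Real.sqrt_zero] at t
  refine t.congr fun n => ?_
  rw [T.n2_sq', Complex.norm_real, Real.norm_of_nonneg (sq_nonneg _), Real.sqrt_sq (T.n2_nonneg _)]

lemma Nm.sep [TopologicalSpace.SeparableSpace H] (hn : Nm T) :
    ∃ ξ : ℕ → M.toStarSubalgebra, ∀ x, ∀ ε > 0, ∃ k, T.n2 (x - ξ k) < ε := by
  have : SecondCountableTopology H := UniformSpace.secondCountable_of_separable H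
  let v := TopologicalSpace.denseSeq H
  let Θ : M.toStarSubalgebra → ℝ × (ℕ → H) := fun a => (‖a‖, fun k => (a : H →L[ℂ] H) (v k))
  obtain ⟨t, h1, h2, h3⟩ :=
    (TopologicalSpace.IsSeparable.of_separableSpace (Set.range Θ)).exists_countable_dense_subset
  obtain ⟨e, rfl⟩ := h2.exists_eq_range (closure_nonempty_iff.1 ⟨_, h3 ⟨0, rfl⟩⟩)
  choose ξ hξ using fun k => h1 ⟨k, rfl⟩
  refine ⟨ξ, fun x ε hε => ?_⟩
  obtain ⟨u, hu, hl⟩ := mem_closure_iff_seq_limit.1 (h3 ⟨x, rfl⟩)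
  choose φ hφ using hu
  have hl' : Tendsto (fun j => Θ (ξ (φ j))) atTop (𝓝 (Θ x)) := by simpa only [hξ, hφ] using hl
  obtain ⟨R, hR⟩ := (Metric.isBounded_range_of_tendsto _ hl'.fst_nhds).exists_norm_le
  have hb : ∀ j, ‖x - ξ (φ j)‖ ≤ ‖x‖ + R := fun j => (norm_sub_le _ _).trans (by
    have := hR _ ⟨j, rfl⟩
    simp only [Θ, norm_norm] at this
    linarith)
  have R0 : 0 ≤ ‖x‖ + R := (norm_nonneg _).trans (hb 0)
  have t := hn.of_sot hb fun w => by
    rw [Metric.tendsto_atTop]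
    intro δ hδ
    obtain ⟨k, hk⟩ := (TopologicalSpace.denseRange_denseSeq H).exists_dist_lt w
      (ε := δ / 2 / (‖x‖ + R + 1)) (by positivity)
    obtain ⟨N, hN⟩ := Metric.tendsto_atTop.1 (tendsto_pi_nhds.1 hl'.snd_nhds k) (δ / 2) (half_pos hδ)
    refine ⟨N, fun n hn => ?_⟩
    have a1 := hN n hn
    rw [dist_comm, dist_eq_norm] at a1
    rw [dist_eq_norm, lt_div_iff₀ (by positivity)] at hk
    have a2 := (((x - ξ (φ n) : M.toStarSubalgebra) : H →L[ℂ] H).le_opNorm (w - v k)).trans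
      (mul_le_mul_of_nonneg_right (hb n) (norm_nonneg _))
    have a3 := norm_add_le (((x - ξ (φ n) : M.toStarSubalgebra) : H →L[ℂ] H) (w - v k))
      (((x - ξ (φ n) : M.toStarSubalgebra) : H →L[ℂ] H) (v k))
    rw [← map_add, sub_add_cancel] at a3
    have a4 : ‖((x - ξ (φ n) : M.toStarSubalgebra) : H →L[ℂ] H) (v k)‖ < δ / 2 := a1
    rw [dist_zero_right]
    nlinarith [norm_nonneg (w - v k)]
  exact ((t.eventually (gt_mem_nhds hε)).exists).imp' φ fun _ h => h

theorem gen3 [TopologicalSpace.SeparableSpace H] (hn : Nm T) (hf : Fac M.toStarSubalgebra)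
    (hi : ¬ FiniteDimensional ℂ M.toStarSubalgebra) :
    ∃ x ∈ M, ∀ N : StarSubalgebra ℂ (H →L[ℂ] H),
      (∀ (f : ℕ → H →L[ℂ] H) z, (∀ n, f n ∈ N) → WT atTop f z → z ∈ N) → x ∈ N → ∀ a ∈ M, a ∈ N := by
  obtain ⟨ξ, hξ⟩ := hn.sep
  obtain ⟨x, hx⟩ := gen2 T hn.cpl hf hi ξ hξ
  exact ⟨x, x.2, fun N hN h a ha => hx (N.comap M.toStarSubalgebra.subtype)
    (fun f z R h1 h2 h3 => hN _ _ h1 (hn.wt h2 h3)) h ⟨a, ha⟩⟩

end Vale.Agent.P085
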