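import Vale.Agent.P085.Basic

open scoped ComplexOrder InnerProductSpace ComplexConjugate
open Filter Topology

set_option linter.unusedSimpArgs false
set_option linter.unusedSectionVars false

namespace Vale.Agent.P085
variable {M : Type*} [CStarAlgebra M] {I : Type*} [DecidableEq I] [BEq I] [LawfulBEq I]

noncomputable def φ (V : I → unitary M) (γ : FreeGroup I) : M := (FreeGroup.lift V γ : unitary M)

lemma φ_mul (V : I → unitary M) (γ δ : FreeGroup I) : φ V (γ * δ) = φ V γ * φ V δ := by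
  simp [φ]

lemma φ_one (V : I → unitary M) : φ V 1 = 1 := by simp [φ]

lemma φ_of (V : I → unitary M) (f : I) : φ V (FreeGroup.of f) = V f := by simp [φ]

lemma φ_inv (V : I → unitary M) (f : I) : φ V (FreeGroup.of f)⁻¹ = star (V f : M) := by
  simp only [φ, map_inv, FreeGroup.lift_apply_of]; rfl

def ex (f : I) : FreeGroup I →* Multiplicative ℤ :=
  FreeGroup.lift (fun g => if g = f then Multiplicative.ofAdd 1 else 1)

lemma ex_self (f : I) : ex f (FreeGroup.of f) = Multiplicative.ofAdd 1 := by simp [ex]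

lemma ex_ne {f g : I} (h : g ≠ f) : ex f (FreeGroup.of g) = 1 := by simp [ex, h]

noncomputable def tt (σ : ℝ) (v : M) : M := (σ : ℂ) • (star v - v)

noncomputable def AA (σ : ℝ) (V : I → unitary M) (l : List I) : M :=
  (l.map fun f => 1 + tt σ (V f : M)).prod

lemma expand (T : Tr M) (σ : ℝ) (V : I → unitary M) (b R : M) (γ : FreeGroup I) (f : I) :
    T.τ (b * (φ V γ * (tt σ (V f : M) * R))) =
      σ * T.τ (b * (φ V (γ * (FreeGroup.of f)⁻¹) * R)) -
        σ * T.τ (b * (φ V (γ * FreeGroup.of f) * R)) := by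
  simp only [φ_mul, φ_inv, φ_of, tt, smul_mul_assoc, mul_smul_comm, map_smul, sub_mul, mul_sub,
    map_sub, smul_eq_mul, mul_assoc]

section
variable (T : Tr M) {J : Type*} {L : Filter J} {V : J → I → unitary M} {b : M} (σ : ℝ)
  (hfree : ∀ γ, γ ≠ 1 → Tendsto (fun j => T.τ (b * φ (V j) γ)) L (𝓝 0))
include hfree

lemma claim1 {f : I} {γ1 : FreeGroup I} (h1 : ex f γ1 = 1) (l : List I) (hl : f ∉ l)
    (γ0 : FreeGroup I) (h0 : ex f γ0 ≠ 1) :
    Tendsto (fun j => T.τ (b * (φ (V j) γ0 * (AA σ (V j) l * φ (V j) γ1)))) L (𝓝 0) := by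
  induction l generalizing γ0 with
  | nil =>
    have := hfree (γ0 * γ1) (fun h => h0 (by
      have := congrArg (ex f) h
      rwa [map_mul, h1, mul_one, map_one] at this))
    simpa [AA, φ_mul] using this
  | cons g l ih =>
    have hg : g ≠ f := fun h => hl (by simp [h])
    have hl' : f ∉ l := fun h => hl (by simp [h])
    have a0 := ih hl' γ0 h0
    have a1 := ih hl' (γ0 * (FreeGroup.of g)⁻¹) (by simpa [ex_ne hg] using h0)
    have a2 := ih hl' (γ0 * FreeGroup.of g) (by simpa [ex_ne hg] using h0)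
    have := a0.add ((a1.const_mul (σ : ℂ)).sub (a2.const_mul (σ : ℂ)))
    simp only [mul_zero, sub_zero, add_zero, ← expand] at this
    refine this.congr fun j => ?_
    simp only [AA, List.map_cons, List.prod_cons, add_mul, mul_add, map_add, one_mul, mul_assoc]

lemma claim2 (o : I) {γ1 : FreeGroup I} (h1 : ∀ f, f ≠ o → ex f γ1 = 1) (l : List I)
    (hl : l.Pairwise (fun f g => f = g → f = o)) (γ0 : FreeGroup I)
    (h0 : ∀ f, f ≠ o → ex f γ0 = 1) :
    Tendsto (fun j => T.τ (b * (φ (V j) γ0 *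
      ((AA σ (V j) l - (1 + tt σ (V j o : M)) ^ l.count o) * φ (V j) γ1)))) L (𝓝 0) := by
  induction l generalizing γ0 with
  | nil => simpa [AA] using tendsto_const_nhds
  | cons g l ih =>
    rw [List.pairwise_cons] at hl
    have a0 := ih hl.2 γ0 h0
    by_cases hg : g = o
    · subst hg
      have a1 := ih hl.2 (γ0 * (FreeGroup.of g)⁻¹) (fun f hf => by simp [ex_ne hf.symm, h0 f hf])
      have a2 := ih hl.2 (γ0 * FreeGroup.of g) (fun f hf => by simp [ex_ne hf.symm, h0 f hf])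
      have := a0.add ((a1.const_mul (σ : ℂ)).sub (a2.const_mul (σ : ℂ)))
      simp only [mul_zero, sub_zero, add_zero, ← expand] at this
      refine this.congr fun j => ?_
      rw [← map_add, ← mul_add, ← mul_add, List.count_cons_self, pow_succ']
      simp only [AA, List.map_cons, List.prod_cons]
      congr 3
      noncomm_ring
    · have hl' : g ∉ l := fun h => hg (hl.1 g h rfl)
      have a1 := claim1 T σ hfree (h1 g hg) l hl' (γ0 * (FreeGroup.of g)⁻¹)
        (by simp [ex_self, h0 g hg])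
      have a2 := claim1 T σ hfree (h1 g hg) l hl' (γ0 * FreeGroup.of g)
        (by simp [ex_self, h0 g hg])
      have := a0.add ((a1.const_mul (σ : ℂ)).sub (a2.const_mul (σ : ℂ)))
      simp only [mul_zero, sub_zero, add_zero, ← expand] at this
      refine this.congr fun j => ?_
      rw [← map_add, ← mul_add, ← mul_add, List.count_cons_of_ne hg]
      simp only [AA, List.map_cons, List.prod_cons]
      congr 3
      noncomm_ring

end

lemma prod_approx [Nontrivial M] (l : List I) (U W : I → M) {ε : ℝ} (hε : 0 ≤ ε)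
    (hU : ∀ f, ‖U f‖ ≤ 1) (hW : ∀ f, ‖U f - W f‖ ≤ ε) :
    ‖(l.map W).prod‖ ≤ (1 + ε) ^ l.length ∧
      ‖(l.map U).prod - (l.map W).prod‖ ≤ (1 + ε) ^ l.length - 1 := by
  induction l with
  | nil => simp
  | cons g l ih =>
    simp only [List.map_cons, List.prod_cons, List.length_cons, pow_succ]
    have a1 : ‖W g‖ ≤ 1 + ε := by
      have := norm_sub_le (U g) (U g - W g)
      rw [sub_sub_cancel] at this; linarith [hU g, hW g]
    refine ⟨(norm_mul_le _ _).trans ?_, ?_⟩
    · rw [mul_comm]; exact mul_le_mul ih.1 a1 (norm_nonneg _) (by positivity)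
    · have e : U g * (l.map U).prod - W g * (l.map W).prod =
          U g * ((l.map U).prod - (l.map W).prod) + (U g - W g) * (l.map W).prod := by noncomm_ring
      rw [e]
      have b1 := (norm_mul_le _ _).trans (mul_le_mul (hU g) ih.2 (norm_nonneg _) zero_le_one)
      have b2 := (norm_mul_le _ _).trans (mul_le_mul (hW g) ih.1 (norm_nonneg _) hε)
      refine (norm_add_le _ _).trans ?_
      linarith

lemma pow_approx [Nontrivial M] (t : M) {a : ℝ} (ha : ‖t‖ ≤ a) (B : ℕ) :
    ‖(1 + t) ^ B - 1 - (B : ℂ) • t‖ ≤ (1 + a) ^ B - 1 - B * a := by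
  have h0 : 0 ≤ a := (norm_nonneg _).trans ha
  induction B with
  | zero => simp
  | succ B ih =>
    have e : (1 + t) ^ (B + 1) - 1 - ((B + 1 : ℕ) : ℂ) • t =
        (1 + t) * ((1 + t) ^ B - 1 - (B : ℂ) • t) + (B : ℂ) • (t * t) := by
      rw [pow_succ']
      simp only [mul_sub, add_mul, mul_smul_comm, one_mul, mul_one, Nat.cast_succ]
      module
    rw [e]
    have a1 : ‖1 + t‖ ≤ 1 + a := (norm_add_le _ _).trans (by simpa using ha)
    have b1 := (norm_mul_le _ _).trans (mul_le_mul a1 ih (norm_nonneg _) (by positivity))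
    have b2 : ‖(B : ℂ) • (t * t)‖ ≤ B * (a * a) := by
      rw [norm_smul, Complex.norm_natCast]
      gcongr
      exact (norm_mul_le _ _).trans (mul_le_mul ha ha (norm_nonneg _) h0)
    refine (norm_add_le _ _).trans ((add_le_add b1 b2).trans (le_of_eq ?_))
    push_cast; ring

lemma pow_le_exp {a : ℝ} (ha : 0 ≤ a) (N : ℕ) : (1 + a) ^ N ≤ Real.exp (N * a) := by
  rw [Real.exp_nat_mul]
  gcongr
  linarith [Real.add_one_le_exp a]

lemma pow_est1 {a : ℝ} (ha : 0 ≤ a) (N : ℕ) (h : N * a ≤ 1) : (1 + a) ^ N - 1 ≤ 2 * (N * a) := by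
  have h0 : 0 ≤ N * a := by positivity
  have := Real.abs_exp_sub_one_le (x := N * a) (by rwa [abs_of_nonneg h0])
  rw [abs_of_nonneg h0] at this
  linarith [pow_le_exp ha N, le_abs_self (Real.exp (N * a) - 1)]

lemma pow_est2 {a : ℝ} (ha : 0 ≤ a) (N : ℕ) (h : N * a ≤ 1) :
    (1 + a) ^ N - 1 - N * a ≤ (N * a) ^ 2 := by
  have h0 : 0 ≤ N * a := by positivity
  have := Real.abs_exp_sub_one_sub_id_le (x := N * a) (by rwa [abs_of_nonneg h0])
  linarith [pow_le_exp ha N, le_abs_self (Real.exp (N * a) - 1 - N * a)]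

lemma norm_tt [Nontrivial M] {σ : ℝ} (hσ : 0 ≤ σ) (v : unitary M) : ‖tt σ (v : M)‖ ≤ 2 * σ := by
  rw [tt, norm_smul, Complex.norm_real, Real.norm_of_nonneg hσ, mul_comm]
  gcongr
  refine (norm_sub_le _ _).trans ?_
  rw [norm_star, CStarRing.norm_coe_unitary]; norm_num

section
variable (T : Tr M) {J : Type*} {L : Filter J} {V : J → I → unitary M} {b : M} {σ : ℝ}
  (hfree : ∀ γ, γ ≠ 1 → Tendsto (fun j => T.τ (b * φ (V j) γ)) L (𝓝 0))
  (o : I) (l : List I) (hl : l.Pairwise (fun f g => f = g → f = o))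
  (U : J → I → M) (hU : ∀ j f, ‖U j f‖ ≤ 1) (hσ : 0 ≤ σ)
  (hW : ∀ j f, ‖U j f - (1 + tt σ (V j f : M))‖ ≤ 4 * σ ^ 2)
include hfree hl hU hW hσ

lemma est_gen {γ1 : FreeGroup I} (h1 : ∀ f, f ≠ o → ex f γ1 = 1)
    (hN : l.length * (4 * σ ^ 2) ≤ 1) (hc : l.count o * (2 * σ) ≤ 1) :
    ∃ r : J → ℂ, Tendsto r L (𝓝 0) ∧ ∀ j,
      ‖T.τ (b * ((l.map (U j)).prod * φ (V j) γ1)) -
        T.τ (b * ((1 + (l.count o : ℂ) • tt σ (V j o : M)) * φ (V j) γ1)) - r j‖ ≤
      T.n2 b * (2 * (l.length * (4 * σ ^ 2)) + (l.count o * (2 * σ)) ^ 2) := by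
  have := T.nontriv
  refine ⟨_, claim2 T σ hfree o h1 l hl 1 (fun _ _ => map_one _), fun j => ?_⟩
  have a1 := ((prod_approx l (U j) (fun f => 1 + tt σ (V j f : M)) (by positivity) (hU j)
    (hW j)).2).trans (pow_est1 (by positivity) _ hN)
  have a2 := (pow_approx _ (norm_tt hσ (V j o)) (l.count o)).trans (pow_est2 (by positivity) _ hc)
  rw [← map_sub, ← map_sub, φ_one, one_mul, ← mul_sub, ← mul_sub, ← sub_mul, ← sub_mul]
  refine (T.τ_mul_le _ _).trans (mul_le_mul_of_nonneg_left ?_ (T.n2_nonneg _))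
  refine (T.n2_le_norm _).trans ?_
  rw [φ, CStarRing.norm_mul_coe_unitary]
  refine le_trans (le_of_eq ?_) ((norm_add_le _ _).trans (add_le_add a1 a2))
  congr 1
  simp only [AA]; abel

omit hl hU hW hσ in
lemma lim_of : Tendsto (fun j => T.τ (b * (V j o : M))) L (𝓝 0) ∧
    Tendsto (fun j => T.τ (b * star (V j o : M))) L (𝓝 0) ∧
    Tendsto (fun j => T.τ (b * ((V j o : M) * (V j o : M)))) L (𝓝 0) := by
  refine ⟨?_, ?_, ?_⟩
  · simpa only [φ_of] using hfree (FreeGroup.of o) (fun h => by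
      have := congrArg (ex o) h
      rw [ex_self, (ex o).map_one] at this
      exact absurd this (by decide))
  · simpa only [φ_inv] using hfree (FreeGroup.of o)⁻¹ (fun h => by
      have := congrArg (ex o) h
      rw [map_inv, ex_self, (ex o).map_one] at this
      exact absurd this (by decide))
  · simpa only [φ_mul, φ_of] using hfree (FreeGroup.of o * FreeGroup.of o) (fun h => by
      have := congrArg (ex o) h
      rw [map_mul, ex_self, (ex o).map_one] at this
      exact absurd this (by decide))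

lemma est1 {s : ℝ} {B : ℕ} (hs : B * σ = s) (hs1 : s ≤ 1 / 2) (h1 : l.length = B * B)
    (h2 : l.count o = B) {η : ℝ} (hη : 0 < η) :
    ∀ᶠ j in L, ‖T.τ (b * ((l.map (U j)).prod * (V j o : M))) - s * T.τ b‖ <
      12 * s ^ 2 * T.n2 b + η := by
  have hs0 : 0 ≤ s := by rw [← hs]; positivity
  have e1 : l.length * (4 * σ ^ 2) = 4 * s ^ 2 := by rw [h1, ← hs]; push_cast; ring
  have e2 : l.count o * (2 * σ) = 2 * s := by rw [h2, ← hs]; ring
  obtain ⟨r, hr, h⟩ := est_gen T hfree o l hl U hU hσ hW (γ1 := FreeGroup.of o)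
    (fun f hf => ex_ne hf.symm) (by rw [e1]; nlinarith) (by rw [e2]; linarith)
  obtain ⟨t1, -, t3⟩ := lim_of T hfree o
  have t := ((hr.add t1).sub (t3.const_mul (s : ℂ))).norm
  simp only [add_zero, mul_zero, sub_zero, norm_zero] at t
  filter_upwards [t.eventually (gt_mem_nhds hη)] with j hj
  have h := h j
  rw [e1, e2, h2, φ_of] at h
  have e3 : T.τ (b * ((1 + (B : ℂ) • tt σ (V j o : M)) * (V j o : M))) =
      T.τ (b * (V j o : M)) + s * T.τ b - s * T.τ (b * ((V j o : M) * (V j o : M))) := by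
    have : (s : ℂ) = B * σ := by rw [← hs]; push_cast; rfl
    simp only [tt, add_mul, one_mul, smul_mul_assoc, sub_mul, Unitary.coe_star_mul_self,
      mul_add, mul_smul_comm, mul_sub, mul_one, map_add, map_smul, map_sub, smul_eq_mul, this]
    ring
  rw [e3] at h
  refine lt_of_le_of_lt (le_trans (le_of_eq ?_) (norm_add_le _ _))
    (add_lt_add_of_le_of_lt (h.trans (le_of_eq (by ring))) hj)
  congr 1; ring

end

lemma est2 (T : Tr M) {J : Type*} {L : Filter J} {V : J → I → unitary M} {σ : ℝ}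
    (hfree : ∀ γ, γ ≠ 1 → Tendsto (fun j => T.τ (1 * φ (V j) γ)) L (𝓝 0))
    (o : I) (l : List I) (hl : l.Pairwise (fun f g => f = g → f = o))
    (U : J → I → M) (hU : ∀ j f, ‖U j f‖ ≤ 1) (hσ : 0 ≤ σ)
    (hW : ∀ j f, ‖U j f - (1 + tt σ (V j f : M))‖ ≤ 4 * σ ^ 2)
    {s : ℝ} {B : ℕ} (hB : 1 ≤ B) (hs : B * σ = s) (hs1 : s ≤ 1 / 2) (h1 : l.length = B)
    (h2 : l.count o = 1) {η : ℝ} (hη : 0 < η) :
    ∀ᶠ j in L, ‖T.τ (l.map (U j)).prod - 1‖ < 3 / B + η := by
  have hs0 : 0 ≤ s := by rw [← hs]; positivity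
  have hB' : (1 : ℝ) ≤ B := by exact_mod_cast hB
  have hσs : σ ≤ s := by nlinarith
  have e1 : l.length * (4 * σ ^ 2) = 4 * s * σ := by rw [h1, ← hs]; ring
  have e2 : l.count o * (2 * σ) = 2 * σ := by rw [h2]; simp
  obtain ⟨r, hr, h⟩ := est_gen T hfree o l hl U hU hσ hW (γ1 := 1)
    (fun f hf => map_one _) (by rw [e1]; nlinarith) (by rw [e2]; linarith)
  obtain ⟨t1, t2, -⟩ := lim_of T hfree o
  have t := (hr.add ((t2.sub t1).const_mul (σ : ℂ))).norm
  simp only [add_zero, mul_zero, sub_zero, norm_zero] at t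
  filter_upwards [t.eventually (gt_mem_nhds hη)] with j hj
  have h := h j
  rw [e1, e2, h2, φ_one] at h
  simp only [one_mul, mul_one, tt, map_add, map_smul, map_sub, T.one, smul_eq_mul, Nat.cast_one,
    T.n2_one] at h hj
  have b1 : 2 * (4 * s * σ) + (2 * σ) ^ 2 ≤ 3 / B := by
    rw [le_div_iff₀ (by positivity)]
    have : (2 * (4 * s * σ) + (2 * σ) ^ 2) * B = 8 * s * s + 4 * σ * s := by rw [← hs]; ring
    rw [this]; nlinarith
  refine lt_of_le_of_lt (le_trans (le_of_eq ?_) (norm_add_le _ _))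
    (add_lt_add_of_le_of_lt (h.trans b1) hj)
  congr 1; ring

end Vale.Agent.P085
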