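import Vale.Agent.P085.FH2
import Vale.Agent.P085.Free

open scoped ComplexOrder InnerProductSpace ComplexConjugate
open Filter Topology

set_option linter.unusedSimpArgs false
set_option linter.unusedSectionVars false

namespace Vale.Agent.P085
variable {M : Type*} [CStarAlgebra M]

def FHP (T : Tr M) (A : StarSubalgebra ℂ M) : Prop := ∀ β ∈ unitary M, ∃ F : Filter M, F.NeBot ∧
    (∀ᶠ u in F, Mean.Co A β u) ∧
    ∀ w, w ≠ [] → Gd T w → Tendsto (fun u => T.τ (ev u w)) F (𝓝 0)

def wd (a : ℕ → M) (y : M) : ℕ → M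
  | 0 => 1
  | j + 1 => wd a y j * y * a j

def UA (A : StarSubalgebra ℂ M) (a : ℕ → M) : Prop := ∀ j, a j ∈ A ∧ a j ∈ unitary M

lemma wd_unitary {A : StarSubalgebra ℂ M} {a : ℕ → M} (ha : UA A a) {y : M} (hy : y ∈ unitary M)
    (j : ℕ) : wd a y j ∈ unitary M := by
  induction j with
  | zero => exact one_mem _
  | succ j ih => exact mul_mem (mul_mem ih hy) (ha j).2

lemma wd_update (a : ℕ → M) (y c : M) {n j : ℕ} (h : j ≤ n) :
    wd (Function.update a n c) y j = wd a y j := by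
  induction j with
  | zero => rfl
  | succ j ih => simp only [wd]; rw [ih (by omega), Function.update_of_ne (by omega)]

lemma wd_update' (a : ℕ → M) (y c : M) (n : ℕ) :
    wd (Function.update a n c) y (n + 1) = wd a y n * y * c := by
  simp only [wd]; rw [wd_update a y c le_rfl, Function.update_self]

lemma UA.update {A : StarSubalgebra ℂ M} {a : ℕ → M} (ha : UA A a) {c : M} (h1 : c ∈ A)
    (h2 : c ∈ unitary M) (n : ℕ) : UA A (Function.update a n c) := fun j => by
  by_cases h : j = n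
  · subst h; simp [h1, h2]
  · rw [Function.update_of_ne h]; exact ha j

lemma wd_mul {A : StarSubalgebra ℂ M} {a : ℕ → M} (ha : UA A a) {y : M} (hy : y ∈ unitary M)
    (k : M) (B : ℕ) : wd a (k * y) B =
      ((List.range B).map fun j => wd a y j * k * star (wd a y j)).prod * wd a y B := by
  induction B with
  | zero => simp [wd]
  | succ B ih =>
    have e : ∀ z, star (wd a y B) * (wd a y B * z) = z := fun z => by
      rw [← mul_assoc, Unitary.star_mul_self_of_mem (wd_unitary ha hy B), one_mul]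
    simp only [wd, ih, List.range_succ, List.map_append, List.prod_append, List.map_cons,
      List.map_nil, List.prod_cons, List.prod_nil, mul_one, mul_assoc, e]

def Q4 (T : Tr M) (u : ℕ → M) (n : ℕ) (μ : ℝ) : Prop := ∀ i ≤ n, ∀ j ≤ n, ∀ k ≤ n, ∀ l ≤ n,
  ¬ ((i = j ∧ k = l) ∨ (j = k ∧ i = l)) → ‖T.τ (u i * (star (u j) * (u k * star (u l))))‖ ≤ μ

lemma ev_all {α : Type*} {F : Filter α} {n : ℕ} {p : ℕ → α → Prop}
    (h : ∀ i, ∀ᶠ x in F, p i x) : ∀ᶠ x in F, ∀ i ≤ n, p i x :=
  (eventually_all_finite (Set.finite_Iic n)).2 fun i _ => h i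

lemma Q4.step {T : Tr M} {u u' : ℕ → M} {n : ℕ} {μ : ℝ} (h : Q4 T u n μ)
    (hu : ∀ i, u i ∈ unitary M) {v : M} (hv : v ∈ unitary M) (e1 : ∀ i ≤ n, u' i = u i)
    (e2 : u' (n + 1) = v)
    (H1 : ∀ i ≤ n, ∀ j ≤ n, ∀ k ≤ n, ‖T.τ (v * (star (u i) * (u j * star (u k))))‖ ≤ μ)
    (H2 : ∀ i ≤ n, ∀ j ≤ n, ∀ k ≤ n, ‖T.τ (star v * (u i * (star (u j) * u k)))‖ ≤ μ)
    (H3 : ∀ i ≤ n, ∀ j ≤ n, ‖T.τ (v * (star (u i) * (v * star (u j))))‖ ≤ μ)
    (H4 : ∀ i ≤ n, ∀ j ≤ n, ‖T.τ (star v * (u i * (star v * u j)))‖ ≤ μ) :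
    Q4 T u' (n + 1) μ := by
  have c1 : ∀ z, v * (star v * z) = z := fun z => by
    rw [← mul_assoc, Unitary.mul_star_self_of_mem hv, one_mul]
  have c2 : ∀ z, star v * (v * z) = z := fun z => by
    rw [← mul_assoc, Unitary.star_mul_self_of_mem hv, one_mul]
  have c3 := Unitary.mul_star_self_of_mem hv
  have K : ∀ i ≤ n, ∀ j ≤ n, i ≠ j → ‖T.τ (u i * star (u j))‖ ≤ μ := fun i hi j hj hij => by
    have := h i hi j hj j hj j hj (by tauto)
    rwa [Unitary.mul_star_self_of_mem (hu j), mul_one] at this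
  have H5 : ∀ i ≤ n, ‖T.τ (v * star (u i))‖ ≤ μ := fun i hi => by
    have := H1 i hi i hi i hi
    rwa [Unitary.mul_star_self_of_mem (hu i), mul_one] at this
  have H6 : ∀ i ≤ n, ‖T.τ (u i * star v)‖ ≤ μ := fun i hi => by
    have := H2 i hi i hi i hi
    rwa [Unitary.star_mul_self_of_mem (hu i), mul_one, T.tr] at this
  have rot : ∀ a b c d : M, T.τ (a * (b * (c * d))) = T.τ (b * (c * (d * a))) := fun a b c d => by
    rw [T.tr]; simp only [mul_assoc]
  intro i hi j hj k hk l hl hne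
  rcases Nat.of_le_succ hi with hi | rfl <;> rcases Nat.of_le_succ hj with hj | rfl <;>
    rcases Nat.of_le_succ hk with hk | rfl <;> rcases Nat.of_le_succ hl with hl | rfl <;>
    simp (disch := assumption) only [e1, Nat.succ_eq_add_one, e2, c1, c2, c3, mul_one]
  · exact h i hi j hj k hk l hl hne
  · rw [rot, rot, rot]; exact H2 _ hi _ hj _ hk
  · rw [rot, rot]; exact H1 _ hl _ hi _ hj
  · exact K _ hi _ hj (by tauto)
  · rw [rot]; exact H2 _ hk _ hl _ hi
  · rw [rot]; exact H4 _ hk _ hi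
  · exact K _ hi _ hl (by tauto)
  · exact H6 _ hi
  · exact H1 _ hj _ hk _ hl
  · rw [rot, Unitary.star_mul_self_of_mem hv, mul_one, T.tr]; exact K _ hk _ hj (by tauto)
  · exact H3 _ hj _ hl
  · exact H5 _ hj
  · exact K _ hk _ hl (by tauto)
  · exact H6 _ hk
  · exact H5 _ hl
  · exact absurd (Or.inl ⟨rfl, rfl⟩) hne

theorem exists_conf {T : Tr M} {A : StarSubalgebra ℂ M} (hF : FHP T A) {y : M}
    (hy : y ∈ unitary M) {μ : ℝ} (hμ : 0 < μ) (n : ℕ) : ∃ a, UA A a ∧ Q4 T (wd a y) n μ := by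
  induction n with
  | zero =>
    refine ⟨fun _ => 1, fun _ => ⟨one_mem _, one_mem _⟩, fun i hi j hj k hk l hl h => ?_⟩
    exact absurd (Or.inl ⟨by omega, by omega⟩) h
  | succ n ih =>
    obtain ⟨a, ha, hq⟩ := ih
    obtain ⟨F, hne, hco, hw⟩ := hF _ (mul_mem (wd_unitary ha hy n) hy)
    have k : ∀ w, w ≠ [] → Gd T w → ∀ᶠ v in F, ‖T.τ (ev v w)‖ ≤ μ := fun w h1 h2 => by
      have := (hw w h1 h2).norm
      rw [norm_zero] at this
      exact this.eventually (ge_mem_nhds hμ)
    have k1 : ∀ e c, ∀ᶠ v in F, ‖T.τ (pw v e * c)‖ ≤ μ := fun e c => by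
      simpa [ev] using k [(e, c)] (by simp) (by simp [Gd])
    have k2 : ∀ e c d, ∀ᶠ v in F, ‖T.τ (pw v e * (c * (pw v e * d)))‖ ≤ μ := fun e c d => by
      simpa [ev, mul_assoc] using k [(e, c), (e, d)] (by simp) (by simp [Gd])
    set u := wd a y
    obtain ⟨v, ⟨c, hc1, hc2, hv⟩, H1, H2, H3, H4⟩ := (hco.and ((ev_all (n := n) fun i =>
      ev_all (n := n) fun j => ev_all (n := n) fun k =>
        k1 true (star (u i) * (u j * star (u k)))).and ((ev_all (n := n) fun i =>
      ev_all (n := n) fun j => ev_all (n := n) fun k =>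
        k1 false (u i * (star (u j) * u k))).and ((ev_all (n := n) fun i =>
      ev_all (n := n) fun j => k2 true (star (u i)) (star (u j))).and (ev_all (n := n) fun i =>
      ev_all (n := n) fun j => k2 false (u i) (u j)))))).exists
    refine ⟨Function.update a n c, ha.update hc1 hc2 n, hq.step (wd_unitary ha hy) (v := v)
      (hv ▸ mul_mem (mul_mem (wd_unitary ha hy n) hy) hc2) (fun i hi => wd_update a y c hi)
      (by rw [wd_update', hv]) H1 H2 H3 H4⟩

variable {I : Type*} [DecidableEq I]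

noncomputable def wrd (G : I → M) (c : M) (θ : I → I → ℂ) :
    I × Bool → List (I × Bool) → List (Bool × M)
  | p, [] => [(p.2, star (G p.1) * c)]
  | p, p' :: r =>
    (p.2, star (G p.1) * G p'.1 - (if p.2 = p'.2 then 0 else θ p.1 p'.1) • 1) :: wrd G c θ p' r

lemma wrd_head (G : I → M) (c : M) (θ : I → I → ℂ) (p : I × Bool) (r : List (I × Bool)) :
    ∃ z t, wrd G c θ p r = (p.2, z) :: t := by
  cases r with
  | nil => exact ⟨_, _, rfl⟩
  | cons p' r => exact ⟨_, _, rfl⟩

lemma wrd_gd (T : Tr M) (G : I → M) (c : M) (p : I × Bool) (r : List (I × Bool)) :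
    Gd T (wrd G c (fun f g => T.τ (star (G f) * G g)) p r) := by
  induction r generalizing p with
  | nil => simp [wrd, Gd]
  | cons p' r ih =>
    obtain ⟨z, t, e⟩ := wrd_head G c (fun f g => T.τ (star (G f) * G g)) p' r
    have := ih p'
    simp only [wrd]
    rw [e] at this ⊢
    refine List.isChain_cons_cons.2 ⟨fun h => ?_, this⟩
    simp only at h
    rw [if_neg h, map_sub, T.τ_smul_one, sub_self]

lemma wrd_ev (G : I → unitary M) (v : unitary M) (c : M) (p : I × Bool) (r : List (I × Bool)) :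
    φ (fun f => G f * v * star (G f)) (FreeGroup.mk (p :: r)) * c =
      (G p.1 : M) * ev (v : M) (wrd (fun f => (G f : M)) c 0 p r) := by
  have k : ∀ p : I × Bool, φ (fun f => G f * v * star (G f)) (FreeGroup.mk [p]) =
      (G p.1 : M) * pw (v : M) p.2 * star (G p.1 : M) := by
    rintro ⟨f, e⟩
    cases e
    · have : FreeGroup.mk [(f, false)] = (FreeGroup.of f)⁻¹ := rfl
      rw [this, φ_inv]; simp [pw, mul_assoc]
    · have : FreeGroup.mk [(f, true)] = FreeGroup.of f := rfl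
      rw [this, φ_of]; simp [pw, mul_assoc]
  induction r generalizing p with
  | nil => rw [k]; simp [wrd, ev, mul_assoc]
  | cons p' r ih =>
    have : FreeGroup.mk (p :: p' :: r) = FreeGroup.mk [p] * FreeGroup.mk (p' :: r) := rfl
    rw [this, φ_mul, mul_assoc, ih, k]
    simp [wrd, ev, mul_assoc]

lemma wrd_bound [Nontrivial M] (G : I → unitary M) (v : unitary M) (c : M) (θ : I → I → ℂ)
    {μ : ℝ} (h0 : 0 ≤ μ) (h1 : μ ≤ 1) (hθ : ∀ f g, f ≠ g → ‖θ f g‖ ≤ μ) (p : I × Bool)
    (r : List (I × Bool)) (hr : FreeGroup.IsReduced (p :: r)) :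
    ‖ev (v : M) (wrd (fun f => G f) c θ p r)‖ ≤ 3 ^ r.length * ‖c‖ ∧
    ‖ev (v : M) (wrd (fun f => G f) c 0 p r) - ev (v : M) (wrd (fun f => G f) c θ p r)‖ ≤
      3 ^ r.length * ‖c‖ * μ := by
  have hv : ‖(v : M)‖ ≤ 1 := (CStarRing.norm_coe_unitary v).le
  induction r generalizing p with
  | nil =>
    simp only [wrd, ev, sub_self, norm_zero, mul_one, List.length_nil, pow_zero, one_mul]
    refine ⟨(norm_F0 hv (p.2, _)).trans (le_of_eq ?_), by positivity⟩
    exact CStarRing.norm_coe_unitary_mul (star (G p.1)) c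
  | cons p' r ih =>
    rw [FreeGroup.isReduced_cons_cons] at hr
    obtain ⟨i1, i2⟩ := ih p' hr.2
    simp only [wrd, ev, List.length_cons, Pi.zero_apply, ite_self, zero_smul, sub_zero]
    have b1 : ‖(if p.2 = p'.2 then 0 else θ p.1 p'.1) • (1 : M)‖ ≤ μ := by
      rw [norm_smul, norm_one, mul_one]
      split_ifs with h
      · simpa using h0
      · exact hθ _ _ fun e => h (hr.1 e)
    have b2 : ‖star (G p.1 : M) * G p'.1‖ = 1 := CStarRing.norm_coe_unitary (star (G p.1) * G p'.1)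
    generalize (if p.2 = p'.2 then 0 else θ p.1 p'.1) • (1 : M) = d at *
    generalize star (G p.1 : M) * G p'.1 = g at *
    generalize ev (v : M) (wrd (fun f => G f) c θ p' r) = E1 at *
    generalize ev (v : M) (wrd (fun f => G f) c 0 p' r) = E0 at *
    have b3 : ‖pw (v : M) p.2 * (g - d)‖ ≤ 2 :=
      (norm_F0 hv (p.2, g - d)).trans ((norm_sub_le _ _).trans (by linarith))
    have b4 : ‖pw (v : M) p.2 * g‖ ≤ 1 := (norm_F0 hv (p.2, g)).trans b2.le
    have b5 : ‖pw (v : M) p.2 * d‖ ≤ μ := (norm_F0 hv (p.2, d)).trans b1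
    have hK : 0 ≤ 3 ^ r.length * ‖c‖ := by positivity
    constructor
    · have := (norm_mul_le _ _).trans (mul_le_mul b3 i1 (norm_nonneg _) (by norm_num))
      rw [pow_succ]; linarith
    · have e : pw (v : M) p.2 * g * E0 - pw (v : M) p.2 * (g - d) * E1 =
          pw (v : M) p.2 * g * (E0 - E1) + pw (v : M) p.2 * d * E1 := by noncomm_ring
      have a1 := (norm_mul_le _ _).trans (mul_le_mul b4 i2 (norm_nonneg _) (by norm_num))
      have a2 := (norm_mul_le _ _).trans (mul_le_mul b5 i1 (norm_nonneg _) h0)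
      rw [e, pow_succ]
      refine (norm_add_le _ _).trans ?_
      nlinarith [mul_nonneg hK h0]

theorem free_of (T : Tr M) (F : ℕ → Filter (unitary M))
    (hF : ∀ m w, w ≠ [] → Gd T w → Tendsto (fun u : unitary M => T.τ (ev (u : M) w)) (F m) (𝓝 0))
    (G : ℕ → I → unitary M)
    (hG : ∀ m f g, f ≠ g → ‖T.τ (star (G m f : M) * G m g)‖ ≤ 1 / ((m : ℝ) + 1))
    (b : M) (γ : FreeGroup I) (hγ : γ ≠ 1) :
    Tendsto (fun j : ℕ × unitary M => T.τ (b * φ (fun f => G j.1 f * j.2 * star (G j.1 f)) γ))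
      (atTop.bind fun m => (F m).map (Prod.mk m)) (𝓝 0) := by
  have := T.nontriv
  have hr := FreeGroup.isReduced_toWord (x := γ)
  have he := FreeGroup.mk_toWord (x := γ)
  obtain ⟨p, r, hw⟩ := List.exists_cons_of_ne_nil (FreeGroup.toWord_eq_nil_iff.not.2 hγ)
  rw [hw] at hr he
  subst he
  rw [Metric.tendsto_nhds]
  intro ε hε
  rw [eventually_bind]
  have t := tendsto_one_div_add_atTop_nhds_zero_nat (𝕜 := ℝ).const_mul (3 ^ r.length * ‖b‖)
  rw [mul_zero] at t
  filter_upwards [t.eventually (gt_mem_nhds (half_pos hε))] with m hm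
  rw [eventually_map]
  obtain ⟨z, t, e⟩ := wrd_head (fun f => (G m f : M)) (b * G m p.1)
    (fun f g => T.τ (star (G m f : M) * G m g)) p r
  have t2 := (hF m _ (by rw [e]; simp) (wrd_gd T (fun f => (G m f : M)) (b * G m p.1) p r)).norm
  rw [norm_zero] at t2
  filter_upwards [t2.eventually (gt_mem_nhds (half_pos hε))] with v hv
  have a1 := (wrd_bound (G m) v (b * G m p.1) _ (by positivity) (by
    rw [div_le_one (by positivity)]; linarith [Nat.cast_nonneg (α := ℝ) m]) (hG m) p r hr).2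
  rw [CStarRing.norm_mul_coe_unitary] at a1
  have a2 := (T.τ_le_norm _).trans a1
  have e2 : T.τ (b * φ (fun f => G m f * v * star (G m f)) (FreeGroup.mk (p :: r))) =
      T.τ (ev (v : M) (wrd (fun f => G m f) (b * G m p.1) 0 p r)) := by
    have := congrArg (fun t => T.τ (star (G m p.1 : M) * t)) (wrd_ev (G m) v (b * G m p.1) p r)
    simp only [← mul_assoc, Unitary.coe_star_mul_self, one_mul] at this
    rw [← this, T.tr _ (G m p.1 : M)]
    simp only [← mul_assoc, Unitary.mul_star_self_of_mem (G m p.1).2, one_mul]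
    exact T.tr _ _
  rw [dist_zero_right, e2]
  rw [map_sub] at a2
  linarith [norm_sub_norm_le (T.τ (ev (v : M) (wrd (fun f => G m f) (b * G m p.1) 0 p r)))
    (T.τ (ev (v : M) (wrd (fun f => (G m f : M)) (b * G m p.1)
      (fun f g => T.τ (star (G m f : M) * G m g)) p r)))]

end Vale.Agent.P085
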