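import Vale.Agent.P085.Basic

open scoped ComplexOrder InnerProductSpace ComplexConjugate
open Filter Topology

namespace Vale.Agent.P085

def Fac (M : Type*) [CStarAlgebra M] : Prop :=
  ∀ c : M, (∀ x, c * x = x * c) → ∃ z : ℂ, c = z • 1

namespace Tr
variable {M : Type*} [CStarAlgebra M] (T : Tr M)

lemma toH_rsmul (r : ℝ) (x : M) : T.toH ((r : ℂ) • x) = r • T.toH x := by
  rw [map_smul]; rfl

lemma convex_ball (R : ℝ) : Convex ℝ {ξ : T.H | ‖T.toH.symm ξ‖ ≤ R} := by
  intro ξ hξ η hη a b ha hb hab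
  simp only [Set.mem_ofPred_eq] at *
  have e : T.toH.symm (a • ξ + b • η) = (a : ℂ) • T.toH.symm ξ + (b : ℂ) • T.toH.symm η := by
    rw [← map_smul, ← map_smul, ← map_add]; rfl
  rw [e]
  refine (norm_add_le _ _).trans ?_
  rw [norm_smul, norm_smul, Complex.norm_real, Complex.norm_real, Real.norm_of_nonneg ha,
    Real.norm_of_nonneg hb]
  have := mul_le_mul_of_nonneg_left hξ ha
  have := mul_le_mul_of_nonneg_left hη hb
  have : a * R + b * R = R := by rw [← add_mul, hab, one_mul]
  linarith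

lemma convex_pre (L : T.H →L[ℂ] T.H) {C : Set T.H} (hC : Convex ℝ C) : Convex ℝ (L ⁻¹' C) := by
  intro ξ hξ η hη a b ha hb hab
  have e : L (a • ξ + b • η) = a • L ξ + b • L η := by
    rw [map_add, ← Complex.coe_smul, ← Complex.coe_smul, map_smul, map_smul]; rfl
  simp only [Set.mem_preimage] at *
  rw [e]; exact hC hξ hη ha hb hab

theorem dixmier (hc : T.Cpl) (hf : Fac M) (x : M) (C : Set T.H) (hcl : IsClosed C)
    (hcv : Convex ℝ C) (hx : ∀ u : unitary M, T.toH (u * x * star (u : M)) ∈ C) :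
    T.toH (T.τ x • 1) ∈ C := by
  set O : Set T.H := Set.range (fun u : unitary M => T.toH (u * x * star (u : M))) with hO
  set K := closure (convexHull ℝ O) with hK
  have sub : ∀ D : Set T.H, IsClosed D → Convex ℝ D → O ⊆ D → K ⊆ D := fun D h1 h2 h3 =>
    closure_minimal (convexHull_min h3 h2) h1
  have hB := hc.isComplete ‖x‖
  have hKB : K ⊆ {ξ : T.H | ‖T.toH.symm ξ‖ ≤ ‖x‖} := by
    apply sub _ hB.isClosed (T.convex_ball _)
    rintro _ ⟨u, rfl⟩
    simp only [Set.mem_ofPred_eq, LinearEquiv.symm_apply_apply]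
    have h1 : star (u : M) = ((star u : unitary M) : M) := rfl
    rw [h1, CStarRing.norm_mul_coe_unitary, CStarRing.norm_coe_unitary_mul]
  have hKc : IsComplete K := fun f cf fs => by
    obtain ⟨z, _, hfz⟩ := hB f cf (fs.trans (principal_mono.2 hKB))
    exact ⟨z, isClosed_iff_clusterPt.mp isClosed_closure z (cf.left.mono (le_inf hfz fs)), hfz⟩
  have hKv : Convex ℝ K := (convex_convexHull ℝ O).closure
  have hKn : K.Nonempty := ⟨_, subset_closure (subset_convexHull ℝ O ⟨1, rfl⟩)⟩
  let _ : InnerProductSpace ℝ T.H := InnerProductSpace.complexToReal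
  obtain ⟨v, hv, hmin⟩ := exists_norm_eq_iInf_of_complete_convex hKn hKc hKv 0
  have hmin' : ∀ w ∈ K, ‖v‖ ≤ ‖w‖ := fun w hw => by
    have h1 : ⨅ w : K, ‖(0 : T.H) - w‖ ≤ ‖(0 : T.H) - (⟨w, hw⟩ : K)‖ :=
      ciInf_le ⟨0, by rintro _ ⟨w, rfl⟩; exact norm_nonneg _⟩ _
    rw [← hmin] at h1
    simpa using h1
  set z := T.toH.symm v with hz
  have hvz : v = T.toH z := by simp [hz]
  have hcomm : ∀ u : unitary M, (u : M) * z * star (u : M) = z := by
    intro u
    have hinv : K ⊆ T.mulH u (star (u : M)) ⁻¹' K := by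
      apply sub _ (isClosed_closure.preimage (T.mulH _ _).continuous) (T.convex_pre _ hKv)
      rintro _ ⟨w, rfl⟩
      apply subset_closure
      apply subset_convexHull
      refine ⟨u * w, ?_⟩
      simp [mulH_toH, mul_assoc]
    have h1 : T.toH (u * z * star (u : M)) ∈ K := by
      have := hinv hv
      rwa [Set.mem_preimage, hvz, mulH_toH] at this
    set v' := T.toH (u * z * star (u : M)) with hv'
    have h2 : ‖v'‖ = ‖v‖ := by
      change T.n2 _ = T.n2 z
      rw [T.n2_unit_right (by simp), T.n2_unit_left (by simp)]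
    have h3 := hmin' _ (hKv hv h1 (show (0:ℝ) ≤ 1/2 by norm_num) (show (0:ℝ) ≤ 1/2 by norm_num)
      (by norm_num))
    rw [← smul_add, norm_smul, Real.norm_of_nonneg (by norm_num)] at h3
    have h4 := parallelogram_law_with_norm ℂ v v'
    rw [h2] at h4
    have h5 : ‖v - v'‖ = 0 := by
      have := norm_nonneg v
      have := norm_nonneg (v + v')
      have := norm_nonneg (v - v')
      nlinarith
    have : v' = v := (sub_eq_zero.1 (norm_eq_zero.1 h5)).symm
    rw [hv', hvz] at this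
    exact T.toH.injective this
  have hcen : ∀ y, z * y = y * z := by
    intro y
    obtain ⟨u, c, rfl, -⟩ := CStarAlgebra.exists_sum_four_unitary y
    rw [Finset.mul_sum, Finset.sum_mul]
    refine Finset.sum_congr rfl fun i _ => ?_
    rw [mul_smul_comm, smul_mul_assoc]
    congr 1
    conv_lhs => rw [← hcomm (u i)]
    simp [mul_assoc]
  obtain ⟨l, hl⟩ := hf z hcen
  have hτ : K ⊆ {ξ : T.H | ⟪T.toH 1, ξ⟫_ℂ = T.τ x} := by
    apply sub
    · exact isClosed_eq (by fun_prop) continuous_const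
    · intro ξ hξ η hη a b ha hb hab
      simp only [Set.mem_ofPred_eq] at *
      rw [inner_add_right, ← Complex.coe_smul, ← Complex.coe_smul, inner_smul_right,
        inner_smul_right, hξ, hη, ← add_mul, ← Complex.ofReal_add, hab]
      simp
    · rintro _ ⟨u, rfl⟩
      simp only [Set.mem_ofPred_eq, inner_toH, star_one, one_mul]
      rw [T.tr, ← mul_assoc]; simp
  have h6 := hτ hv
  rw [Set.mem_ofPred_eq, hvz, inner_toH, hl] at h6
  simp only [star_one, one_mul, τ_smul_one] at h6
  rw [← h6, ← hl, ← hvz]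
  exact sub C hcl hcv (by rintro _ ⟨u, rfl⟩; exact hx u) hv

/-- Dixmier averaging tested against a 2-continuous seminorm -/
theorem dix_semi (hc : T.Cpl) (hf : Fac M) (x : M) {E : Type*} [NormedAddCommGroup E]
    [NormedSpace ℂ E] (L : T.H →L[ℂ] E) (e : E) (κ : ℝ)
    (hx : ∀ u : unitary M, ‖e - L (T.toH (u * x * star (u : M)))‖ ≤ κ) :
    ‖e - L (T.toH (T.τ x • 1))‖ ≤ κ := by
  refine T.dixmier hc hf x {ξ | ‖e - L ξ‖ ≤ κ} (isClosed_le (by fun_prop) continuous_const) ?_ hx
  intro ξ hξ η hη a b ha hb hab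
  simp only [Set.mem_ofPred_eq] at *
  have e1 : e - L (a • ξ + b • η) = (a : ℂ) • (e - L ξ) + (b : ℂ) • (e - L η) := by
    rw [map_add, ← Complex.coe_smul, ← Complex.coe_smul, map_smul, map_smul, smul_sub, smul_sub]
    have : e = (a : ℂ) • e + (b : ℂ) • e := by
      rw [← add_smul, ← Complex.ofReal_add, hab]; simp
    conv_lhs => rw [this]
    abel
  rw [e1]
  refine (norm_add_le _ _).trans ?_
  rw [norm_smul, norm_smul, Complex.norm_real, Complex.norm_real, Real.norm_of_nonneg ha,
    Real.norm_of_nonneg hb]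
  have := mul_le_mul_of_nonneg_left hξ ha
  have := mul_le_mul_of_nonneg_left hη hb
  have : a * κ + b * κ = κ := by rw [← add_mul, hab, one_mul]
  linarith

/-- factors are prime -/
theorem prime (hc : T.Cpl) (hf : Fac M) {a b : M} (h : ∀ m, a * m * b = 0) (hb : T.τ b ≠ 0) :
    a = 0 := by
  have := T.dix_semi hc hf b (T.mulH a 1) 0 0 (fun u => by
    rw [mulH_toH, ← mul_assoc, ← mul_assoc, h]; simp)
  rw [mulH_toH, zero_sub, norm_neg, mul_one, mul_smul_comm, mul_one] at this
  have h2 : T.n2 (T.τ b • a) = 0 := le_antisymm this (T.n2_nonneg _)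
  exact (smul_eq_zero.1 (T.n2_eq_zero h2)).resolve_left hb

end Tr
end Vale.Agent.P085
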