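import Vale.Agent.P085.Tower

open scoped ComplexOrder InnerProductSpace ComplexConjugate
open Filter Topology

set_option linter.unusedSimpArgs false
set_option linter.unusedSectionVars false

namespace Vale.Agent.P085
variable {M : Type*} [CStarAlgebra M]

def pw (u : M) (e : Bool) : M := if e then u else star u
def rr (u : M) (e : Bool) : M := if e then u else 1
def ll (u : M) (e : Bool) : M := if e then 1 else star u
noncomputable def sg (e : Bool) : ℂ := if e then Complex.I else -Complex.I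

def ev (u : M) : List (Bool × M) → M
  | [] => 1
  | a :: w => pw u a.1 * a.2 * ev u w

noncomputable def F1 (u h : M) (a : Bool × M) : M := sg a.1 • (rr u a.1 * h * (ll u a.1 * a.2))

noncomputable def T1 (u h : M) : List (Bool × M) → M
  | [] => 0
  | a :: w => F1 u h a * ev u w + pw u a.1 * a.2 * T1 u h w

noncomputable def T2 (u h : M) : List (Bool × M) → M
  | [] => 0
  | a :: w => F1 u h a * T1 u h w + pw u a.1 * a.2 * T2 u h w

noncomputable def nb : List (Bool × M) → ℝ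
  | [] => 1
  | a :: w => 3 * (1 + ‖a.2‖) * nb w

lemma nb_pos (w : List (Bool × M)) : 0 < nb w := by
  induction w with
  | nil => simp [nb]
  | cons a w ih => simp only [nb]; positivity

lemma ev_append (u : M) (w w' : List (Bool × M)) : ev u (w ++ w') = ev u w * ev u w' := by
  induction w with
  | nil => simp [ev]
  | cons a w ih => simp [ev, ih, mul_assoc]

lemma norm_sg (e : Bool) : ‖sg e‖ = 1 := by cases e <;> simp [sg]

lemma pw_smul (α : ℝ) (v : M) (e : Bool) : pw ((α : ℂ) • v) e = (α : ℂ) • pw v e := by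
  cases e <;> simp [pw, star_smul]

lemma ev_smul (α : ℝ) (v : M) (w : List (Bool × M)) :
    ev ((α : ℂ) • v) w = ((α : ℂ) ^ w.length) • ev v w := by
  induction w with
  | nil => simp [ev]
  | cons a w ih =>
    simp only [ev, ih, pw_smul, smul_mul_assoc, mul_smul_comm, smul_smul, List.length_cons,
      pow_succ]

lemma pw_upd (u : M) {h : M} (hs : star h = h) (γ : ℝ) (a : Bool × M) :
    pw (u * (1 + ((γ : ℂ) * Complex.I) • h)) a.1 * a.2 = pw u a.1 * a.2 + (γ : ℂ) • F1 u h a := by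
  obtain ⟨e, x⟩ := a
  cases e <;>
    simp [pw, F1, rr, ll, sg, star_smul, hs, mul_add, add_mul, smul_smul, mul_assoc, mul_comm]

section
variable [Nontrivial M] {u h : M} (hu : ‖u‖ ≤ 1)
include hu

lemma norm_pw (e : Bool) : ‖pw u e‖ ≤ 1 := by cases e <;> simp [pw, hu]
lemma norm_rr (e : Bool) : ‖rr u e‖ ≤ 1 := by cases e <;> simp [rr, hu]
lemma norm_ll (e : Bool) : ‖ll u e‖ ≤ 1 := by cases e <;> simp [ll, hu]

lemma norm_F0 (a : Bool × M) : ‖pw u a.1 * a.2‖ ≤ ‖a.2‖ :=
  (norm_mul_le _ _).trans (mul_le_of_le_one_left (norm_nonneg _) (norm_pw hu _))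

lemma norm_lx (a : Bool × M) : ‖ll u a.1 * a.2‖ ≤ ‖a.2‖ :=
  (norm_mul_le _ _).trans (mul_le_of_le_one_left (norm_nonneg _) (norm_ll hu _))

lemma norm_F1 (hh : ‖h‖ ≤ 1) (a : Bool × M) : ‖F1 u h a‖ ≤ ‖a.2‖ := by
  rw [F1, norm_smul, norm_sg, one_mul]
  have a1 : ‖rr u a.1 * h‖ ≤ 1 :=
    (norm_mul_le _ _).trans (mul_le_one₀ (norm_rr hu _) (norm_nonneg _) hh)
  exact (norm_mul_le _ _).trans
    ((mul_le_of_le_one_left (norm_nonneg _) a1).trans (norm_lx hu a))

lemma norm_ev (w : List (Bool × M)) : ‖ev u w‖ ≤ nb w := by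
  induction w with
  | nil => simp [ev, nb]
  | cons a w ih =>
    simp only [ev, nb]
    have a1 : ‖pw u a.1 * a.2 * ev u w‖ ≤ ‖a.2‖ * nb w :=
      (norm_mul_le _ _).trans (mul_le_mul (norm_F0 hu a) ih (norm_nonneg _) (norm_nonneg _))
    nlinarith [nb_pos w, norm_nonneg a.2]

lemma norm_T1 (hh : ‖h‖ ≤ 1) (w : List (Bool × M)) : ‖T1 u h w‖ ≤ nb w := by
  induction w with
  | nil => simp [T1, nb]
  | cons a w ih =>
    simp only [T1, nb]
    have a1 : ‖pw u a.1 * a.2 * T1 u h w‖ ≤ ‖a.2‖ * nb w :=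
      (norm_mul_le _ _).trans (mul_le_mul (norm_F0 hu a) ih (norm_nonneg _) (norm_nonneg _))
    have a2 : ‖F1 u h a * ev u w‖ ≤ ‖a.2‖ * nb w := (norm_mul_le _ _).trans
      (mul_le_mul (norm_F1 hu hh a) (norm_ev hu w) (norm_nonneg _) (norm_nonneg _))
    nlinarith [nb_pos w, norm_nonneg a.2, norm_add_le (F1 u h a * ev u w) (pw u a.1 * a.2 * T1 u h w)]

lemma norm_T2 (hh : ‖h‖ ≤ 1) (w : List (Bool × M)) : ‖T2 u h w‖ ≤ nb w := by
  induction w with
  | nil => simp [T2, nb]
  | cons a w ih =>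
    simp only [T2, nb]
    have a1 : ‖pw u a.1 * a.2 * T2 u h w‖ ≤ ‖a.2‖ * nb w :=
      (norm_mul_le _ _).trans (mul_le_mul (norm_F0 hu a) ih (norm_nonneg _) (norm_nonneg _))
    have a2 : ‖F1 u h a * T1 u h w‖ ≤ ‖a.2‖ * nb w := (norm_mul_le _ _).trans
      (mul_le_mul (norm_F1 hu hh a) (norm_T1 hu hh w) (norm_nonneg _) (norm_nonneg _))
    nlinarith [nb_pos w, norm_nonneg a.2,
      norm_add_le (F1 u h a * T1 u h w) (pw u a.1 * a.2 * T2 u h w)]

lemma norm_rem (hh : ‖h‖ ≤ 1) (hs : star h = h) {γ : ℝ} (h0 : 0 ≤ γ) (h1 : γ ≤ 1)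
    (w : List (Bool × M)) :
    ‖ev (u * (1 + ((γ : ℂ) * Complex.I) • h)) w -
      (ev u w + (γ : ℂ) • T1 u h w + (γ : ℂ) ^ 2 • T2 u h w)‖ ≤ nb w * γ ^ 3 := by
  induction w with
  | nil => simp [ev, T1, T2, nb]; positivity
  | cons a w ih =>
    simp only [ev, T1, T2, nb, pw_upd u hs]
    set V := ev (u * (1 + ((γ : ℂ) * Complex.I) • h)) w
    have e : (pw u a.1 * a.2 + (γ : ℂ) • F1 u h a) * V - (pw u a.1 * a.2 * ev u w +
        (γ : ℂ) • (F1 u h a * ev u w + pw u a.1 * a.2 * T1 u h w) +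
        (γ : ℂ) ^ 2 • (F1 u h a * T1 u h w + pw u a.1 * a.2 * T2 u h w)) =
        (pw u a.1 * a.2 + (γ : ℂ) • F1 u h a) *
          (V - (ev u w + (γ : ℂ) • T1 u h w + (γ : ℂ) ^ 2 • T2 u h w)) +
        (γ : ℂ) ^ 3 • (F1 u h a * T2 u h w) := by
      simp only [mul_sub, mul_add, add_mul, smul_mul_assoc, mul_smul_comm]
      module
    rw [e]
    have hγ : ‖(γ : ℂ)‖ = γ := by rw [Complex.norm_real, Real.norm_of_nonneg h0]
    have a1 : ‖pw u a.1 * a.2 + (γ : ℂ) • F1 u h a‖ ≤ 2 * ‖a.2‖ := by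
      refine (norm_add_le _ _).trans ?_
      rw [norm_smul, hγ]
      nlinarith [norm_F0 hu a, norm_F1 hu hh a, norm_nonneg (F1 u h a)]
    have a2 : ‖F1 u h a * T2 u h w‖ ≤ ‖a.2‖ * nb w := (norm_mul_le _ _).trans
      (mul_le_mul (norm_F1 hu hh a) (norm_T2 hu hh w) (norm_nonneg _) (norm_nonneg _))
    refine (norm_add_le _ _).trans ?_
    rw [norm_smul, norm_pow, hγ]
    have a3 := (norm_mul_le _ _).trans
      (mul_le_mul a1 ih (norm_nonneg _) (by positivity))
    have a4 : γ ^ 3 * ‖F1 u h a * T2 u h w‖ ≤ γ ^ 3 * (‖a.2‖ * nb w) := by gcongr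
    have a5 : 0 ≤ nb w * γ ^ 3 := by have := nb_pos w; positivity
    nlinarith

end

noncomputable def L1 (T : Tr M) (u : M) : M → List (Bool × M) → ℝ
  | _, [] => 0
  | c, a :: w => ‖T.τ (c * rr u a.1)‖ + L1 T u (c * (pw u a.1 * a.2)) w

noncomputable def L2 (T : Tr M) (u : M) : List (Bool × M) → ℝ
  | [] => 0
  | a :: w => L1 T u (ll u a.1 * a.2) w + L2 T u w

lemma L1_nonneg (T : Tr M) (u c : M) (w : List (Bool × M)) : 0 ≤ L1 T u c w := by
  induction w generalizing c with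
  | nil => simp [L1]
  | cons a w ih => simp only [L1]; exact add_nonneg (norm_nonneg _) (ih _)

lemma L2_nonneg (T : Tr M) (u : M) (w : List (Bool × M)) : 0 ≤ L2 T u w := by
  induction w with
  | nil => simp [L2]
  | cons a w ih => simp only [L2]; exact add_nonneg (L1_nonneg _ _ _ _) ih

namespace Mean
variable {T : Tr M} {A : StarSubalgebra ℂ M} (μ : Mean T A)

lemma avT1 (u : M) (w : List (Bool × M)) (b : M) : μ.Av (fun h => ‖T.τ (b * T1 u h w)‖) 0 := by
  induction w generalizing b with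
  | nil => exact μ.mono (μ.const 0) (fun h _ => by simp [T1]) le_rfl
  | cons a w ih =>
    refine μ.mono (μ.add (μ.β (ll u a.1 * a.2 * ev u w * b * rr u a.1)) (ih (b * (pw u a.1 * a.2))))
      (fun h _ => ?_) (by simp)
    simp only [T1, mul_add, map_add]
    refine (norm_add_le _ _).trans (add_le_add (le_of_eq ?_) (le_of_eq ?_))
    · rw [F1, smul_mul_assoc, mul_smul_comm, map_smul, norm_smul, norm_sg, one_mul]
      have : b * (rr u a.1 * h * (ll u a.1 * a.2) * ev u w) =
          (b * rr u a.1 * h) * (ll u a.1 * a.2 * ev u w) := by simp only [mul_assoc]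
      rw [this, T.tr]; simp only [mul_assoc]
    · simp only [mul_assoc]

lemma avα1 {u : M} (hu : ‖u‖ ≤ 1) (w : List (Bool × M)) (b c : M) :
    μ.Av (fun h => (T.τ (b * h * c * T1 u h w)).re) (nb w * ‖b‖ * L1 T u c w) := by
  have := T.nontriv
  induction w generalizing c with
  | nil => exact μ.mono (μ.const 0) (fun h _ => by simp [T1]) (by simp [L1])
  | cons a w ih =>
    refine μ.mono (μ.add (μ.α (sg a.1 • (ll u a.1 * a.2 * ev u w * b)) (c * rr u a.1))
      (ih (c * (pw u a.1 * a.2)))) (fun h _ => ?_) ?_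
    · simp only [T1, mul_add, map_add, Complex.add_re]
      refine add_le_add (le_of_eq ?_) (le_of_eq ?_)
      · simp only [F1, smul_mul_assoc, mul_smul_comm, map_smul]
        have : b * h * c * (rr u a.1 * h * (ll u a.1 * a.2) * ev u w) =
            (b * h * (c * rr u a.1) * h) * (ll u a.1 * a.2 * ev u w) := by simp only [mul_assoc]
        rw [this, T.tr]; simp only [mul_assoc]
      · simp only [mul_assoc]
    · simp only [L1, nb]
      have a1 : ‖T.τ (sg a.1 • (ll u a.1 * a.2 * ev u w * b))‖ ≤ ‖a.2‖ * nb w * ‖b‖ := by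
        refine (T.τ_le_norm _).trans ?_
        rw [norm_smul, norm_sg, one_mul]
        refine (norm_mul_le _ _).trans (mul_le_mul_of_nonneg_right ?_ (norm_nonneg _))
        exact (norm_mul_le _ _).trans
          (mul_le_mul (norm_lx hu a) (norm_ev hu w) (norm_nonneg _) (norm_nonneg _))
      have a2 := Complex.re_le_norm (T.τ (sg a.1 • (ll u a.1 * a.2 * ev u w * b)) *
        T.τ (c * rr u a.1))
      rw [norm_mul] at a2
      have a3 := mul_le_mul_of_nonneg_right a1 (norm_nonneg (T.τ (c * rr u a.1)))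
      have a4 := L1_nonneg T u (c * (pw u a.1 * a.2)) w
      have a5 : 0 ≤ nb w * ‖b‖ := by have := nb_pos w; positivity
      have a6 := norm_nonneg (T.τ (c * rr u a.1))
      have a7 := norm_nonneg a.2
      generalize ‖T.τ (c * rr u a.1)‖ = t at *
      generalize L1 T u (c * (pw u a.1 * a.2)) w = L at *
      have a8 : 0 ≤ nb w * ‖b‖ * t := by positivity
      have a9 : 0 ≤ nb w * ‖b‖ * L := by positivity
      nlinarith [mul_nonneg a7 a8, mul_nonneg a7 a9]

lemma avα2 {u : M} (hu : ‖u‖ ≤ 1) (w : List (Bool × M)) (b : M) :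
    μ.Av (fun h => (T.τ (b * T2 u h w)).re) (nb w * ‖b‖ * L2 T u w) := by
  have := T.nontriv
  induction w generalizing b with
  | nil => exact μ.mono (μ.const 0) (fun h _ => by simp [T2]) (by simp [L2])
  | cons a w ih =>
    refine μ.mono (μ.add (μ.avα1 hu w (sg a.1 • (b * rr u a.1)) (ll u a.1 * a.2))
      (ih (b * (pw u a.1 * a.2)))) (fun h _ => ?_) ?_
    · simp only [T2, mul_add, map_add, Complex.add_re]
      refine add_le_add (le_of_eq ?_) (le_of_eq ?_)
      · simp only [F1, smul_mul_assoc, mul_smul_comm, map_smul, mul_assoc]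
      · simp only [mul_assoc]
    · simp only [L2, nb]
      have a1 : ‖sg a.1 • (b * rr u a.1)‖ ≤ ‖b‖ := by
        rw [norm_smul, norm_sg, one_mul]
        exact (norm_mul_le _ _).trans (mul_le_of_le_one_right (norm_nonneg _) (norm_rr hu _))
      have a2 : ‖b * (pw u a.1 * a.2)‖ ≤ ‖b‖ * ‖a.2‖ :=
        (norm_mul_le _ _).trans (mul_le_mul_of_nonneg_left (norm_F0 hu a) (norm_nonneg _))
      have a4 := L1_nonneg T u (ll u a.1 * a.2) w
      have a5 := L2_nonneg T u w
      have a6 := nb_pos w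
      have a7 := norm_nonneg a.2
      have a0 := norm_nonneg b
      generalize L1 T u (ll u a.1 * a.2) w = t at *
      generalize L2 T u w = L at *
      have b1 : nb w * ‖sg a.1 • (b * rr u a.1)‖ * t ≤ nb w * ‖b‖ * t := by gcongr
      have b2 : nb w * ‖b * (pw u a.1 * a.2)‖ * L ≤ nb w * (‖b‖ * ‖a.2‖) * L := by gcongr
      have a8 : 0 ≤ nb w * ‖b‖ * t := by positivity
      have a9 : 0 ≤ nb w * ‖b‖ * L := by positivity
      nlinarith [mul_nonneg a7 a8, mul_nonneg a7 a9]

end Mean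
end Vale.Agent.P085
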