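import Vale.Agent.P085.FH

open scoped ComplexOrder InnerProductSpace ComplexConjugate
open Filter Topology

set_option linter.unusedSimpArgs false

namespace Vale.Agent.P085
variable {M : Type*} [CStarAlgebra M]

lemma scal {m a1 a2 r : ℂ} {C γ : ℝ} (h0 : 0 ≤ γ) (h1 : γ ≤ 1) (hm : ‖m‖ ≤ C) (ha1 : ‖a1‖ ≤ C)
    (ha2 : ‖a2‖ ≤ C) (hr : ‖r‖ ≤ C * γ ^ 3) :
    ‖m + γ * a1 + (γ : ℂ) ^ 2 * a2 + r‖ ^ 2 ≤
      ‖m‖ ^ 2 + 2 * γ ^ 2 * (conj m * a2).re + 4 * C * ‖a1‖ + 10 * C ^ 2 * γ ^ 3 := by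
  have hC : 0 ≤ C := (norm_nonneg _).trans hm
  have hγ : ‖(γ : ℂ)‖ = γ := by rw [Complex.norm_real, Real.norm_of_nonneg h0]
  set D := γ * a1 + (γ : ℂ) ^ 2 * a2 + r with hD
  have e : m + γ * a1 + (γ : ℂ) ^ 2 * a2 + r = m + D := by rw [hD]; ring
  have e2 : ‖m + D‖ ^ 2 = ‖m‖ ^ 2 + 2 * (conj m * D).re + ‖D‖ ^ 2 := by
    simp only [Complex.sq_norm, Complex.normSq_apply, Complex.add_re, Complex.add_im,
      Complex.mul_re, Complex.conj_re, Complex.conj_im]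
    ring
  have e3 : (conj m * D).re = γ * (conj m * a1).re + γ ^ 2 * (conj m * a2).re + (conj m * r).re := by
    have : conj m * D = (γ : ℂ) * (conj m * a1) + ((γ ^ 2 : ℝ) : ℂ) * (conj m * a2) + conj m * r := by
      rw [hD]; push_cast; ring
    rw [this, Complex.add_re, Complex.add_re, Complex.re_ofReal_mul, Complex.re_ofReal_mul]
  have b1 : (conj m * a1).re ≤ C * ‖a1‖ := by
    refine (Complex.re_le_norm _).trans ?_
    rw [norm_mul, Complex.norm_conj]; gcongr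
  have b2 : (conj m * r).re ≤ C * (C * γ ^ 3) := by
    refine (Complex.re_le_norm _).trans ?_
    rw [norm_mul, Complex.norm_conj]; gcongr
  have g3 : γ ^ 3 ≤ γ ^ 2 := pow_le_pow_of_le_one h0 h1 (by norm_num)
  have g4 : γ ^ 4 ≤ γ ^ 3 := pow_le_pow_of_le_one h0 h1 (by norm_num)
  have n1 := norm_nonneg a1
  have b3 : ‖D‖ ≤ ‖a1‖ + 2 * C * γ ^ 2 := by
    refine (norm_add_le _ _).trans ((add_le_add (norm_add_le _ _) hr).trans ?_)
    rw [norm_mul, norm_mul, norm_pow, hγ]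
    have : γ ^ 2 * ‖a2‖ ≤ γ ^ 2 * C := by gcongr
    nlinarith [mul_le_mul_of_nonneg_left g3 hC]
  have b4 : ‖D‖ ^ 2 ≤ (‖a1‖ + 2 * C * γ ^ 2) ^ 2 := by gcongr
  have b5 : γ * (conj m * a1).re ≤ C * ‖a1‖ := by
    have : 0 ≤ C * ‖a1‖ := by positivity
    nlinarith
  have b6 : ‖a1‖ ^ 2 ≤ C * ‖a1‖ := by nlinarith
  have b7 : C ^ 2 * γ ^ 4 ≤ C ^ 2 * γ ^ 3 := by gcongr
  rw [e, e2, e3]
  nlinarith [sq_nonneg (‖a1‖ - 2 * C * γ ^ 2)]

noncomputable def al (γ : ℝ) : ℝ := (√(1 + γ ^ 2))⁻¹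

lemma al_sq (γ : ℝ) : al γ ^ 2 * (1 + γ ^ 2) = 1 := by
  rw [al, inv_pow, Real.sq_sqrt (by positivity), inv_mul_cancel₀ (by positivity)]

lemma al_nonneg (γ : ℝ) : 0 ≤ al γ := by unfold al; positivity

lemma al_sq_le (γ : ℝ) : al γ ^ 2 ≤ 1 := by nlinarith [al_sq γ, sq_nonneg γ, sq_nonneg (al γ)]

lemma al_le (γ : ℝ) : al γ ≤ 1 := by nlinarith [al_sq_le γ, al_nonneg γ]

noncomputable def upd (u : M) (γ : ℝ) (h : M) : M :=
  (al γ : ℂ) • (u * (1 + ((γ : ℂ) * Complex.I) • h))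

lemma upd_eq (u : M) (γ : ℝ) (h : M) : upd u γ h = u * upd 1 γ h := by
  rw [upd, upd, one_mul, mul_smul_comm]

lemma upd1_unitary {h : M} (hs : star h = h) (hh : h * h = 1) (γ : ℝ) :
    upd 1 γ h ∈ unitary M := by
  have e : ((al γ : ℂ)) ^ 2 * (1 + (γ : ℂ) ^ 2) = 1 := by exact_mod_cast al_sq γ
  rw [Unitary.mem_iff]
  constructor <;>
  · simp only [upd, one_mul, star_smul, star_add, star_one, hs, star_mul', Complex.star_def,
      Complex.conj_ofReal, Complex.conj_I, smul_mul_assoc, mul_smul_comm, mul_add, add_mul, hh,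
      mul_one]
    match_scalars
    · linear_combination e - (al γ : ℂ) ^ 2 * (γ : ℂ) ^ 2 * Complex.I_sq
    · ring

def Gd (T : Tr M) (w : List (Bool × M)) : Prop :=
  w.IsChain (fun a b => a.1 ≠ b.1 → T.τ a.2 = 0)

lemma Gd.last {T : Tr M} {w : List (Bool × M)} {e : Bool} {x : M} (h : Gd T (w ++ [(e, x)]))
    (y : M) : Gd T (w ++ [(e, y)]) := by
  simpa [Gd, List.isChain_append] using h

namespace Mean
variable {T : Tr M} {A : StarSubalgebra ℂ M} (μ : Mean T A)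

def Pot (Φ : M → ℝ) : Prop := (∀ u, 0 ≤ Φ u) ∧ ∃ c > 0, ∃ C, ∀ u ∈ unitary M, ∀ γ, 0 < γ → γ ≤ 1 →
  μ.Av (fun h => Φ (upd u γ h)) ((1 - c * γ ^ 2) * Φ u + C * γ ^ 3)

lemma pot_zero : μ.Pot (fun _ => 0) :=
  ⟨fun _ => le_rfl, 1, one_pos, 0, fun _ _ _ _ _ => μ.mono (μ.const 0) (fun _ _ => le_rfl) (by simp)⟩

lemma Pot.add {μ : Mean T A} {Φ Ψ : M → ℝ} (h1 : μ.Pot Φ) (h2 : μ.Pot Ψ) :
    μ.Pot (fun u => Φ u + Ψ u) := by
  obtain ⟨p1, c1, hc1, C1, h1⟩ := h1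
  obtain ⟨p2, c2, hc2, C2, h2⟩ := h2
  refine ⟨fun u => add_nonneg (p1 u) (p2 u), min c1 c2, lt_min hc1 hc2, C1 + C2,
    fun u hu γ g0 g1 => μ.mono (μ.add (h1 u hu γ g0 g1) (h2 u hu γ g0 g1)) (fun _ _ => le_rfl) ?_⟩
  have a1 : min c1 c2 * (γ ^ 2 * Φ u) ≤ c1 * (γ ^ 2 * Φ u) :=
    mul_le_mul_of_nonneg_right (min_le_left _ _) (mul_nonneg (sq_nonneg _) (p1 u))
  have a2 : min c1 c2 * (γ ^ 2 * Ψ u) ≤ c2 * (γ ^ 2 * Ψ u) :=
    mul_le_mul_of_nonneg_right (min_le_right _ _) (mul_nonneg (sq_nonneg _) (p2 u))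
  linarith

lemma Pot.smul {μ : Mean T A} {Φ : M → ℝ} (h1 : μ.Pot Φ) {r : ℝ} (hr : 0 ≤ r) :
    μ.Pot (fun u => r * Φ u) := by
  obtain ⟨p1, c1, hc1, C1, h1⟩ := h1
  refine ⟨fun u => mul_nonneg hr (p1 u), c1, hc1, r * C1,
    fun u hu γ g0 g1 => μ.mono (μ.smul r hr (h1 u hu γ g0 g1)) (fun _ _ => le_rfl) (le_of_eq ?_)⟩
  ring

def Ctl (g : M → ℝ) : Prop := ∃ Φ, μ.Pot Φ ∧ ∀ u ∈ unitary M, g u ^ 2 ≤ Φ u

lemma Ctl.add {μ : Mean T A} {f g : M → ℝ} (h1 : μ.Ctl f) (h2 : μ.Ctl g) :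
    μ.Ctl (fun u => f u + g u) := by
  obtain ⟨Φ, p1, h1⟩ := h1
  obtain ⟨Ψ, p2, h2⟩ := h2
  refine ⟨_, (p1.add p2).smul (r := 2) (by norm_num), fun u hu => ?_⟩
  nlinarith [h1 u hu, h2 u hu, sq_nonneg (f u - g u)]

lemma Ctl.congr {μ : Mean T A} {f g : M → ℝ} (h1 : μ.Ctl f) (h : ∀ u ∈ unitary M, g u = f u) :
    μ.Ctl g := by
  obtain ⟨Φ, p1, h1⟩ := h1
  exact ⟨Φ, p1, fun u hu => by rw [h u hu]; exact h1 u hu⟩

lemma ctl_zero : μ.Ctl (fun _ => 0) := ⟨_, μ.pot_zero, fun _ _ => by simp⟩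

lemma av_main {w : List (Bool × M)} (hw : w ≠ []) {u : M} (hu : u ∈ unitary M) {γ : ℝ}
    (g0 : 0 < γ) (g1 : γ ≤ 1) :
    μ.Av (fun h => ‖T.τ (ev (upd u γ h) w)‖ ^ 2) ((1 - γ ^ 2 / 4) * ‖T.τ (ev u w)‖ ^ 2 +
      4 * nb w ^ 2 * γ ^ 2 * L2 T u w ^ 2 + 10 * nb w ^ 2 * γ ^ 3) := by
  have := T.nontriv
  have hu1 : ‖u‖ ≤ 1 := (CStarRing.norm_of_mem_unitary hu).le
  have hC := nb_pos w
  set m := T.τ (ev u w) with hm
  have k := μ.smul (al γ ^ 2) (sq_nonneg _) (μ.add (μ.add (μ.add (μ.const (‖m‖ ^ 2))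
    (μ.smul (2 * γ ^ 2) (by positivity) (μ.avα2 hu1 w (conj m • 1))))
    (μ.smul (4 * nb w) (by positivity) (μ.avT1 u w 1))) (μ.const (10 * nb w ^ 2 * γ ^ 3)))
  refine μ.mono k (fun h hh => ?_) ?_
  · have hh1 : ‖h‖ ≤ 1 := (norm_sym hh.st hh.sq).le
    rw [upd, ev_smul, map_smul, norm_smul, norm_pow, Complex.norm_real,
      Real.norm_of_nonneg (al_nonneg γ), mul_pow]
    have b1 : (al γ ^ w.length) ^ 2 ≤ al γ ^ 2 := by
      have := al_nonneg γ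
      gcongr
      exact pow_le_of_le_one this (al_le γ) (by simpa using hw)
    refine mul_le_mul b1 ?_ (sq_nonneg _) (sq_nonneg _)
    have b2 := (T.τ_le_norm _).trans (norm_rem hu1 hh1 hh.st g0.le g1 w)
    have b3 := scal g0.le g1 ((T.τ_le_norm _).trans (norm_ev hu1 w))
      ((T.τ_le_norm _).trans (norm_T1 hu1 hh1 w)) ((T.τ_le_norm _).trans (norm_T2 hu1 hh1 w)) b2
    simp only [map_sub, map_add, map_smul, smul_eq_mul, add_sub_cancel] at b3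
    simpa only [one_mul, smul_mul_assoc, map_smul, smul_eq_mul] using b3
  · rw [norm_smul, norm_one, Complex.norm_conj, mul_one, mul_zero, add_zero]
    have a1 := al_sq γ
    have a2 := al_sq_le γ
    have a3 : al γ ^ 2 ≤ 1 - γ ^ 2 / 2 := by
      have : γ ^ 2 ≤ 1 := by nlinarith
      nlinarith [sq_nonneg γ, sq_nonneg (al γ)]
    have a4 := L2_nonneg T u w
    have a5 := norm_nonneg m
    generalize L2 T u w = L at *
    generalize ‖m‖ = t at *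
    generalize al γ ^ 2 = ρ at *
    have c1 : ρ * t ^ 2 ≤ (1 - γ ^ 2 / 2) * t ^ 2 := by gcongr
    have c2 : ρ * (2 * γ ^ 2 * (nb w * t * L) + 10 * nb w ^ 2 * γ ^ 3) ≤
        2 * γ ^ 2 * (nb w * t * L) + 10 * nb w ^ 2 * γ ^ 3 :=
      mul_le_of_le_one_left (by positivity) a2
    have c3 : γ ^ 2 * (2 * (nb w * t * L)) ≤ γ ^ 2 * (t ^ 2 / 4 + 4 * nb w ^ 2 * L ^ 2) := by
      gcongr; nlinarith [sq_nonneg (t / 2 - 2 * nb w * L)]
    nlinarith

lemma Ctl.step {μ : Mean T A} {w : List (Bool × M)} (hw : w ≠ [])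
    (h : μ.Ctl (fun u => L2 T u w)) : μ.Ctl (fun u => ‖T.τ (ev u w)‖) := by
  obtain ⟨Ψ, ⟨p, c, hc, C, hΨ⟩, h⟩ := h
  have hl : 0 ≤ 8 * nb w ^ 2 / c := by positivity
  refine ⟨fun u => ‖T.τ (ev u w)‖ ^ 2 + 8 * nb w ^ 2 / c * Ψ u,
    ⟨fun u => add_nonneg (sq_nonneg _) (mul_nonneg hl (p u)), min (1 / 4) (c / 2),
      lt_min (by norm_num) (by positivity), 10 * nb w ^ 2 + 8 * nb w ^ 2 / c * C,
      fun u hu γ g0 g1 => μ.mono (μ.add (μ.av_main hw hu g0 g1) (μ.smul _ hl (hΨ u hu γ g0 g1)))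
        (fun _ _ => le_rfl) ?_⟩, fun u _ => le_add_of_nonneg_right (mul_nonneg hl (p u))⟩
  have a1 := h u hu
  have a2 := p u
  have a3 : 8 * nb w ^ 2 / c * c = 8 * nb w ^ 2 := by field_simp
  have ht : 0 ≤ ‖T.τ (ev u w)‖ ^ 2 := sq_nonneg _
  beta_reduce at *
  generalize 8 * nb w ^ 2 / c = l at *
  generalize ‖T.τ (ev u w)‖ ^ 2 = t at *
  have b1 : min (1 / 4) (c / 2) * (γ ^ 2 * t) ≤ 1 / 4 * (γ ^ 2 * t) :=
    mul_le_mul_of_nonneg_right (min_le_left _ _) (by positivity)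
  have b2 : min (1 / 4) (c / 2) * (γ ^ 2 * (l * Ψ u)) ≤ c / 2 * (γ ^ 2 * (l * Ψ u)) :=
    mul_le_mul_of_nonneg_right (min_le_right _ _) (by positivity)
  have b3 : 4 * nb w ^ 2 * γ ^ 2 * L2 T u w ^ 2 ≤ 4 * nb w ^ 2 * γ ^ 2 * Ψ u := by gcongr
  have b4 : c / 2 * (γ ^ 2 * (l * Ψ u)) = 4 * nb w ^ 2 * γ ^ 2 * Ψ u := by
    linear_combination (γ ^ 2 * Ψ u / 2) * a3
  nlinarith

theorem ctl_gd (n : ℕ) : ∀ w : List (Bool × M), w.length ≤ n → w ≠ [] → Gd T w →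
    μ.Ctl (fun u => ‖T.τ (ev u w)‖) := by
  induction n with
  | zero => intro w h1 h2; exact absurd (List.length_eq_zero_iff.1 (Nat.le_zero.1 h1)) h2
  | succ n ih =>
    have k0 : ∀ (x : M) (mid : List (Bool × M)), mid.length ≤ n → Gd T mid →
        (mid = [] → T.τ x = 0) → μ.Ctl (fun u => ‖T.τ (x * ev u mid)‖) := by
      intro x mid h1 h2 h3
      rcases List.eq_nil_or_concat mid with rfl | ⟨mid', ⟨s, z⟩, rfl⟩
      · exact μ.ctl_zero.congr fun u _ => by simp [ev, h3 rfl]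
      · rw [List.concat_eq_append] at *
        refine (ih (mid' ++ [(s, z * x)]) (by simpa using h1) (by simp) (h2.last _)).congr
          fun u _ => ?_
        rw [T.tr]; simp [ev_append, ev, mul_assoc]
    have k1 : ∀ (a : Bool × M) (w mid : List (Bool × M)), Gd T (a :: (mid ++ w)) →
        (mid ++ w).length ≤ n →
        μ.Ctl (fun u => L1 T u (ll u a.1 * a.2 * ev u mid) w) := by
      intro a w
      induction w with
      | nil => intro mid _ _; exact μ.ctl_zero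
      | cons a' w ihw =>
        intro mid hg hl
        simp only [L1]
        refine Ctl.add ?_ ((ihw (mid ++ [a']) (by simpa using hg) (by simpa using hl)).congr
          fun u _ => by simp [ev_append, ev, mul_assoc])
        obtain ⟨e, x⟩ := a
        obtain ⟨e', x'⟩ := a'
        have hl' : mid.length + 1 ≤ n := by simp at hl; omega
        have g1 : Gd T ((e, x) :: (mid ++ [(e', x')])) := by
          have : (e, x) :: (mid ++ (e', x') :: w) = ((e, x) :: (mid ++ [(e', x')])) ++ w := by simp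
          rw [this] at hg
          exact List.IsChain.left_of_append hg
        have g2 : Gd T (mid ++ [(e', x')]) := List.IsChain.tail g1
        have g3 : Gd T ((e, x) :: mid) := List.IsChain.left_of_append (l₁ := (e, x) :: mid) g1
        have g4 : Gd T mid := List.IsChain.tail g3
        have g5 : e ≠ e' → mid = [] → T.τ x = 0 := by
          rintro he rfl
          exact (List.isChain_cons_cons.1 g1).1 he
        cases e <;> cases e'
        · exact (ih _ (by simpa using hl') (by simp) g3).congr fun u _ => by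
            simp [ev, ll, rr, pw]
        · refine (k0 x mid (by omega) g4 (g5 (by simp))).congr fun u hu => ?_
          simp only [ll, rr, if_true, Bool.false_eq_true, if_false]
          rw [T.tr, ← mul_assoc, ← mul_assoc, Unitary.mul_star_self_of_mem hu, one_mul]
        · exact (k0 x mid (by omega) g4 (g5 (by simp))).congr fun u hu => by simp [ll, rr]
        · refine (ih _ (by simpa using hl') (by simp) (g2.last x)).congr fun u _ => ?_
          simp only [ll, rr, if_true, one_mul, ev_append, ev, pw, mul_one]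
          rw [mul_assoc, T.tr, mul_assoc]
    have k2 : ∀ w : List (Bool × M), w.length ≤ n + 1 → Gd T w → μ.Ctl (fun u => L2 T u w) := by
      intro w
      induction w with
      | nil => intro _ _; exact μ.ctl_zero
      | cons a w ihw =>
        intro hl hg
        simp only [L2]
        have hl' : w.length ≤ n := by simpa using hl
        exact Ctl.add ((k1 a w [] hg hl').congr fun u _ => by simp [ev])
          (ihw (by omega) (List.IsChain.tail hg))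
    intro w h1 h2 h3
    exact (k2 w h1 h3).step h2

/-- the coset `β * U(A)` -/
def Co (A : StarSubalgebra ℂ M) (β u : M) : Prop := ∃ a ∈ A, a ∈ unitary M ∧ u = β * a

lemma Pot.small {μ : Mean T A} {Φ : M → ℝ} (h : μ.Pot Φ) {β : M} (hβ : β ∈ unitary M) {η : ℝ}
    (hη : 0 < η) : ∃ u, Co A β u ∧ Φ u < η := by
  obtain ⟨p, c, hc, C, h⟩ := h
  by_contra hno
  push Not at hno
  set S : Set ℝ := Φ '' {u | Co A β u}
  have hne : S.Nonempty := ⟨_, β, ⟨1, one_mem _, one_mem _, (mul_one _).symm⟩, rfl⟩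
  have hb : BddBelow S := ⟨0, by rintro _ ⟨u, _, rfl⟩; exact p u⟩
  set γ := min 1 (c * η / (4 * (|C| + 1))) with hγ
  have g0 : 0 < γ := lt_min one_pos (by positivity)
  have g1 : γ ≤ 1 := min_le_left _ _
  have g2 : γ * (4 * (|C| + 1)) ≤ c * η := (le_div_iff₀ (by positivity)).1 (min_le_right _ _)
  have hδ : 0 < c * γ ^ 2 * η / 4 := by positivity
  obtain ⟨_, ⟨u, ⟨a, ha, hau, rfl⟩, rfl⟩, hu⟩ :=
    exists_lt_of_csInf_lt hne (lt_add_of_pos_right (sInf S) hδ)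
  obtain ⟨s, hs, hs'⟩ := μ.ex (h _ (mul_mem hβ hau) γ g0 g1) _ hδ
  have hco : Co A β (upd (β * a) γ s) := by
    refine ⟨a * upd 1 γ s, mul_mem ha ?_, mul_mem hau (upd1_unitary hs.st hs.sq γ), ?_⟩
    · exact A.smul_mem (mul_mem (one_mem _) (add_mem (one_mem _) (A.smul_mem hs.mem _))) _
    · rw [upd_eq, mul_assoc]
  have b1 : sInf S ≤ Φ (upd (β * a) γ s) := csInf_le hb ⟨_, hco, rfl⟩
  have b2 := hno _ ⟨a, ha, hau, rfl⟩
  have b3 : c * γ ^ 2 * η ≤ c * γ ^ 2 * Φ (β * a) := by gcongr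
  have b4 : C * γ ^ 3 ≤ c * γ ^ 2 * η / 4 := by
    have : C * γ ≤ c * η / 4 := by nlinarith [le_abs_self C]
    nlinarith [mul_le_mul_of_nonneg_left this (sq_nonneg γ)]
  nlinarith

include μ in
theorem free_haar {β : M} (hβ : β ∈ unitary M) : ∃ F : Filter M, F.NeBot ∧
    (∀ᶠ u in F, Co A β u) ∧
    ∀ w, w ≠ [] → Gd T w → Tendsto (fun u => T.τ (ev u w)) F (𝓝 0) := by
  let F : Filter M :=
    { sets := {S | ∃ Φ, μ.Pot Φ ∧ ∃ η > 0, ∀ u, Co A β u → Φ u < η → u ∈ S}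
      univ_sets := ⟨_, μ.pot_zero, 1, one_pos, fun _ _ _ => trivial⟩
      sets_of_superset := by
        rintro S S' ⟨Φ, h1, η, h2, h3⟩ hS
        exact ⟨Φ, h1, η, h2, fun u a b => hS (h3 u a b)⟩
      inter_sets := by
        rintro S S' ⟨Φ, h1, η, h2, h3⟩ ⟨Ψ, k1, θ, k2, k3⟩
        refine ⟨_, h1.add k1, min η θ, lt_min h2 k2, fun u a b => ⟨h3 u a ?_, k3 u a ?_⟩⟩
        · linarith [min_le_left η θ, k1.1 u]
        · linarith [min_le_right η θ, h1.1 u] }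
  refine ⟨F, ?_, ⟨_, μ.pot_zero, 1, one_pos, fun _ h _ => h⟩, fun w h1 h2 => ?_⟩
  · rw [← forall_mem_nonempty_iff_neBot]
    rintro S ⟨Φ, h1, η, h2, h3⟩
    obtain ⟨u, a, b⟩ := h1.small hβ h2
    exact ⟨u, h3 u a b⟩
  · obtain ⟨Φ, k1, k2⟩ := μ.ctl_gd _ w le_rfl h1 h2
    rw [Metric.tendsto_nhds]
    intro ε hε
    refine ⟨Φ, k1, ε ^ 2, by positivity, ?_⟩
    rintro _ ⟨a, ha, hau, rfl⟩ hu
    have := k2 _ (mul_mem hβ hau)
    simp only [dist_zero_right, Set.mem_ofPred_eq]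
    exact lt_of_pow_lt_pow_left₀ 2 hε.le (this.trans_lt hu)

end Mean
end Vale.Agent.P085
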