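import Vale.Agent.P085.Baire

open scoped ComplexOrder InnerProductSpace ComplexConjugate
open Filter Topology

set_option linter.unusedSimpArgs false
set_option linter.unusedSectionVars false

namespace Vale.Agent.P085
variable {M : Type*} [CStarAlgebra M]

theorem gen1 (T : Tr M) (hc : T.Cpl) (hf : Fac M) (hi : ¬ FiniteDimensional ℂ M)
    (ξ : ℕ → M) (hξ : ∀ x, ∀ ε > 0, ∃ k, T.n2 (x - ξ k) < ε) :
    ∃ (X Z : ℕ → M) (y : M), (∀ i, Qb (X i) (Z i)) ∧ (∀ i j, X i * X j = X j * X i) ∧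
      (∀ i j, Z i * Z j = Z j * Z i) ∧ y ∈ unitary M ∧ ∀ P : StarSubalgebra ℂ M, T.Cl2 P →
        (∀ i, X i ∈ P) → (∀ i, Z i ∈ P) → y ∈ P → ∀ z, z ∈ P := by
  obtain ⟨W⟩ := T.exists_tower hc hf hi ξ hξ
  let A := StarAlgebra.adjoin ℂ (Set.range W.X ∪ Set.range W.Z)
  have hA : ∀ n, W.X n ∈ A ∧ W.Z n ∈ A := fun n =>
    ⟨StarAlgebra.subset_adjoin ℂ _ (Or.inl ⟨n, rfl⟩), StarAlgebra.subset_adjoin ℂ _ (Or.inr ⟨n, rfl⟩)⟩
  obtain ⟨y, hy, h⟩ := generic hc (fun β hβ => (W.mean hA).free_haar hβ) ξ hξ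
  refine ⟨W.X, W.Z, y, W.qb, fun i j => ?_, fun i j => ?_, hy, fun P hP h1 h2 h3 =>
    h P hP (StarAlgebra.adjoin_le ?_) h3⟩
  · rcases lt_trichotomy i j with h | rfl | h
    · exact W.cX (W.S_anti h (W.hX j))
    · rfl
    · exact (W.cX (W.S_anti h (W.hX i))).symm
  · rcases lt_trichotomy i j with h | rfl | h
    · exact W.cZ (W.S_anti h (W.hZ j))
    · rfl
    · exact (W.cZ (W.S_anti h (W.hZ i))).symm
  · rintro _ (⟨n, rfl⟩ | ⟨n, rfl⟩)
    · exact h1 n
    · exact h2 n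

lemma Qb.av_comm {X Z x : M} (q : Qb X Z) {S : StarSubalgebra ℂ M} (hx : x ∈ comm S X Z) :
    av X Z x = x := by
  have := av_mul (q.mem_comm.1 hx).2.1 (q.mem_comm.1 hx).2.2 1
  rw [q.av_one, one_mul] at this
  exact this.symm

lemma Qb.le_of_comm {X Z : M} (q : Qb X Z) {S P : StarSubalgebra ℂ M} (hX : X ∈ S) (hZ : Z ∈ S)
    (hX' : X ∈ P) (hZ' : Z ∈ P) (h : ∀ x ∈ comm S X Z, x ∈ P) : ∀ x ∈ S, x ∈ P := by
  intro x hx
  rw [q.decomp x]
  exact add_mem (add_mem (add_mem (h _ (q.av_mem_comm hX hZ hx))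
    (mul_mem hX' (h _ (q.av_mem_comm hX hZ (mul_mem hX hx)))))
    (mul_mem hZ' (h _ (q.av_mem_comm hX hZ (mul_mem hZ hx)))))
    (mul_mem (P.smul_mem (mul_mem hX' hZ') _)
      (h _ (q.av_mem_comm hX hZ (mul_mem (S.smul_mem (mul_mem hX hZ) _) hx))))

lemma Qb.tw_rec {X Z w : M} (q : Qb X Z) (hX : X * w = w * X) :
    w = half X (tw w X Z * X) + half X (tw w X Z * X * Z) := by
  have hX' : X * star w = star w * X := by
    have := congrArg star hX; simpa [q.sX] using this.symm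
  have a1 : ∀ a, X * (w * a) = w * (X * a) := fun a => by rw [← mul_assoc, hX, mul_assoc]
  have a3 : ∀ a, X * (star w * a) = star w * (X * a) := fun a => by
    rw [← mul_assoc, hX', mul_assoc]
  simp only [half_apply, tw, mul_smul_comm, smul_mul_assoc, mul_add, add_mul,
    mul_sub, sub_mul, mul_assoc, a1, a3, hX, hX', q.anti,
    q.anti', mul_neg, neg_mul, q.XX, q.XX', q.ZZ, q.ZZ', mul_one, neg_neg, smul_neg]
  module

lemma half_mem {P : StarSubalgebra ℂ M} {h x : M} (hh : h ∈ P) (hx : x ∈ P) : half h x ∈ P := by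
  rw [half_apply]; exact P.smul_mem (add_mem hx (mul_mem hh (mul_mem hx hh))) _

lemma half_even {h x : M} (h2 : h * h = 1) (e : h * x = x * h) : half h x = x := by
  rw [half_apply, ← e, ← mul_assoc, h2, one_mul]; module

lemma half_odd {h x : M} (h2 : h * h = 1) (e : x * h = -(h * x)) : half h x = 0 := by
  rw [half_apply, e, mul_neg, ← mul_assoc, h2, one_mul]; module

theorem gen2 (T : Tr M) (hc : T.Cpl) (hf : Fac M) (hi : ¬ FiniteDimensional ℂ M)
    (ξ : ℕ → M) (hξ : ∀ x, ∀ ε > 0, ∃ k, T.n2 (x - ξ k) < ε) :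
    ∃ x : M, ∀ P : StarSubalgebra ℂ M, T.Cl2 P → x ∈ P → ∀ z, z ∈ P := by
  have := T.nontriv
  have g0 := T.good_top hf hi
  obtain ⟨X0, Z0, hX0, hZ0, q0, -⟩ := T.irr hc g0 (zero_mem _) (map_zero _)
  have g1 := g0.step q0 hX0 hZ0
  obtain ⟨X1, Z1, hX1, hZ1, q1, -⟩ := T.irr hc g1 (zero_mem _) (map_zero _)
  have g2 := g1.step q1 hX1 hZ1
  set S1 := comm ⊤ X0 Z0
  set S2 := comm S1 X1 Z1
  have := g2.cl.isClosed
  obtain ⟨X, Z, y, q, cX, cZ, hy, h⟩ := gen1 (T.sub S2) (T.sub_cpl S2 hc g2.cl) g2.facS g2.inf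
    (fun k => ⟨av X1 Z1 (av X0 Z0 (ξ k)), q1.av_mem_comm hX1 hZ1 (q0.av_mem_comm hX0 hZ0 trivial)⟩)
    (fun x ε hε => by
      obtain ⟨k, hk⟩ := hξ x ε hε
      refine ⟨k, lt_of_le_of_lt ?_ hk⟩
      rw [Tr.sub_n2]
      refine le_trans (le_of_eq ?_) ((T.n2_av_le q1 _).trans (T.n2_av_le q0 _))
      rw [map_sub, map_sub, q0.av_comm (q1.mem_comm.1 x.2).1, q1.av_comm x.2]; rfl)
  have k : ∀ a : S2, X0 * a = a * X0 ∧ Z0 * a = a * Z0 ∧ X1 * a = a * X1 ∧ Z1 * a = a * Z1 :=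
    fun a => ⟨(q0.mem_comm.1 (q1.mem_comm.1 a.2).1).2.1, (q0.mem_comm.1 (q1.mem_comm.1 a.2).1).2.2,
      (q1.mem_comm.1 a.2).2⟩
  obtain ⟨-, XX1, ZX1⟩ := q0.mem_comm.1 hX1
  obtain ⟨-, XZ1, ZZ1⟩ := q0.mem_comm.1 hZ1
  let g : ℕ → M := fun n => match n with
    | 0 => Z0
    | 1 => Z1
    | n + 2 => Z n
  obtain ⟨s, s1, -, s3⟩ := exists_series g
    (fun n => match n with
      | 0 => q0.sZ
      | 1 => q1.sZ
      | n + 2 => congrArg Subtype.val (q n).sZ)
    (fun n => match n with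
      | 0 => q0.ZZ
      | 1 => q1.ZZ
      | n + 2 => congrArg Subtype.val (q n).ZZ)
    (fun n m => match n, m with
      | 0, 0 => rfl
      | 0, 1 => ZZ1
      | 0, m + 2 => (k (Z m)).2.1
      | 1, 0 => ZZ1.symm
      | 1, 1 => rfl
      | 1, m + 2 => (k (Z m)).2.2.2
      | n + 2, 0 => (k (Z n)).2.1.symm
      | n + 2, 1 => (k (Z n)).2.2.2.symm
      | n + 2, m + 2 => congrArg Subtype.val (cZ n m))
  obtain ⟨c, c1, c2, c3⟩ := exists_series (fun n => (X n : M))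
    (fun n => congrArg Subtype.val (q n).sX) (fun n => congrArg Subtype.val (q n).XX)
    (fun n m => congrArg Subtype.val (cX n m))
  have cZ0 := c2 Z0 fun i => (k (X i)).2.1
  have cZ1 := c2 Z1 fun i => (k (X i)).2.2.2
  have qD := q0.twist (w := (y : M)) (congrArg Subtype.val (Unitary.star_mul_self_of_mem hy))
    (congrArg Subtype.val (Unitary.mul_star_self_of_mem hy)) (k y).1 (k y).2.1
  have hrec := q0.tw_rec (k y).1
  have cD : ∀ a, a * X0 = X0 * a → a * Z0 = Z0 * a → a * y = y * a →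
      a * star (y : M) = star (y : M) * a → a * tw (y : M) X0 Z0 = tw (y : M) X0 Z0 * a := by
    intro a h1 h2 h3 h4
    have b1 : Commute a X0 := h1
    have b2 : Commute a Z0 := h2
    have b3 : Commute a y := h3
    have b4 : Commute a (star (y : M)) := h4
    exact ((b3.mul_right (b1.add_right (b2.mul_right b1))).add_right
      (b4.mul_right (b1.sub_right (b2.mul_right b1)))).smul_right _
  have XD := cD X1 XX1.symm ZX1.symm (k y).2.2.1 (k (star y)).2.2.1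
  have ZD := cD Z1 XZ1.symm ZZ1.symm (k y).2.2.2 (k (star y)).2.2.2
  generalize tw (y : M) X0 Z0 = D at *
  set t := c + X0 + X1 + D * X1 with ht
  have t1 : star t = t := by
    simp only [ht, star_add, star_mul, c1, q0.sX, q1.sX, qD.sX, XD]
  refine ⟨s + Complex.I • t, fun P hP hx => ?_⟩
  have hx' := star_mem hx
  rw [star_add, star_smul, s1, t1, Complex.star_def, Complex.conj_I] at hx'
  have hs : s ∈ P := by
    have := P.smul_mem (add_mem hx hx') (1 / 2 : ℂ)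
    convert this using 1; module
  have htP : t ∈ P := by
    have := P.smul_mem (sub_mem hx hs) (-Complex.I)
    rwa [add_sub_cancel_left, smul_smul, neg_mul, Complex.I_mul_I, neg_neg, one_smul] at this
  have hg := s3 P hP.isClosed hs
  have pZ0 : Z0 ∈ P := hg 0
  have pZ1 : Z1 ∈ P := hg 1
  have e0 : half Z0 t = c + X1 := by
    rw [ht, map_add, map_add, map_add, half_even q0.ZZ cZ0, half_odd q0.ZZ q0.anti,
      half_even q0.ZZ ZX1, half_odd q0.ZZ (by
        rw [mul_assoc, ← ZX1, ← mul_assoc, qD.anti, neg_mul, mul_assoc])]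
    simp
  have e1 : half Z1 t = c + X0 := by
    rw [ht, map_add, map_add, map_add, half_even q1.ZZ cZ1, half_even q1.ZZ XZ1.symm,
      half_odd q1.ZZ q1.anti, half_odd q1.ZZ (by
        rw [mul_assoc, q1.anti, mul_neg, ← mul_assoc, ← ZD, mul_assoc])]
    simp
  have e2 : half Z1 (c + X1) = c := by
    rw [map_add, half_even q1.ZZ cZ1, half_odd q1.ZZ q1.anti, add_zero]
  have p0 : c + X1 ∈ P := e0 ▸ half_mem pZ0 htP
  have p1 : c + X0 ∈ P := e1 ▸ half_mem pZ1 htP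
  have pc : c ∈ P := e2 ▸ half_mem pZ1 p0
  have pX0 : X0 ∈ P := by simpa using sub_mem p1 pc
  have pX1 : X1 ∈ P := by simpa using sub_mem p0 pc
  have pD : D ∈ P := by
    have := mul_mem (sub_mem htP (add_mem p1 pX1)) pX1
    rwa [ht, add_sub_cancel_left, mul_assoc, q1.XX, mul_one] at this
  have py : (y : M) ∈ P := by
    rw [hrec]
    exact add_mem (half_mem pX0 (mul_mem pD pX0)) (half_mem pX0 (mul_mem (mul_mem pD pX0) pZ0))
  have h2 := h (P.comap S2.subtype)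
    (fun x z R h1 h2 h3 => hP (fun n => x n) z R h1 h2 ((T.sub_lim S2 x z).1 h3))
    (c3 P hP.isClosed pc) (fun i => hg (i + 2)) py
  intro z
  exact q0.le_of_comm hX0 hZ0 pX0 pZ0
    (q1.le_of_comm hX1 hZ1 pX1 pZ1 fun x hx => h2 ⟨x, hx⟩) z trivial

end Vale.Agent.P085
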