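import Vale.Agent.P085.Nil

open scoped ComplexOrder InnerProductSpace ComplexConjugate
open Filter Topology

namespace Vale.Agent.P085

lemma exists_kappa : ∃ κ : ℕ → ℝ → ℝ, (∀ n, Continuous (κ n)) ∧ (∀ n t, 0 ≤ κ n t) ∧
    (∀ n m t, n ≤ m → κ n t ≤ κ m t) ∧ (∀ n t, 0 ≤ t → t * κ n t ^ 2 ≤ 1) ∧
    (∀ n t, 0 ≤ t → t * κ n t ^ 2 * (1 - t * κ n t ^ 2) ^ 2 ≤
      2 * (t * κ (2 * n + 1) t ^ 2 - t * κ n t ^ 2)) ∧
    ∃ κ' : ℝ → ℝ, Continuous κ' ∧ ∀ t, κ 0 t * κ' t = 1 := by
  have hp : ∀ (n : ℕ) (t : ℝ), 0 < |t| + 1 / ((n : ℝ) + 1) := fun n t => by positivity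
  have hsq : ∀ (n : ℕ) (t : ℝ), 0 ≤ t → ((√(|t| + 1 / ((n : ℝ) + 1)))⁻¹) ^ 2
      = (t + 1 / ((n : ℝ) + 1))⁻¹ := fun n t ht => by
    rw [inv_pow, Real.sq_sqrt (hp n t).le, abs_of_nonneg ht]
  refine ⟨fun n t => (√(|t| + 1 / ((n : ℝ) + 1)))⁻¹, fun n => ?_, fun n t => by positivity,
    fun n m t h => ?_, fun n t ht => ?_, fun n t ht => ?_,
    fun t => √(|t| + 1 / (((0 : ℕ) : ℝ) + 1)), by fun_prop, fun t => ?_⟩
  · exact Continuous.inv₀ (by fun_prop) fun t => (Real.sqrt_pos.2 (hp n t)).ne'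
  · apply inv_anti₀ (Real.sqrt_pos.2 (hp m t))
    apply Real.sqrt_le_sqrt
    have : (n : ℝ) ≤ m := by exact_mod_cast h
    gcongr
  · rw [hsq n t ht, ← div_eq_mul_inv, div_le_one (by positivity)]
    have : 0 < 1 / ((n : ℝ) + 1) := by positivity
    linarith
  · rw [hsq n t ht, hsq _ t ht]
    set a := 1 / ((n : ℝ) + 1) with ha
    have ha0 : 0 < a := by positivity
    have e : 1 / (((2 * n + 1 : ℕ) : ℝ) + 1) = a / 2 := by
      rw [ha]; push_cast; field_simp; ring
    rw [e]
    have e1 : 2 * (t * (t + a / 2)⁻¹ - t * (t + a)⁻¹) = t * a / ((t + a / 2) * (t + a)) := by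
      field_simp; ring
    have e2 : t * (t + a)⁻¹ * (1 - t * (t + a)⁻¹) ^ 2 = t * a / ((t + a) * (t + a)) * (a / (t + a)) := by
      field_simp; ring
    rw [e1, e2]
    calc _ ≤ t * a / ((t + a) * (t + a)) * 1 := by
          gcongr; rw [div_le_one (by positivity)]; linarith
      _ ≤ _ := by rw [mul_one]; gcongr; linarith
  · exact inv_mul_cancel₀ (Real.sqrt_pos.2 (hp 0 t)).ne'

namespace Tr
variable {M : Type*} [CStarAlgebra M] (T : Tr M)

set_option maxHeartbeats 1000000 in
theorem polar (hc : T.Cpl) {r x : M} (h0 : x ≠ 0) (hr1 : r * x = x) (hr2 : x * r = x)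
    (hrs : star r = r) (hx : x * x = 0) :
    ∃ w, w ≠ 0 ∧ r * w = w ∧ w * r = w ∧ w * w = 0 ∧ w * (star w * w) = w := by
  let _ := CStarAlgebra.spectralOrder M
  let _ := CStarAlgebra.spectralOrderedRing M
  obtain ⟨κ, k1, k2, k3, k4, k5, κ', k6, k7⟩ := exists_kappa
  set b := star x * x with hb
  have hb0 : 0 ≤ b := star_mul_self_nonneg x
  have hbs : IsSelfAdjoint b := hb0.isSelfAdjoint
  have hsp : ∀ t ∈ spectrum ℝ b, 0 ≤ t := fun t ht => spectrum_nonneg_of_nonneg hb0 ht
  have sq : ∀ f : ℝ → ℝ, Continuous f →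
      star (x * cfc f b) * (x * cfc f b) = cfc (fun t => t * f t ^ 2) b := by
    intro f hf
    have e1 : star (cfc f b) = cfc f b := (cfc_predicate f b : IsSelfAdjoint _)
    have e2 : cfc (fun t => t * f t ^ 2) b = cfc f b * b * cfc f b := by
      conv_rhs => rw [← cfc_id' ℝ b hbs]
      rw [cfc_id' ℝ b hbs]
      nth_rewrite 3 [← cfc_id' ℝ b hbs]
      rw [← cfc_mul _ _ b, ← cfc_mul _ _ b]
      congr 1; ext t; ring
    rw [e2, star_mul, e1, hb]; simp only [mul_assoc]
  let φ : (ℝ → ℝ) → ℝ := fun f => (T.τ (cfc f b)).re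
  have n2φ : ∀ f : ℝ → ℝ, Continuous f → T.n2 (x * cfc f b) ^ 2 = φ (fun t => t * f t ^ 2) := by
    intro f hf
    rw [T.n2_sq, sq f hf]
  have φmono : ∀ f g : ℝ → ℝ, Continuous f → Continuous g → (∀ t, 0 ≤ t → f t ≤ g t) →
      φ f ≤ φ g := by
    intro f g hf hg h
    have h1 : cfc f b ≤ cfc g b := cfc_mono (fun t ht => h t (hsp t ht))
    have := T.re_nonneg_of_nonneg (sub_nonneg.2 h1)
    rw [map_sub, Complex.sub_re] at this
    exact sub_nonneg.1 this
  have φsub : ∀ f g : ℝ → ℝ, Continuous f → Continuous g →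
      φ (fun t => f t - g t) = φ f - φ g := by
    intro f g hf hg
    simp only [φ]
    rw [cfc_sub _ _ b, map_sub, Complex.sub_re]
  have φ2 : ∀ f : ℝ → ℝ, Continuous f → φ (fun t => 2 * f t) = 2 * φ f := by
    intro f hf
    simp only [φ]
    rw [cfc_const_mul _ _ b, ← Complex.coe_smul, map_smul]; simp
  set w : ℕ → M := fun n => x * cfc (κ n) b with hw
  set γ : ℕ → ℝ := fun n => φ (fun t => t * κ n t ^ 2) with hγ
  have hwn : ∀ n, ‖w n‖ ≤ 1 := by
    intro n
    have h1 : ‖w n‖ * ‖w n‖ ≤ 1 := by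
      rw [← CStarRing.norm_star_mul_self, sq _ (k1 n)]
      refine norm_cfc_le zero_le_one fun t ht => ?_
      have := hsp t ht
      rw [Real.norm_of_nonneg (by positivity)]; exact k4 n t this
    nlinarith [norm_nonneg (w n)]
  have hγm : Monotone γ := fun n m h => φmono _ _ (by have := k1 n; fun_prop)
    (by have := k1 m; fun_prop) fun t ht => by
      have := k3 n m t h
      have := k2 n t
      gcongr
  have hγb : ∀ n, γ n ≤ 1 := fun n => by
    have h1 := n2φ _ (k1 n)
    have h2 := (T.n2_le_norm (w n)).trans (hwn n)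
    have h3 := T.n2_nonneg (w n)
    change γ n ≤ 1
    have : γ n = T.n2 (w n) ^ 2 := h1.symm
    rw [this]; nlinarith
  obtain ⟨g, hg⟩ : ∃ g, Tendsto γ atTop (𝓝 g) :=
    ⟨_, tendsto_atTop_ciSup hγm ⟨1, by rintro _ ⟨n, rfl⟩; exact hγb n⟩⟩
  have hgle : ∀ n, γ n ≤ g := fun n => hγm.ge_of_tendsto hg n
  have hdiff : ∀ n m, n ≤ m → T.n2 (w m - w n) ^ 2 ≤ γ m - γ n := by
    intro n m h
    have hn := k1 n
    have hm := k1 m
    have e : w m - w n = x * cfc (fun t => κ m t - κ n t) b := by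
      rw [cfc_sub _ _ b, mul_sub]
    rw [e, n2φ _ (by fun_prop), ← φsub _ _ (by fun_prop) (by fun_prop)]
    refine φmono _ _ (by fun_prop) (by fun_prop) fun t ht => ?_
    have := mul_nonneg ht (mul_nonneg (k2 n t) (sub_nonneg.2 (k3 n m t h)))
    nlinarith
  have hcau : CauchySeq (fun n => T.toH (w n)) := by
    refine cauchySeq_of_le_tendsto_0' (fun n => √(g - γ n)) (fun n m h => ?_) ?_
    · rw [dist_comm, dist_eq_norm, ← map_sub]
      apply Real.le_sqrt_of_sq_le
      exact (hdiff n m h).trans (by linarith [hgle m])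
    · have : Tendsto (fun n => √(g - γ n)) atTop (𝓝 (√(g - g))) :=
        (tendsto_const_nhds.sub hg).sqrt
      simpa using this
  obtain ⟨z, -, hz⟩ := hc w hwn hcau
  refine ⟨z, ?_, ?_, ?_, ?_, ?_⟩
  · rintro rfl
    have h1 : Tendsto (fun n => T.n2 (w n) ^ 2) atTop (𝓝 (0 ^ 2)) := by
      have := hz; simp only [Lim, sub_zero] at this; exact this.pow 2
    have h2 : (fun n => T.n2 (w n) ^ 2) = γ := funext fun n => n2φ _ (k1 n)
    rw [h2] at h1
    have h3 : γ 0 ≤ 0 ^ 2 := hγm.ge_of_tendsto h1 0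
    rw [← h2] at h3
    have h4 : w 0 = 0 := T.n2_eq_zero (by simpa using h3)
    apply h0
    have : x = w 0 * cfc κ' b := by
      have := k1 0
      simp only [hw]
      rw [mul_assoc, ← cfc_mul _ _ b]
      simp only [k7]
      rw [cfc_const_one ℝ b, mul_one]
    rw [this, h4, zero_mul]
  · refine Lim.unique T (Lim.mul_left T hz r) ?_
    simpa only [hw, ← mul_assoc, hr1] using hz
  · refine Lim.unique T (Lim.mul_right T hz r) ?_
    have hcm : Commute b r := by
      have : r * star x = star x := by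
        have := congrArg star hr2; rwa [star_mul, hrs] at this
      rw [Commute, SemiconjBy, hb, mul_assoc, hr2, ← mul_assoc, this]
    have : ∀ n, w n * r = w n := fun n => by
      simp only [hw]; rw [mul_assoc, (hcm.cfc_real (κ n)).eq, ← mul_assoc, hr2]
    simpa only [this] using hz
  · refine Lim.unique T (Lim.mul T hz hz hwn) ?_
    have hcm : Commute b (x * star x) := by
      have : star x * star x = 0 := by rw [← star_mul, hx, star_zero]
      have e1 : b * (x * star x) = star x * (x * x) * star x := by simp [hb, mul_assoc]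
      have e2 : (x * star x) * b = x * (star x * star x) * x := by simp [hb, mul_assoc]
      rw [Commute, SemiconjBy, e1, e2, hx, this]; simp
    have : ∀ n, w n * w n = 0 := fun n => by
      have e1 : star (cfc (κ n) b) = cfc (κ n) b := (cfc_predicate _ b : IsSelfAdjoint _)
      have h1 : (x * cfc (κ n) b * x) * star (x * cfc (κ n) b * x) = 0 := by
        have e2 : (x * cfc (κ n) b * x) * star (x * cfc (κ n) b * x)
            = x * (cfc (κ n) b * (x * star x)) * cfc (κ n) b * star x := by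
          simp [e1, mul_assoc]
        rw [e2, (hcm.cfc_real (κ n)).eq]
        simp only [← mul_assoc, hx, zero_mul]
      have h2 := (CStarRing.mul_star_self_eq_zero_iff _).1 h1
      simp only [hw]
      rw [← mul_assoc, h2, zero_mul]
    simp only [this]; exact T.lim_const 0
  · have h1 : T.Lim (fun n => w n * (star (w n) * w n)) (z * (star z * z)) :=
      Lim.mul T hz (Lim.mul T (Lim.str T hz) hz (R := 1) (by simpa using hwn)) hwn
    refine Lim.unique T h1 ?_
    have h2 : T.Lim (fun n => w n - w n * (star (w n) * w n)) 0 := by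
      have h3 : Tendsto (fun n => √(2 * (g - γ n))) atTop (𝓝 (√(2 * (g - g)))) :=
        ((tendsto_const_nhds.sub hg).const_mul 2).sqrt
      simp only [sub_self, mul_zero, Real.sqrt_zero] at h3
      refine squeeze_zero (fun n => T.n2_nonneg _) (fun n => ?_) h3
      apply Real.le_sqrt_of_sq_le
      have hn := k1 n
      have hn' := k1 (2 * n + 1)
      have e : w n - w n * (star (w n) * w n) - 0
          = x * cfc (fun t => κ n t * (1 - t * κ n t ^ 2)) b := by
        simp only [hw]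
        rw [sq _ hn, cfc_mul (κ n) (fun t => 1 - t * κ n t ^ 2) b,
          cfc_sub (fun _ => 1) (fun t => t * κ n t ^ 2) b, cfc_const_one ℝ b]
        noncomm_ring
      rw [e, n2φ _ (by fun_prop)]
      have h4 : φ (fun t => 2 * (t * κ (2 * n + 1) t ^ 2 - t * κ n t ^ 2))
          = 2 * (γ (2 * n + 1) - γ n) := by
        rw [φ2 _ (by fun_prop), φsub _ _ (by fun_prop) (by fun_prop)]
      have h5 := φmono (fun t => t * (κ n t * (1 - t * κ n t ^ 2)) ^ 2)
        (fun t => 2 * (t * κ (2 * n + 1) t ^ 2 - t * κ n t ^ 2)) (by fun_prop) (by fun_prop)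
        (fun t ht => by have := k5 n t ht; nlinarith)
      linarith [hgle (2 * n + 1)]
    simpa using Lim.sub T hz h2

end Tr
end Vale.Agent.P085
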