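import Vale.Agent.P085.Sub

open scoped ComplexOrder InnerProductSpace ComplexConjugate
open Filter Topology

set_option linter.unusedSimpArgs false

namespace Vale.Agent.P085
variable {M : Type*} [CStarAlgebra M]

noncomputable def tw (w X Z : M) : M := (1 / 2 : ℂ) • (w * (X + Z * X) + star w * (X - Z * X))

lemma Qb.twist {X Z w : M} (q : Qb X Z) (h1 : star w * w = 1) (h2 : w * star w = 1)
    (hX : X * w = w * X) (hZ : Z * w = w * Z) : Qb (tw w X Z) Z := by
  have hX' : X * star w = star w * X := by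
    have := congrArg star hX; simpa [q.sX] using this.symm
  have hZ' : Z * star w = star w * Z := by
    have := congrArg star hZ; simpa [q.sZ] using this.symm
  have a1 : ∀ a, X * (w * a) = w * (X * a) := fun a => by rw [← mul_assoc, hX, mul_assoc]
  have a2 : ∀ a, Z * (w * a) = w * (Z * a) := fun a => by rw [← mul_assoc, hZ, mul_assoc]
  have a3 : ∀ a, X * (star w * a) = star w * (X * a) := fun a => by
    rw [← mul_assoc, hX', mul_assoc]
  have a4 : ∀ a, Z * (star w * a) = star w * (Z * a) := fun a => by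
    rw [← mul_assoc, hZ', mul_assoc]
  have a5 : ∀ a, w * (star w * a) = a := fun a => by rw [← mul_assoc, h2, one_mul]
  have a6 : ∀ a, star w * (w * a) = a := fun a => by rw [← mul_assoc, h1, one_mul]
  refine ⟨?_, q.sZ, ?_, q.ZZ, ?_⟩
  · simp only [tw, star_smul, star_add, star_mul, star_sub, star_star, q.sX, q.sZ, mul_add, add_mul,
      mul_sub, sub_mul, mul_assoc, a1, a2, a3, a4, hX, hX', hZ, hZ', q.anti, q.anti', mul_neg,
      neg_mul]
    have : star (1 / 2 : ℂ) = 1 / 2 := by simp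
    rw [this]; module
  · simp only [tw, mul_smul_comm, smul_mul_assoc, mul_add, add_mul,
      mul_sub, sub_mul, mul_assoc, a1, a2, a3, a4, a5, a6, hX, hX', hZ, hZ', q.anti, q.anti',
      mul_neg, neg_mul, q.XX, q.XX', q.ZZ, q.ZZ', h1, h2, mul_one]
    module
  · simp only [tw, mul_smul_comm, smul_mul_assoc, mul_add, add_mul,
      mul_sub, sub_mul, mul_assoc, a1, a2, a3, a4, a5, a6, hX, hX', hZ, hZ', q.anti, q.anti',
      mul_neg, neg_mul, q.XX, q.XX', q.ZZ, q.ZZ', h1, h2, mul_one]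
    module

namespace Tr
variable (T : Tr M)

lemma n2_sub_half {h : M} (h1 : star h = h) (h2 : h * h = 1) (x : M) :
    T.n2 (x - half h x) ^ 2 = T.n2 x ^ 2 - T.n2 (half h x) ^ 2 := by
  have e2 : T.n2 (h * x - x * h) = T.n2 (x - h * (x * h)) := by
    rw [← T.n2_unit_left (u := h) (by rw [h1, h2]), mul_sub, ← mul_assoc, h2, one_mul]
  have e : x - half h x = (1 / 2 : ℂ) • (x - h * (x * h)) := by rw [half_apply]; module
  have e3 : ‖(1 / 2 : ℂ)‖ = 1 / 2 := by simp
  rw [T.n2_half h1 h2, e, T.n2_smul, e2, e3]; ring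

lemma comm_tw {X Z w Y : M} (q : Qb X Z) (hX : X * w = w * X) (hZ : Z * w = w * Z)
    (hXY : X * Y = Y * X) (hZY : Z * Y = Y * Z) :
    T.n2 (w * Y - Y * w) ≤ 2 * T.n2 (tw w X Z * Y - Y * tw w X Z) := by
  have := T.nontriv
  have hX' : X * star w = star w * X := by
    have := congrArg star hX; simpa [q.sX] using this.symm
  have hZ' : Z * star w = star w * Z := by
    have := congrArg star hZ; simpa [q.sZ] using this.symm
  have a1 : ∀ a, X * (w * a) = w * (X * a) := fun a => by rw [← mul_assoc, hX, mul_assoc]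
  have a2 : ∀ a, Z * (w * a) = w * (Z * a) := fun a => by rw [← mul_assoc, hZ, mul_assoc]
  have a3 : ∀ a, X * (star w * a) = star w * (X * a) := fun a => by
    rw [← mul_assoc, hX', mul_assoc]
  have a4 : ∀ a, Z * (star w * a) = star w * (Z * a) := fun a => by
    rw [← mul_assoc, hZ', mul_assoc]
  have a5 : ∀ a, X * (Y * a) = Y * (X * a) := fun a => by rw [← mul_assoc, hXY, mul_assoc]
  have a6 : ∀ a, Z * (Y * a) = Y * (Z * a) := fun a => by rw [← mul_assoc, hZY, mul_assoc]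
  set R := tw w X Z * Y - Y * tw w X Z with hR
  have e : w * Y - Y * w = half X (R * X) + half X (R * X * Z) := by
    simp only [hR, half_apply, tw, mul_smul_comm, smul_mul_assoc, mul_add, add_mul,
      mul_sub, sub_mul, mul_assoc, a1, a2, a3, a4, a5, a6, hX, hX', hZ, hZ', hXY, hZY, q.anti,
      q.anti', mul_neg, neg_mul, q.XX, q.XX', q.ZZ, q.ZZ', mul_one, neg_neg, smul_neg]
    module
  have b1 := T.n2_half_le q.sX q.XX (R * X)
  have b2 := T.n2_half_le q.sX q.XX (R * X * Z)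
  rw [T.n2_unit_right (by rw [q.sZ, q.ZZ])] at b2
  rw [T.n2_unit_right (by rw [q.sX, q.XX])] at b1 b2
  rw [e]
  linarith [T.n2_add_le (half X (R * X)) (half X (R * X * Z))]

theorem irr (hc : T.Cpl) {S : StarSubalgebra ℂ M} (hS : T.Good S) {Y : M} (hY : Y ∈ S)
    (h0 : T.τ Y = 0) :
    ∃ X Z, X ∈ S ∧ Z ∈ S ∧ Qb X Z ∧ T.n2 (av X Z Y) ^ 2 ≤ (199 / 200) * T.n2 Y ^ 2 := by
  have := T.nontriv
  have := hS.cl.isClosed
  obtain ⟨X', Z', q'⟩ := (T.sub S).exists_qb (T.sub_cpl S hc hS.cl) hS.facS hS.inf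
  have q : Qb (X' : M) Z' := ⟨congrArg Subtype.val q'.sX, congrArg Subtype.val q'.sZ,
    congrArg Subtype.val q'.XX, congrArg Subtype.val q'.ZZ, congrArg Subtype.val q'.anti⟩
  have hX := X'.2
  have hZ := Z'.2
  generalize (X' : M) = X at *
  generalize (Z' : M) = Z at *
  by_cases h : T.n2 (av X Z Y) ^ 2 ≤ (199 / 200) * T.n2 Y ^ 2
  · exact ⟨X, Z, hX, hZ, q, h⟩
  push Not at h
  have hC := hS.step q hX hZ
  have := hC.cl.isClosed
  have hY0 := q.av_mem_comm hX hZ hY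
  have hle := T.n2_av_le q Y
  have hd : T.n2 (Y - av X Z Y) ≤ T.n2 Y / 10 := by
    have a1 := T.n2_sub_half q.sZ q.ZZ Y
    have a2 := T.n2_sub_half q.sX q.XX (half Z Y)
    have a3 := T.n2_tri Y (half Z Y) (av X Z Y)
    change T.n2 (half Z Y - av X Z Y) ^ 2 = _ - T.n2 (av X Z Y) ^ 2 at a2
    have := T.n2_nonneg Y
    apply le_of_sq_le_sq _ (by positivity)
    have := T.n2_nonneg (Y - av X Z Y)
    have a4 : T.n2 (Y - av X Z Y) ^ 2 ≤
        (T.n2 (Y - half Z Y) + T.n2 (half Z Y - av X Z Y)) ^ 2 := by gcongr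
    nlinarith [sq_nonneg (T.n2 (Y - half Z Y) - T.n2 (half Z Y - av X Z Y))]
  have hτ : T.τ (av X Z Y) = 0 := by rw [T.τ_av q, h0]
  generalize av X Z Y = Y0 at *
  have hN : 0 < T.n2 Y := by
    rcases (T.n2_nonneg Y).eq_or_lt with e | e
    · have := T.n2_nonneg Y0
      rw [← e] at h hle
      have : T.n2 Y0 = 0 := by linarith
      rw [this] at h; simp at h
    · exact e
  have hlow : 9 / 10 * T.n2 Y ≤ T.n2 Y0 := by
    have := T.n2_add_le (Y - Y0) Y0
    rw [sub_add_cancel] at this; linarith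
  obtain ⟨w, hw⟩ : ∃ w : unitary (comm S X Z),
      85 / 100 * T.n2 Y < T.n2 (Y0 - w * Y0 * star (w : M)) := by
    by_contra hno
    push Not at hno
    have := (T.sub (comm S X Z)).dix_semi (T.sub_cpl _ hc hC.cl) hC.facS ⟨Y0, hY0⟩
      (ContinuousLinearMap.id ℂ _) ((T.sub (comm S X Z)).toH ⟨Y0, hY0⟩) (85 / 100 * T.n2 Y)
      (fun u => by
        rw [ContinuousLinearMap.id_apply, ← map_sub]
        change (T.sub _).n2 _ ≤ _
        rw [sub_n2]; exact hno u)
    rw [ContinuousLinearMap.id_apply, ← map_sub, sub_τ, hτ, zero_smul, sub_zero] at this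
    change (T.sub _).n2 _ ≤ _ at this
    rw [sub_n2] at this
    change T.n2 Y0 ≤ _ at this
    linarith
  have h1 : star (w : M) * w = 1 := congrArg Subtype.val (Unitary.star_mul_self_of_mem w.2)
  have h2 : (w : M) * star (w : M) = 1 := congrArg Subtype.val (Unitary.mul_star_self_of_mem w.2)
  obtain ⟨wS, wX, wZ⟩ := q.mem_comm.1 w.1.2
  obtain ⟨-, YX, YZ⟩ := q.mem_comm.1 hY0
  generalize ((w : comm S X Z) : M) = w at *
  have q2 := q.twist h1 h2 wX wZ
  have b1 := T.comm_tw q wX wZ YX YZ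
  have b2 : T.n2 (w * Y0 - Y0 * w) = T.n2 (Y0 - w * Y0 * star w) := by
    rw [← T.n2_unit_right (u := star w) (by simpa using h1), T.n2_sub_rev, sub_mul, mul_assoc Y0,
      h2, mul_one, T.n2_sub_rev]
  have hXS : tw w X Z ∈ S := by
    refine S.smul_mem (add_mem (mul_mem wS (add_mem hX (mul_mem hZ hX)))
      (mul_mem (star_mem wS) (sub_mem hX (mul_mem hZ hX)))) _
  generalize tw w X Z = X2 at *
  refine ⟨X2, Z, hXS, hZ, q2, ?_⟩
  have b3 : T.n2 (X2 * Y0 - Y0 * X2) ≤ T.n2 (X2 * Y - Y * X2) + 2 * T.n2 (Y - Y0) := by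
    have e : X2 * Y0 - Y0 * X2 = (X2 * Y - Y * X2) + ((Y - Y0) * X2 - X2 * (Y - Y0)) := by
      noncomm_ring
    have c1 := T.n2_sub_le ((Y - Y0) * X2) (X2 * (Y - Y0))
    rw [T.n2_unit_left (u := X2) (by rw [q2.sX, q2.XX]),
      T.n2_unit_right (u := X2) (by rw [q2.sX, q2.XX])] at c1
    rw [e]; linarith [T.n2_add_le (X2 * Y - Y * X2) ((Y - Y0) * X2 - X2 * (Y - Y0))]
  have b4 : 2 / 10 * T.n2 Y ≤ T.n2 (X2 * Y - Y * X2) := by linarith
  have b5 := T.n2_half q2.sX q2.XX Y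
  have b6 := T.n2_half_le q2.sZ q2.ZZ (half X2 Y)
  rw [q2.av_symm]
  change T.n2 (half Z (half X2 Y)) ^ 2 ≤ _
  have b7 : T.n2 (half Z (half X2 Y)) ^ 2 ≤ T.n2 (half X2 Y) ^ 2 := by
    have := T.n2_nonneg (half Z (half X2 Y)); gcongr
  have b8 : (2 / 10 * T.n2 Y) ^ 2 ≤ T.n2 (X2 * Y - Y * X2) ^ 2 := by gcongr
  nlinarith

end Tr
end Vale.Agent.P085
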