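import Vale.Agent.P085.Sub

open scoped ComplexOrder InnerProductSpace ComplexConjugate
open Filter Topology

set_option linter.unusedSimpArgs false

namespace Vale.Agent.P085
variable {M : Type*} [CStarAlgebra M]

lemma inv_mem {P : StarSubalgebra ℂ M} (hP : IsClosed (P : Set M)) {a r : M} (ha : a ∈ P)
    (h1 : r * a = 1) (h2 : a * r = 1) : r ∈ P := by
  have hu : IsUnit a := ⟨⟨a, r, h2, h1⟩, rfl⟩
  obtain ⟨b, hb⟩ := ((StarSubalgebra.coe_isUnit P (a := ⟨a, ha⟩)).1 hu).exists_right_inv
  have hb' : a * b = 1 := congrArg Subtype.val hb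
  have : r = b := by rw [← mul_one r, ← hb', ← mul_assoc, h1, one_mul]
  rw [this]; exact b.2

lemma resolvent {t : M} (ht : star t = -t) :
    ∃ r, r * (1 - t) = 1 ∧ (1 - t) * r = 1 ∧ ‖r‖ ≤ 1 := by
  let _ := CStarAlgebra.spectralOrder M
  let _ := CStarAlgebra.spectralOrderedRing M
  have ha : IsSelfAdjoint (Complex.I • t) := by
    simp [IsSelfAdjoint, star_smul, ht]
  have h1 : Complex.I ∉ spectrum ℂ (Complex.I • t) := fun h => by
    have := ha.mem_spectrum_eq_re h
    simp at this
  rw [spectrum.notMem_iff, Algebra.algebraMap_eq_smul_one, ← smul_sub] at h1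
  have h2 : IsUnit (1 - t) := by
    have := h1.smul (Units.mk0 Complex.I Complex.I_ne_zero)⁻¹
    rwa [Units.smul_def, smul_smul, Units.val_inv_eq_inv_val, Units.val_mk0,
      inv_mul_cancel₀ Complex.I_ne_zero, one_smul] at this
  obtain ⟨u, hu⟩ := h2
  have e1 : (↑u⁻¹ : M) * (1 - t) = 1 := by rw [← hu]; simp
  have e2 : (1 - t) * (↑u⁻¹ : M) = 1 := by rw [← hu]; simp
  refine ⟨_, e1, e2, ?_⟩
  generalize (↑u⁻¹ : M) = r at *
  have e3 : star r * r + star (t * r) * (t * r) = 1 := by
    have : star ((1 - t) * r) * ((1 - t) * r) = 1 := by rw [e2]; simp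
    rw [← this]
    simp only [star_mul, star_sub, star_one, ht]
    noncomm_ring
  have e4 : star r * r ≤ 1 := by
    rw [← e3]; exact le_add_of_nonneg_right (star_mul_self_nonneg _)
  rw [← CStarAlgebra.norm_le_one_iff_of_nonneg _ (star_mul_self_nonneg _),
    CStarRing.norm_star_mul_self] at e4
  nlinarith [norm_nonneg r]

lemma cayley {t : M} (ht : star t = -t) : ∃ V ∈ unitary M, ‖V - (1 + t)‖ ≤ ‖t‖ ^ 2 := by
  obtain ⟨s, rfl⟩ : ∃ s, t = s + s := ⟨(1 / 2 : ℂ) • t, by module⟩
  have hs : star s = -s := by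
    have e : s = (1 / 2 : ℂ) • (s + s) := by module
    rw [e, star_smul, ht]; simp
  obtain ⟨r, e1, e2, hr⟩ := resolvent hs
  have e3 : star r * (1 + s) = 1 := by simpa [hs] using congrArg star e2
  have e4 : (1 + s) * star r = 1 := by simpa [hs] using congrArg star e1
  have f1 : r + star r = star r * r + star r * r := by
    calc r + star r = star r * (1 + s) * r + star r * ((1 - s) * r) := by rw [e2, e3]; simp
      _ = _ := by noncomm_ring
  have f2 : r + star r = r * star r + r * star r := by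
    calc r + star r = r * ((1 + s) * star r) + r * (1 - s) * star r := by rw [e1, e4]; simp
      _ = _ := by noncomm_ring
  refine ⟨r + r - 1, ?_, ?_⟩
  · rw [Unitary.mem_iff]
    simp only [star_sub, star_add, star_one]
    constructor
    · calc _ = 1 + 2 * ((star r * r + star r * r) - (r + star r)) := by noncomm_ring
        _ = 1 := by rw [f1]; simp
    · calc _ = 1 + 2 * ((r * star r + r * star r) - (r + star r)) := by noncomm_ring
        _ = 1 := by rw [f2]; simp
  · have e : r + r - 1 - (1 + (s + s)) = (s + s) * s * r := by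
      calc _ = r + r - (1 + s) * ((1 - s) * r) - (1 + s) * ((1 - s) * r) := by rw [e2]; noncomm_ring
        _ = _ := by noncomm_ring
    have n1 : ‖s + s‖ = 2 * ‖s‖ := by rw [← two_smul ℂ, norm_smul]; simp
    rw [e]
    have a1 := norm_mul_le ((s + s) * s) r
    have a2 := norm_mul_le (s + s) s
    have a3 := mul_le_of_le_one_right (norm_nonneg ((s + s) * s)) hr
    rw [n1] at *
    nlinarith [norm_nonneg s]

namespace Tr
variable (T : Tr M)

lemma kap_skew {P : StarSubalgebra ℂ M} (hP : T.Cl2 P) {t : M} (ht : star t = -t)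
    (p : ℕ → M) (hp : ∀ n, p n ∈ P) (hs : ∀ n, star (p n) = -p n) (hl : T.Lim p t) : t ∈ P := by
  obtain ⟨r, e1, e2, hr⟩ := resolvent ht
  choose q f1 f2 hq using fun n => resolvent (hs n)
  have hqP : ∀ n, q n ∈ P := fun n => inv_mem hP.isClosed (sub_mem (one_mem _) (hp n)) (f1 n) (f2 n)
  have hrP : r ∈ P := by
    refine hP q r 1 hqP hq (squeeze_zero (fun n => T.n2_nonneg _) (fun n => ?_) hl)
    have e : q n - r = q n * (p n - t) * r := by
      calc q n - r = q n * ((1 - t) * r) - q n * (1 - p n) * r := by rw [e2, f1]; simp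
        _ = _ := by noncomm_ring
    rw [e]
    have a1 := T.n2_mul_right (q n * (p n - t)) r
    have a2 := T.n2_mul_left (q n) (p n - t)
    have a3 := mul_le_of_le_one_right (T.n2_nonneg (q n * (p n - t))) hr
    have a4 := mul_le_of_le_one_left (T.n2_nonneg (p n - t)) (hq n)
    linarith
  have := sub_mem (one_mem P) (inv_mem hP.isClosed hrP e2 e1)
  simpa using this

lemma Lim.smul {x : ℕ → M} {z : M} (h : T.Lim x z) (c : ℂ) :
    T.Lim (fun n => c • x n) (c • z) := by
  rw [lim_iff] at *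
  simpa using h.const_smul c

theorem kap {P : StarSubalgebra ℂ M} (hP : T.Cl2 P) {x : M}
    (hx : ∀ ε > 0, ∃ p ∈ P, T.n2 (p - x) < ε) : x ∈ P := by
  choose p hp hp' using fun n : ℕ => hx (1 / ((n : ℝ) + 1)) (by positivity)
  have hl : T.Lim p x := squeeze_zero (fun n => T.n2_nonneg _) (fun n => (hp' n).le)
    tendsto_one_div_add_atTop_nhds_zero_nat
  have a1 : x - star x ∈ P := T.kap_skew hP (by simp) (fun n => p n - star (p n))
    (fun n => sub_mem (hp n) (star_mem (hp n))) (fun n => by simp) (Lim.sub T hl (Lim.str T hl))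
  have a2 : Complex.I • (x + star x) ∈ P := T.kap_skew hP (by simp [star_smul, add_comm])
    (fun n => Complex.I • (p n + star (p n)))
    (fun n => P.smul_mem (add_mem (hp n) (star_mem (hp n))) _)
    (fun n => by simp [star_smul, add_comm]) (Lim.smul T (Lim.add T hl (Lim.str T hl)) _)
  have e : x = (1 / 2 : ℂ) • (x - star x) + (-Complex.I / 2) • (Complex.I • (x + star x)) := by
    have : -Complex.I / 2 * Complex.I = 1 / 2 := by
      linear_combination (-1 / 2 : ℂ) * Complex.I_mul_I
    rw [smul_smul, this]; module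
  rw [e]
  exact add_mem (P.smul_mem a1 _) (P.smul_mem a2 _)

end Tr

lemma sign_mem [Nontrivial M] {P : StarSubalgebra ℂ M} (hP : IsClosed (P : Set M)) {g r : M}
    (h1 : star g = g) (h2 : g * g = 1) (h3 : star r = r) (h4 : g * r = r * g) (h5 : ‖r‖ < 1)
    (h : g + r ∈ P) : g ∈ P := by
  let _ := CStarAlgebra.spectralOrder M
  let _ := CStarAlgebra.spectralOrderedRing M
  have n1 : ‖-(g * r)‖ < 1 := by
    rw [norm_neg]
    refine (norm_mul_le _ _).trans_lt ?_
    rwa [norm_sym h1 h2, one_mul]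
  have sa : IsSelfAdjoint (-(g * r)) := by simp [IsSelfAdjoint, h1, h3, h4]
  have p1 : 0 ≤ 1 + g * r := by
    have a1 := sa.le_algebraMap_norm_self
    have a2 : algebraMap ℝ M ‖-(g * r)‖ ≤ algebraMap ℝ M 1 := algebraMap_mono M n1.le
    rw [map_one] at a2
    have := sub_nonneg.2 (a1.trans a2)
    simpa using this
  have e1 : (1 + g * r) * (1 + g * r) = star (g + r) * (g + r) := by
    have : g * r * (g * r) = r * r := by
      rw [mul_assoc, ← mul_assoc r, ← h4, ← mul_assoc, ← mul_assoc, h2, one_mul]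
    simp only [star_add, h1, h3, mul_add, add_mul, this, h2, ← h4, mul_one, one_mul]
  have e2 := CFC.sqrt_unique e1 p1
  rw [CFC.sqrt_eq_real_sqrt _ (star_mul_self_nonneg _)] at e2
  have m1 : 1 + g * r ∈ P := by
    rw [← e2]
    exact cfcₙ_mem (𝕜' := ℂ) _ (mul_mem (star_mem h) h)
  obtain ⟨u, hu⟩ := isUnit_one_sub_of_norm_lt_one n1
  rw [sub_neg_eq_add] at hu
  have f1 : (↑u⁻¹ : M) * (1 + g * r) = 1 := by rw [← hu]; simp
  have f2 : (1 + g * r) * (↑u⁻¹ : M) = 1 := by rw [← hu]; simp
  have m2 := mul_mem h (inv_mem hP m1 f1 f2)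
  have e3 : g + r = g * (1 + g * r) := by rw [mul_add, ← mul_assoc, h2]; simp
  rwa [e3, mul_assoc, f2, mul_one] at m2

lemma exists_series [Nontrivial M] (g : ℕ → M) (h1 : ∀ i, star (g i) = g i)
    (h2 : ∀ i, g i * g i = 1) (h3 : ∀ i j, g i * g j = g j * g i) :
    ∃ s : M, star s = s ∧ (∀ c, (∀ i, c * g i = g i * c) → c * s = s * c) ∧
      ∀ P : StarSubalgebra ℂ M, IsClosed (P : Set M) → s ∈ P → ∀ i, g i ∈ P := by
  have hn : ∀ k i, ‖((1 / 3 : ℂ) ^ i) • g (i + k)‖ = (1 / 3) ^ i := fun k i => by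
    rw [norm_smul, norm_sym (h1 _) (h2 _), norm_pow]; simp
  have hg : HasSum (fun i : ℕ => (1 / 3 : ℝ) ^ i) (3 / 2) := by
    have := hasSum_geometric_of_lt_one (r := (1 / 3 : ℝ)) (by norm_num) (by norm_num)
    norm_num at this ⊢
    exact this
  have hs : ∀ k, Summable (fun i => ((1 / 3 : ℂ) ^ i) • g (i + k)) := fun k =>
    Summable.of_norm (by simpa only [hn] using hg.summable)
  let s : ℕ → M := fun k => ∑' i, ((1 / 3 : ℂ) ^ i) • g (i + k)
  have a1 : ∀ k, ‖s k‖ ≤ 3 / 2 := fun k => tsum_of_norm_bounded hg fun i => (hn k i).le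
  have a2 : ∀ k, star (s k) = s k := fun k => by
    simp only [s, tsum_star, star_smul, h1]
    simp
  have a3 : ∀ k c, (∀ i, c * g i = g i * c) → c * s k = s k * c := fun k c hc => by
    simp only [s]
    rw [← (hs k).tsum_mul_left, ← (hs k).tsum_mul_right]
    simp only [mul_smul_comm, smul_mul_assoc, hc]
  have a4 : ∀ k, s k = g k + (1 / 3 : ℂ) • s (k + 1) := fun k => by
    simp only [s]
    rw [(hs k).tsum_eq_zero_add, ← (hs (k + 1)).tsum_const_smul]
    congr 1
    · simp
    · refine tsum_congr fun i => ?_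
      rw [smul_smul, pow_succ', add_assoc, add_comm 1 k]
  refine ⟨s 0, a2 0, a3 0, fun P hP h0 => ?_⟩
  have b1 : ∀ k, s k ∈ P → g k ∈ P := fun k hk => by
    rw [a4] at hk
    refine sign_mem hP (h1 k) (h2 k) (by rw [star_smul, a2]; simp)
      (by rw [mul_smul_comm, smul_mul_assoc, a3 _ _ (h3 k)]) ?_ hk
    rw [norm_smul]
    have : ‖(1 / 3 : ℂ)‖ = 1 / 3 := by simp
    rw [this]; linarith [a1 (k + 1)]
  have b2 : ∀ k, s k ∈ P := by
    intro k
    induction k with
    | zero => exact h0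
    | succ k ih =>
      have e : s (k + 1) = (3 : ℂ) • (s k - g k) := by rw [a4 k]; module
      rw [e]; exact P.smul_mem (sub_mem ih (b1 k ih)) _
  exact fun i => b1 i (b2 i)

end Vale.Agent.P085
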