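import Vale.Agent.P085.Conf
import Vale.Agent.P085.Res

open scoped ComplexOrder InnerProductSpace ComplexConjugate
open Filter Topology

set_option linter.unusedSimpArgs false
set_option linter.unusedSectionVars false

namespace Vale.Agent.P085
variable {M : Type*} [CStarAlgebra M]

lemma conj_prod {ι : Type*} {g : M} (hg : g ∈ unitary M) (l : List ι) (f : ι → M) :
    g * (l.map f).prod * star g = (l.map fun i => g * f i * star g).prod := by
  induction l with
  | nil => simpa using Unitary.mul_star_self_of_mem hg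
  | cons i l ih =>
    have e : ∀ z, star g * (g * z) = z := fun z => by
      rw [← mul_assoc, Unitary.star_mul_self_of_mem hg, one_mul]
    rw [List.map_cons, List.map_cons, List.prod_cons, List.prod_cons, ← ih]
    simp only [mul_assoc, e]

lemma prod_flat {ι κ : Type*} (l : List ι) (F : ι → List κ) (U : κ → M) :
    ((l.flatMap F).map U).prod = (l.map fun j => ((F j).map U).prod).prod := by
  induction l with
  | nil => simp
  | cons i l ih => simp [ih]

abbrev Ix (n : ℕ) := Option {p : ℕ × ℕ // p.1 ≤ n ∧ p.2 ≤ n ∧ p.1 ≠ p.2}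

def idx (n j l : ℕ) : Ix n := if h : j ≤ n ∧ l ≤ n ∧ j ≠ l then some ⟨(j, l), h⟩ else none

def pr {n : ℕ} : Ix n → ℕ × ℕ
  | none => (0, 0)
  | some p => p.1

lemma pr_le {n : ℕ} (f : Ix n) : (pr f).1 ≤ n ∧ (pr f).2 ≤ n := by
  cases f with
  | none => simp [pr]
  | some p => exact ⟨p.2.1, p.2.2.1⟩

lemma pr_ne {n : ℕ} {f g : Ix n} (h : f ≠ g) :
    ¬ (((pr f).2 = (pr f).1 ∧ (pr g).1 = (pr g).2) ∨ ((pr f).1 = (pr g).1 ∧ (pr f).2 = (pr g).2)) := by
  rcases f with _ | ⟨⟨a, b⟩, h1⟩ <;> rcases g with _ | ⟨⟨c, d⟩, h2⟩ <;> simp [pr] at * <;> omega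

lemma idx_inj {n : ℕ} {p q : ℕ × ℕ} (h : p ≠ q) (e : idx n p.1 p.2 = idx n q.1 q.2) :
    idx n p.1 p.2 = none := by
  unfold idx at *
  split_ifs at e ⊢ with h1 h2 <;> simp_all

lemma count_idx {n j : ℕ} (hj : j ≤ n) : ((List.range (n + 1)).map (idx n j)).count none = 1 := by
  refine Eq.trans ?_ (List.count_eq_one_of_mem (List.nodup_range (n := n + 1)) (List.mem_range.2
    (Nat.lt_succ_of_le hj)))
  rw [List.count, List.count, List.countP_map]
  refine List.countP_congr fun l hl => ?_
  have := List.mem_range.1 hl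
  simp only [idx, Function.comp, beq_iff_eq, dite_eq_right_iff]
  simp
  omega

lemma Tr.n2_unit_sub (T : Tr M) {k : M} (hk : k ∈ unitary M) :
    T.n2 (k - 1) ^ 2 ≤ 2 * ‖T.τ k - 1‖ := by
  have e : star (k - 1) * (k - 1) = 1 - k - star k + 1 := by
    rw [star_sub, star_one, sub_mul, mul_sub, Unitary.star_mul_self_of_mem hk]; noncomm_ring
  rw [T.n2_sq, e, norm_sub_rev]
  have := Complex.re_le_norm (1 - T.τ k)
  simp only [map_add, map_sub, T.one, T.τ_star, Complex.add_re, Complex.sub_re, Complex.conj_re,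
    Complex.one_re] at *
  linarith

theorem main_lemma {T : Tr M} {A : StarSubalgebra ℂ M} (hF : FHP T A) {y x : M}
    (hy : y ∈ unitary M) (hx : x ∈ unitary M) (q : M) {s δ η : ℝ} (hs0 : 0 ≤ s) (hs : s ≤ 1 / 2)
    (hδ : 0 < δ) (hη : 0 < η) :
    ∃ y' ∈ unitary M, T.n2 (y' - y) < δ ∧ ∃ a, UA A a ∧ ∃ B,
      ‖T.τ (star q * wd a y' B) - s * T.τ (star q * x)‖ < 12 * s ^ 2 * T.n2 q + η := by
  have := T.nontriv
  obtain ⟨n, hn⟩ := exists_nat_one_div_lt (K := ℝ) (ε := δ ^ 2 / 12) (by positivity)
  choose a ha hq using fun m : ℕ => exists_conf hF hy (μ := 1 / ((m : ℝ) + 1)) (by positivity) n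
  have hu := fun m => wd_unitary (ha m) hy
  choose F hne hco hw using fun m =>
    hF (star x * (wd (a m) y n * y)) (mul_mem (Unitary.star_mem hx) (mul_mem (hu m n) hy))
  let F' : ℕ → Filter (unitary M) := fun m => (F m).comap Subtype.val
  have hne' : ∀ m, (F' m).NeBot := fun m => (hne m).comap_of_range_mem (by
    filter_upwards [hco m]
    rintro _ ⟨c, -, hc, rfl⟩
    exact ⟨⟨_, mul_mem (mul_mem (Unitary.star_mem hx) (mul_mem (hu m n) hy)) hc⟩, rfl⟩)
  let C : ℕ → Ix n → unitary M := fun m f =>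
    ⟨wd (a m) y (pr f).1 * star (wd (a m) y (pr f).2), mul_mem (hu m _) (Unitary.star_mem (hu m _))⟩
  have hC : ∀ m f, (C m f : M) = wd (a m) y (pr f).1 * star (wd (a m) y (pr f).2) := fun _ _ => rfl
  have hC0 : ∀ m, (C m none : M) = 1 := fun m => by simp [hC, pr, wd]
  have hCi : ∀ m, ∀ j ≤ n, ∀ l ≤ n, (C m (idx n j l) : M) = wd (a m) y j * star (wd (a m) y l) := by
    intro m j hj l hl
    unfold idx
    split_ifs with h
    · rfl
    · have : j = l := by omega
      rw [hC0, this, Unitary.mul_star_self_of_mem (hu m l)]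
  let G : ℕ → Ix n → unitary M := fun m f => C m f * ⟨x, hx⟩
  have hGe : ∀ m f, (G m f : M) = C m f * x := fun _ _ => rfl
  have hG : ∀ m f g, f ≠ g → ‖T.τ (star (G m f : M) * G m g)‖ ≤ 1 / ((m : ℝ) + 1) := by
    intro m f g hfg
    have := hq m _ (pr_le f).2 _ (pr_le f).1 _ (pr_le g).1 _ (pr_le g).2 (pr_ne hfg)
    rw [hGe, hGe, ← mul_assoc, T.tr, star_mul, mul_assoc, ← mul_assoc x,
      Unitary.mul_star_self_of_mem hx, one_mul, hC, hC]
    simpa only [star_mul, star_star, mul_assoc] using this
  have hfree := free_of T F' (fun m w h1 h2 => (hw m w h1 h2).comp tendsto_comap) G hG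
  set L := (atTop.bind fun m => (F' m).map (Prod.mk m))
  set V : ℕ × unitary M → Ix n → unitary M := fun j f => G j.1 f * j.2 * star (G j.1 f)
  have hV : ∀ j f, (V j f : M) = C j.1 f * (x * j.2 * star x) * star (C j.1 f : M) := fun j f => by
    change (G j.1 f : M) * j.2 * star (G j.1 f : M) = _
    simp only [hGe, star_mul, mul_assoc]
  set σ : ℝ := s / (n + 1 : ℕ) with hσ
  have hσ0 : 0 ≤ σ := by positivity
  have hσs : (n + 1 : ℕ) * σ = s := by rw [hσ]; field_simp
  choose V0 hV0 hV1 using fun j => cayley (t := tt σ (V j none : M)) (by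
    simp only [tt, star_smul, star_sub, star_star, Complex.star_def, Complex.conj_ofReal]
    rw [← smul_neg, neg_sub])
  let U : ℕ × unitary M → Ix n → M := fun j f => C j.1 f * V0 j * star (C j.1 f : M)
  have hUu : ∀ j f, U j f ∈ unitary M := fun j f =>
    mul_mem (mul_mem (C j.1 f).2 (hV0 j)) (Unitary.star_mem (C j.1 f).2)
  have hU : ∀ j f, ‖U j f‖ ≤ 1 := fun j f => (CStarRing.norm_of_mem_unitary (hUu j f)).le
  have hW : ∀ j f, ‖U j f - (1 + tt σ (V j f : M))‖ ≤ 4 * σ ^ 2 := fun j f => by
    have e : U j f - (1 + tt σ (V j f : M)) =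
        C j.1 f * (V0 j - (1 + tt σ (V j none : M))) * star (C j.1 f : M) := by
      simp only [U, tt, hV, hC0, mul_sub, sub_mul, mul_add, add_mul, mul_smul_comm, smul_mul_assoc,
        star_mul, star_star, star_one, one_mul, mul_one, mul_assoc,
        Unitary.mul_star_self_of_mem (C j.1 f).2]
    rw [e, CStarRing.norm_mul_mem_unitary _ (Unitary.star_mem (C j.1 f).2),
      CStarRing.norm_coe_unitary_mul]
    refine (hV1 j).trans ?_
    have := norm_tt hσ0 (V j none)
    calc _ ≤ (2 * σ) ^ 2 := by gcongr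
      _ = _ := by ring
  let l : List (Ix n) := (List.range (n + 1)).flatMap fun j => (List.range (n + 1)).map (idx n j)
  let l' : List (Ix n) := (List.range (n + 1)).map (idx n 0)
  have hl : l.Pairwise (fun f g => f = g → f = none) := by
    have e : l = (List.range (n + 1) ×ˢ List.range (n + 1)).map (fun p => idx n p.1 p.2) := by
      simp [l, SProd.sprod, List.product, List.map_flatMap, Function.comp_def]
    rw [e, List.pairwise_map]
    exact (List.nodup_range.product List.nodup_range).imp fun h => idx_inj h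
  have hl' : l'.Pairwise (fun f g => f = g → f = none) := by
    rw [List.pairwise_map]
    exact List.nodup_range.imp fun {i j} h => idx_inj (p := (0, i)) (q := (0, j)) (by simpa using h)
  have hc : l.count none = n + 1 := by
    rw [List.count_flatMap, Function.comp_def, List.map_congr_left (g := fun _ => 1)
      fun j hj => count_idx (Nat.le_of_lt_succ (List.mem_range.1 hj))]
    simp
  have E1 := est1 T (hfree (x * star q)) none l hl U hU hσ0 hW hσs hs (by simp [l]) hc hη
  have E2 := est2 T (hfree 1) none l' hl' U hU hσ0 hW (Nat.le_add_left 1 n) hσs hs (by simp [l'])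
    (count_idx (Nat.zero_le n)) (η := δ ^ 2 / 4) (by positivity)
  obtain ⟨m, hm⟩ := (eventually_bind.1 (E1.and E2)).exists
  rw [eventually_map] at hm
  have := hne' m
  obtain ⟨v, ⟨e1, e2⟩, c, hc1, hc2, hv⟩ := (hm.and (tendsto_comap.eventually (hco m))).exists
  set k := (l'.map (U (m, v))).prod with hk
  have hku : k ∈ unitary M := Submonoid.list_prod_mem _ (by
    intro z hz
    obtain ⟨f, -, rfl⟩ := List.mem_map.1 hz
    exact hUu _ _)
  have ha' := (ha m).update hc1 hc2 n
  refine ⟨k * y, mul_mem hku hy, ?_, _, ha', n + 1, ?_⟩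
  · have e : k * y - y = (k - 1) * y := by noncomm_ring
    rw [e, T.n2_unit_right (Unitary.mul_star_self_of_mem hy)]
    refine lt_of_pow_lt_pow_left₀ 2 hδ.le ((T.n2_unit_sub hku).trans_lt ?_)
    have : (3 : ℝ) / (n + 1 : ℕ) = 3 * (1 / ((n : ℝ) + 1)) := by push_cast; ring
    rw [this] at e2
    linarith
  · have f1 : ((List.range (n + 1)).map fun j => wd (Function.update (a m) n c) y j * k *
        star (wd (Function.update (a m) n c) y j)).prod = (l.map (U (m, v))).prod := by
      rw [prod_flat]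
      congr 1
      refine List.map_congr_left fun j hj => ?_
      have hj' := Nat.le_of_lt_succ (List.mem_range.1 hj)
      rw [wd_update _ _ _ hj', hk, conj_prod (hu m j), List.map_map, List.map_map]
      congr 1
      refine List.map_congr_left fun i hi => ?_
      have hi' := Nat.le_of_lt_succ (List.mem_range.1 hi)
      simp only [Function.comp, U, hCi m j hj' i hi', hCi m 0 (Nat.zero_le n) i hi', wd, one_mul,
        star_mul, star_star, mul_assoc]
    have f2 : wd (Function.update (a m) n c) y (n + 1) = V (m, v) none * x := by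
      rw [wd_update', hV, hC0]
      simp only [hv, star_one, one_mul, mul_one, mul_assoc, Unitary.star_mul_self_of_mem hx]
      rw [← mul_assoc x, Unitary.mul_star_self_of_mem hx, one_mul]
    rw [wd_mul ha' hy, f1, f2, ← mul_assoc, ← mul_assoc, T.tr _ x, T.tr _ x]
    rw [T.n2_unit_left (Unitary.star_mul_self_of_mem hx), T.n2_star] at e1
    simpa only [V, mul_assoc] using e1

end Vale.Agent.P085
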