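import Vale.Agent.P085.Dix

open scoped ComplexOrder InnerProductSpace ComplexConjugate
open Filter Topology

namespace Vale.Agent.P085
namespace Tr
variable {M : Type*} [CStarAlgebra M] (T : Tr M)

noncomputable def τH : T.H →L[ℂ] ℂ := innerSL ℂ (T.toH 1)

@[simp] lemma τH_toH (x : M) : T.τH (T.toH x) = T.τ x := by
  simp [τH, inner_toH]

lemma exists_on (hi : ¬ FiniteDimensional ℂ M) (N : ℕ) :
    ∃ e : Fin N → M, Orthonormal ℂ (fun k => T.toH (e k)) := by
  have h1 : ¬ FiniteDimensional ℂ T.H := hi
  rw [FiniteDimensional, ← Module.rank_lt_aleph0_iff, not_lt] at h1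
  have h2 : (N : Cardinal) ≤ Module.rank ℂ T.H := (Cardinal.natCast_lt_aleph0).le.trans h1
  obtain ⟨v, hv⟩ := Module.le_rank_iff.1 h2
  exact ⟨fun k => T.toH.symm (InnerProductSpace.gramSchmidtNormed ℂ v k),
    InnerProductSpace.gramSchmidtNormed_orthonormal hv⟩

lemma proj_τ {r : M} (h1 : star r = r) (h2 : r * r = r) : T.τ r = ((T.n2 r ^ 2 : ℝ) : ℂ) := by
  rw [← T.n2_sq', h1, h2]

lemma n2_pos {r : M} (h : r ≠ 0) : 0 < T.n2 r :=
  (T.n2_nonneg r).lt_of_ne' fun h' => h (T.n2_eq_zero h')

theorem not_minimal (hc : T.Cpl) (hf : Fac M) (hi : ¬ FiniteDimensional ℂ M) {r : M}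
    (h1 : star r = r) (h2 : r * r = r) (h0 : r ≠ 0) :
    ¬ ∀ x, ∃ l : ℂ, r * x * r = l • r := by
  intro h
  set ρ := T.n2 r ^ 2 with hρ
  have hρ0 : 0 < ρ := pow_pos (T.n2_pos h0) 2
  have hτ : T.τ r = (ρ : ℂ) := T.proj_τ h1 h2
  obtain ⟨N, hN⟩ := exists_nat_gt (1 / ρ ^ 2)
  obtain ⟨e, he⟩ := T.exists_on hi N
  have key : ∀ u v : unitary M, ‖∑ k, T.τ (star (e k) * (u * r * star (u : M)) *
      (e k * (v * r * star (v : M))))‖ ≤ 1 := by
    intro u v
    choose l hl using fun k => h (star (u : M) * e k * v)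
    have hω : ‖T.toH (u * r * star (v : M))‖ ^ 2 = ρ := by
      change T.n2 _ ^ 2 = _
      rw [T.n2_unit_right (by simp), T.n2_unit_left (by simp)]
    have hB := he.sum_inner_products_le (T.toH (u * r * star (v : M))) (s := Finset.univ)
    rw [hω] at hB
    have e1 : ∀ k, ‖⟪T.toH (e k), T.toH (u * r * star (v : M))⟫_ℂ‖ = ‖l k‖ * ρ := by
      intro k
      rw [← norm_inner_symm, inner_toH]
      have : T.τ (star (u * r * star (v : M)) * e k) = T.τ (r * (star (u : M) * e k * v) * r) := by
        have a1 : star (u * r * star (v : M)) * e k = (v * r) * (r * (star (u : M) * e k)) := by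
          simp only [star_mul, star_star, h1, mul_assoc]
          rw [← mul_assoc r r, h2]
        rw [a1, T.tr]; simp [mul_assoc]
      rw [this, hl, map_smul, hτ, smul_eq_mul, norm_mul, Complex.norm_real,
        Real.norm_of_nonneg hρ0.le]
    have e2 : ∀ k, T.τ (star (e k) * (u * r * star (u : M)) * (e k * (v * r * star (v : M))))
        = ((‖l k‖ ^ 2 * ρ : ℝ) : ℂ) := by
      intro k
      have a1 : T.τ (star (e k) * (u * r * star (u : M)) * (e k * (v * r * star (v : M))))
          = T.τ (star (r * (star (u : M) * e k * v) * r) * (r * (star (u : M) * e k * v) * r)) := by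
        have b1 : star (e k) * (u * r * star (u : M)) * (e k * (v * r * star (v : M)))
            = (star (e k) * (u * (r * r) * star (u : M)) * (e k * (v * r))) * (r * star (v : M)) := by
          rw [h2]; simp only [mul_assoc]; rw [← mul_assoc r r, h2]
        rw [b1, T.tr]
        simp only [star_mul, star_star, h1, mul_assoc]
      rw [a1, hl, T.n2_sq', T.n2_smul, mul_pow]
    simp only [e1] at hB
    simp only [e2]
    rw [← Complex.ofReal_sum, Complex.norm_real, Real.norm_of_nonneg
      (Finset.sum_nonneg fun k _ => by positivity)]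
    have : (∑ k, ‖l k‖ ^ 2 * ρ) * ρ ≤ 1 * ρ := by
      rw [Finset.sum_mul, one_mul]
      convert hB using 2 with k
      ring
    exact le_of_mul_le_mul_right this hρ0
  have key2 : ∀ v : unitary M, ‖∑ k, T.τ (star (e k) * (T.τ r • 1) *
      (e k * (v * r * star (v : M))))‖ ≤ 1 := by
    intro v
    have := T.dix_semi hc hf r (∑ k, T.τH ∘L T.mulH (star (e k)) (e k * (v * r * star (v : M))))
      0 1 (fun u => by simpa [mulH_toH] using key u v)
    simpa only [zero_sub, norm_neg, sum_apply, ContinuousLinearMap.comp_apply,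
      mulH_toH, τH_toH] using this
  have key3 := T.dix_semi hc hf r (∑ k, T.τH ∘L T.mulH (star (e k) * (T.τ r • 1) * e k) 1)
      0 1 (fun v => by
        have := key2 v
        simpa only [zero_sub, norm_neg, sum_apply,
          ContinuousLinearMap.comp_apply, mulH_toH, τH_toH, mul_one, mul_assoc] using this)
  simp only [zero_sub, norm_neg, sum_apply, ContinuousLinearMap.comp_apply,
      mulH_toH, τH_toH, mul_one, mul_smul_comm, smul_mul_assoc, map_smul] at key3
  have e3 : ∀ k, T.τ (star (e k) * e k) = 1 := fun k => by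
    rw [T.n2_sq', show T.n2 (e k) = 1 from he.1 k]; simp
  simp only [e3, hτ, smul_eq_mul, mul_one, Finset.sum_const, Finset.card_univ, Fintype.card_fin,
    nsmul_eq_mul, norm_mul, Complex.norm_real, Complex.norm_natCast,
    Real.norm_of_nonneg hρ0.le] at key3
  rw [div_lt_iff₀ (by positivity)] at hN
  nlinarith

theorem exists_nil (hc : T.Cpl) (hf : Fac M) (hi : ¬ FiniteDimensional ℂ M) {r : M}
    (h1 : star r = r) (h2 : r * r = r) (h0 : r ≠ 0) :
    ∃ x, x ≠ 0 ∧ r * x = x ∧ x * r = x ∧ x * x = 0 := by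
  let _ := CStarAlgebra.spectralOrder M
  let _ := CStarAlgebra.spectralOrderedRing M
  by_contra hno
  push Not at hno
  set ρ := T.n2 r ^ 2 with hρ
  have hρ0 : 0 < ρ := pow_pos (T.n2_pos h0) 2
  have hτ : T.τ r = (ρ : ℂ) := T.proj_τ h1 h2
  have zero_of : ∀ b : M, 0 ≤ b → T.τ b = 0 → b = 0 := by
    intro b hb h
    obtain ⟨c, rfl⟩ := CStarAlgebra.nonneg_iff_eq_star_mul_self.1 hb
    rw [T.faith c h]; simp
  have sa : ∀ t : M, star t = t → r * t = t → T.τ t = 0 → t = 0 := by
    intro t ht hrt hτt
    have hsa : IsSelfAdjoint t := ht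
    have hab := CFC.posPart_sub_negPart t hsa
    have hab1 := CFC.posPart_mul_negPart t
    have hab2 := CFC.negPart_mul_posPart t
    have ha0 := CFC.posPart_nonneg t
    have hb0 := CFC.negPart_nonneg t
    set a := t⁺
    set b := t⁻
    have hsa_a : star a = a := ha0.isSelfAdjoint
    have hsa_b : star b = b := hb0.isSelfAdjoint
    have e0 : (1 - r) * a = (1 - r) * b := by
      rw [← sub_eq_zero, ← mul_sub, hab, sub_mul, hrt]; simp
    have ea : r * a = a := by
      have : ((1 - r) * a) * star ((1 - r) * a) = 0 := by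
        rw [star_mul, hsa_a, ← mul_assoc, e0, mul_assoc (1 - r), hab2]; simp
      have := (CStarRing.mul_star_self_eq_zero_iff _).1 this
      rw [sub_mul, one_mul, sub_eq_zero] at this
      exact this.symm
    have eb : b * r = b := by
      have : ((1 - r) * b) * star ((1 - r) * b) = 0 := by
        rw [star_mul, hsa_b, ← mul_assoc, ← e0, mul_assoc (1 - r), hab1]; simp
      have := (CStarRing.mul_star_self_eq_zero_iff _).1 this
      rw [sub_mul, one_mul, sub_eq_zero] at this
      have := congrArg star this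
      rw [star_mul, hsa_b, h1] at this
      exact this.symm
    have hz : ∀ m, a * m * b = 0 := by
      intro m
      by_contra hm
      refine hno _ hm ?_ ?_ ?_
      · rw [← mul_assoc, ← mul_assoc, ea]
      · rw [mul_assoc, eb]
      · have : a * m * b * (a * m * b) = a * m * (b * a) * (m * b) := by simp [mul_assoc]
        rw [this, hab2]; simp
    have hτab : T.τ a = T.τ b := by rw [← sub_eq_zero, ← map_sub, hab, hτt]
    have hb : T.τ b = 0 := by
      by_contra hb
      have := T.prime hc hf hz hb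
      rw [this, map_zero] at hτab
      exact hb hτab.symm
    rw [← hab, zero_of a ha0 (hτab.trans hb), zero_of b hb0 hb, sub_zero]
  have sa2 : ∀ t : M, star t = t → r * t = t → ∃ l : ℂ, t = l • r := by
    intro t ht hrt
    have hre : conj (T.τ t) = T.τ t := by rw [← T.τ_star, ht]
    refine ⟨T.τ t / ρ, sub_eq_zero.1 (sa _ ?_ ?_ ?_)⟩
    · simp [star_smul, ht, h1, hre]
    · rw [mul_sub, mul_smul_comm, h2, hrt]
    · have : (ρ : ℂ) ≠ 0 := by exact_mod_cast hρ0.ne'
      rw [map_sub, map_smul, hτ, smul_eq_mul]; field_simp; ring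
  apply T.not_minimal hc hf hi h1 h2 h0
  intro x
  set y := r * x * r with hy
  have hy1 : r * y = y := by rw [hy, ← mul_assoc, ← mul_assoc, h2]
  have hy2 : r * star y = star y := by
    simp only [hy, star_mul, h1]; rw [← mul_assoc, h2]
  obtain ⟨l1, hl1⟩ := sa2 (y + star y) (by simp [add_comm]) (by rw [mul_add, hy1, hy2])
  obtain ⟨l2, hl2⟩ := sa2 (Complex.I • (y - star y)) (by
    simp only [star_smul, star_sub, star_star, Complex.star_def, Complex.conj_I]
    rw [neg_smul, ← smul_neg, neg_sub]) (by rw [mul_smul_comm, mul_sub, hy1, hy2])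
  refine ⟨(l1 - Complex.I * l2) / 2, ?_⟩
  have : y = (1 / 2 : ℂ) • ((y + star y) - Complex.I • (Complex.I • (y - star y))) := by
    rw [smul_smul, Complex.I_mul_I]; module
  rw [this, hl1, hl2]; module

end Tr
end Vale.Agent.P085
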