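import Vale.Agent.P085.Half

open scoped ComplexOrder InnerProductSpace ComplexConjugate
open Filter Topology

namespace Vale.Agent.P085
variable {M : Type*} [CStarAlgebra M]

def PI (w : M) : Prop := w * w = 0 ∧ w * (star w * w) = w

def Orth (w v : M) : Prop :=
  w * v = 0 ∧ w * star v = 0 ∧ star w * v = 0 ∧ star w * star v = 0

def Le (v v' : M) : Prop := v' * (star v * v) = v ∧ star v' * (v * star v) = star v

lemma PI.norm_le {w : M} (h : PI w) : ‖w‖ ≤ 1 := by
  have h1 : star (star w * w) * (star w * w) = star w * w := by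
    rw [star_mul, star_star, mul_assoc, h.2]
  have h2 := CStarRing.norm_star_mul_self (x := star w * w)
  rw [h1, CStarRing.norm_star_mul_self] at h2
  have := norm_nonneg w
  by_contra h3
  push Not at h3
  have : 1 < ‖w‖ * ‖w‖ := by nlinarith
  nlinarith

lemma PI.star2 {w : M} (h : PI w) : star w * (w * star w) = star w := by
  have := congrArg star h.2
  simpa [mul_assoc] using this

lemma Le.orth {v v' u : M} (h : Le v v') (hu : Orth u v') : Orth u v := by
  refine ⟨?_, ?_, ?_, ?_⟩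
  · rw [← h.1, ← mul_assoc, hu.1, zero_mul]
  · rw [← h.2, ← mul_assoc, hu.2.1, zero_mul]
  · rw [← h.1, ← mul_assoc, hu.2.2.1, zero_mul]
  · rw [← h.2, ← mul_assoc, hu.2.2.2, zero_mul]

lemma Le.add {v v' w : M} (h : Le v v') (hw : Orth w v) : Le v (v' + w) := by
  refine ⟨?_, ?_⟩
  · rw [add_mul, h.1, ← mul_assoc, hw.2.1, zero_mul, add_zero]
  · rw [star_add, add_mul, h.2, ← mul_assoc, hw.2.2.1, zero_mul, add_zero]

lemma PI.add {v w : M} (hv : PI v) (hw : PI w) (h : Orth w v) : PI (v + w) := by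
  have h1 : v * w = 0 := by simpa using congrArg star h.2.2.2
  have h2 : star v * w = 0 := by simpa using congrArg star h.2.2.1
  have h3 : v * star w = 0 := by simpa using congrArg star h.2.1
  refine ⟨?_, ?_⟩
  · rw [add_mul, mul_add, mul_add, hv.1, hw.1, h.1, h1]; simp
  · have : star (v + w) * (v + w) = star v * v + star w * w := by
      rw [star_add, add_mul, mul_add, mul_add, h2, h.2.2.1]; simp
    rw [this, add_mul, mul_add, mul_add, hv.2, hw.2, ← mul_assoc, ← mul_assoc, h3, h.2.1]; simp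

structure Qb (X Z : M) : Prop where
  sX : star X = X
  sZ : star Z = Z
  XX : X * X = 1
  ZZ : Z * Z = 1
  anti : X * Z = -(Z * X)

namespace Tr
variable (T : Tr M)

lemma Le.pyth {v v' : M} (hv : PI v) (h : Le v v') :
    T.n2 v' ^ 2 = T.n2 v ^ 2 + T.n2 (v' - v) ^ 2 := by
  have h1 : star (v' - v) * v = 0 := by
    have : star v' * v = star v * v := by
      conv_lhs => rw [← hv.2]
      rw [← mul_assoc v, ← mul_assoc, h.2]
    rw [star_sub, sub_mul, this, sub_self]
  have h2 : ⟪T.toH (v' - v), T.toH v⟫_ℂ = 0 := by rw [inner_toH, h1, map_zero]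
  have h3 := norm_add_sq_eq_norm_sq_add_norm_sq_of_inner_eq_zero _ _ h2
  rw [← map_add, sub_add_cancel] at h3
  simp only [n2]; nlinarith

lemma greedy (v : M) : ∃ w, (PI w ∧ Orth w v) ∧ ∀ u, PI u → Orth u v → T.n2 u ≤ 2 * T.n2 w := by
  set S : Set ℝ := {s | ∃ u, (PI u ∧ Orth u v) ∧ T.n2 u = s}
  have hb : BddAbove S := ⟨1, by
    rintro _ ⟨u, hu, rfl⟩; exact (T.n2_le_norm u).trans hu.1.norm_le⟩
  have h0 : PI (0 : M) ∧ Orth 0 v := by simp [PI, Orth]
  by_cases h : sSup S ≤ 0
  · refine ⟨0, h0, fun u h1 h2 => ?_⟩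
    have := le_csSup hb (⟨u, ⟨h1, h2⟩, rfl⟩ : T.n2 u ∈ S)
    simp only [n2_zero]; linarith
  · push Not at h
    obtain ⟨_, ⟨w, hw, rfl⟩, h3⟩ := exists_lt_of_lt_csSup (s := S) ⟨_, 0, h0, rfl⟩
      (show sSup S / 2 < sSup S by linarith)
    refine ⟨w, hw, fun u h1 h2 => ?_⟩
    have := le_csSup hb (⟨u, ⟨h1, h2⟩, rfl⟩ : T.n2 u ∈ S)
    linarith

theorem halving (hc : T.Cpl) (hf : Fac M) (hi : ¬ FiniteDimensional ℂ M) :
    ∃ z : M, PI z ∧ star z * z + z * star z = 1 := by
  choose g hg hg' using T.greedy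
  let v : ℕ → M := fun n => Nat.rec 0 (fun _ x => x + g x) n
  have hv : ∀ n, v (n + 1) = v n + g (v n) := fun n => rfl
  have hPI : ∀ n, PI (v n) := by
    intro n
    induction n with
    | zero => simp [v, PI]
    | succ n ih => rw [hv]; exact ih.add (hg _).1 (hg _).2
  have hLe : ∀ n m, n ≤ m → Le (v n) (v m) := by
    intro n m h
    induction m, h using Nat.le_induction with
    | base => exact ⟨(hPI n).2, (hPI n).star2⟩
    | succ m _ ih => rw [hv]; exact ih.add (ih.orth (hg _).2)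
  set γ : ℕ → ℝ := fun n => T.n2 (v n) ^ 2 with hγ
  have hdiff : ∀ n m, n ≤ m → T.n2 (v m - v n) ^ 2 = γ m - γ n := fun n m h => by
    have := Le.pyth T (hPI n) (hLe n m h); simp only [hγ]; linarith
  have hγm : Monotone γ := fun n m h => by
    have := hdiff n m h
    nlinarith [sq_nonneg (T.n2 (v m - v n))]
  have hγb : ∀ n, γ n ≤ 1 := fun n => by
    have h2 := (T.n2_le_norm (v n)).trans (hPI n).norm_le
    have h3 := T.n2_nonneg (v n)
    simp only [hγ]; nlinarith
  obtain ⟨G, hG⟩ : ∃ g, Tendsto γ atTop (𝓝 g) :=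
    ⟨_, tendsto_atTop_ciSup hγm ⟨1, by rintro _ ⟨n, rfl⟩; exact hγb n⟩⟩
  have hgle : ∀ n, γ n ≤ G := fun n => hγm.ge_of_tendsto hG n
  have hlim : Tendsto (fun n => √(G - γ n)) atTop (𝓝 0) := by
    have : Tendsto (fun n => √(G - γ n)) atTop (𝓝 (√(G - G))) :=
      (tendsto_const_nhds.sub hG).sqrt
    simpa using this
  have hcau : CauchySeq (fun n => T.toH (v n)) := by
    refine cauchySeq_of_le_tendsto_0' (fun n => √(G - γ n)) (fun n m h => ?_) hlim
    rw [dist_comm, dist_eq_norm, ← map_sub]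
    apply Real.le_sqrt_of_sq_le
    exact (hdiff n m h).le.trans (by linarith [hgle m])
  obtain ⟨z, -, hz⟩ := hc v (fun n => (hPI n).norm_le) hcau
  have hn : ∀ n, ‖v n‖ ≤ 1 := fun n => (hPI n).norm_le
  have hzPI : PI z := by
    refine ⟨Lim.unique T (Lim.mul T hz hz hn) ?_, Lim.unique T
      (Lim.mul T hz (Lim.mul T (Lim.str T hz) hz (R := 1) (by simpa using hn)) hn) ?_⟩
    · simp only [(hPI _).1]; exact T.lim_const 0
    · simpa only [(hPI _).2] using hz
  have ev : ∀ {x : ℕ → M} {a b : M} (n : ℕ), T.Lim x a → (∀ m, n ≤ m → x m = b) → a = b := by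
    intro x a b n h1 h2
    refine Lim.unique T h1 ?_
    refine (T.lim_const b).congr' ?_
    filter_upwards [eventually_ge_atTop n] with m hm
    rw [h2 m hm]
  have hzLe : ∀ n, Le (v n) z := fun n =>
    ⟨ev n (Lim.mul_right T hz _) fun m hm => (hLe n m hm).1,
     ev n (Lim.mul_right T (Lim.str T hz) _) fun m hm => (hLe n m hm).2⟩
  refine ⟨z, hzPI, ?_⟩
  by_contra hne
  set r := 1 - (star z * z + z * star z) with hr
  have hr0 : r ≠ 0 := fun h => hne (sub_eq_zero.1 h).symm
  have hss : star z * star z = 0 := by rw [← star_mul, hzPI.1, star_zero]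
  have hrz : r * z = 0 := by
    rw [hr, sub_mul, add_mul, mul_assoc, hzPI.1, mul_assoc, hzPI.2]; simp
  have hrz' : r * star z = 0 := by
    rw [hr, sub_mul, add_mul, mul_assoc, hzPI.star2, mul_assoc, hss]; simp
  have hrs : star r = r := by simp [hr]
  have hrr : r * r = r := by
    conv_lhs => rw [hr]
    rw [← hr]
    nth_rewrite 2 [hr]
    rw [mul_sub, mul_add, ← mul_assoc, ← mul_assoc, hrz, hrz']; simp
  obtain ⟨x, x0, x1, x2, x3⟩ := T.exists_nil hc hf hi hrs hrr hr0
  obtain ⟨w, w0, w1, w2, w3, w4⟩ := T.polar hc x0 x1 x2 hrs x3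
  have w5 : star w * r = star w := by
    have := congrArg star w1; rwa [star_mul, hrs] at this
  have hO : Orth w z := by
    refine ⟨?_, ?_, ?_, ?_⟩
    · rw [← w2, mul_assoc, hrz, mul_zero]
    · rw [← w2, mul_assoc, hrz', mul_zero]
    · rw [← w5, mul_assoc, hrz, mul_zero]
    · rw [← w5, mul_assoc, hrz', mul_zero]
  have hle : ∀ n, T.n2 w ≤ 2 * √(G - γ n) := fun n => by
    refine (hg' (v n) w ⟨w3, w4⟩ ((hzLe n).orth hO)).trans ?_
    gcongr
    apply Real.le_sqrt_of_sq_le
    have := hdiff n (n + 1) (Nat.le_succ n)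
    rw [hv, add_sub_cancel_left] at this
    linarith [hgle (n + 1)]
  have := ge_of_tendsto' (hlim.const_mul 2) hle
  have := T.n2_pos w0
  linarith

theorem exists_qb (hc : T.Cpl) (hf : Fac M) (hi : ¬ FiniteDimensional ℂ M) :
    ∃ X Z : M, Qb X Z := by
  obtain ⟨z, hz, h⟩ := T.halving hc hf hi
  have hss : star z * star z = 0 := by rw [← star_mul, hz.1, star_zero]
  have h1 := hz.1
  have h2 := hz.2
  have h3 := hz.star2
  refine ⟨z + star z, star z * z - z * star z, by simp [add_comm], by simp, ?_, ?_, ?_⟩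
  · rw [add_mul, mul_add, mul_add, h1, hss, ← h]; abel
  · have e1 : star z * z * (star z * z) = star z * z := by rw [mul_assoc, h2]
    have e2 : z * star z * (z * star z) = z * star z := by rw [mul_assoc, h3]
    have e3 : star z * z * (z * star z) = 0 := by
      rw [mul_assoc, ← mul_assoc z, h1]; simp
    have e4 : z * star z * (star z * z) = 0 := by
      rw [mul_assoc, ← mul_assoc (star z), hss]; simp
    rw [sub_mul, mul_sub, mul_sub, e1, e2, e3, e4, ← h]; abel
  · have e1 : z * (z * star z) = 0 := by rw [← mul_assoc, h1, zero_mul]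
    have e2 : star z * (star z * z) = 0 := by rw [← mul_assoc, hss, zero_mul]
    have e3 : star z * z * z = 0 := by rw [mul_assoc, h1, mul_zero]
    have e4 : z * star z * star z = 0 := by rw [mul_assoc, hss, mul_zero]
    have e5 : star z * z * star z = star z := by rw [mul_assoc, h3]
    have e6 : z * star z * z = z := by rw [mul_assoc, h2]
    rw [add_mul, mul_sub, mul_sub, sub_mul, mul_add, mul_add, e1, e2, e3, e4, e5, e6, h2, h3]
    abel

end Tr
end Vale.Agent.P085
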