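import Vale.Agent.P085.Qubit

open scoped ComplexOrder InnerProductSpace ComplexConjugate
open Filter Topology

set_option linter.unusedSimpArgs false

namespace Vale.Agent.P085
variable {M : Type*} [CStarAlgebra M]

noncomputable def half (h : M) : M →ₗ[ℂ] M :=
  (1 / 2 : ℂ) • (LinearMap.id + LinearMap.mulLeft ℂ h ∘ₗ LinearMap.mulRight ℂ h)

lemma half_apply (h x : M) : half h x = (1 / 2 : ℂ) • (x + h * (x * h)) := rfl

noncomputable def av (X Z : M) : M →ₗ[ℂ] M := half X ∘ₗ half Z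

lemma av_apply (X Z x : M) :
    av X Z x = (1 / 4 : ℂ) • (x + X * (x * X) + Z * (x * Z) + X * (Z * (x * (Z * X)))) := by
  simp only [av, LinearMap.comp_apply, half_apply, mul_smul_comm, smul_mul_assoc, mul_add, add_mul,
    mul_assoc]
  module

namespace Qb
variable {X Z : M} (q : Qb X Z)
include q

lemma symm : Qb Z X := ⟨q.sZ, q.sX, q.ZZ, q.XX, by rw [q.anti, neg_neg]⟩
lemma XX' (a : M) : X * (X * a) = a := by rw [← mul_assoc, q.XX, one_mul]
lemma ZZ' (a : M) : Z * (Z * a) = a := by rw [← mul_assoc, q.ZZ, one_mul]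
lemma anti' (a : M) : X * (Z * a) = -(Z * (X * a)) := by
  rw [← mul_assoc, q.anti, neg_mul, mul_assoc]

lemma av_symm : av X Z = av Z X := by
  ext x
  simp only [av_apply, q.anti', q.anti, mul_neg, neg_neg]
  module

lemma X_av (x : M) : X * av X Z x = av X Z x * X := by
  simp only [av_apply, mul_smul_comm, smul_mul_assoc, mul_add, add_mul, mul_assoc, q.XX', q.XX,
    q.anti', q.anti, mul_neg, neg_neg, mul_one, neg_mul]
  module

lemma Z_av (x : M) : Z * av X Z x = av X Z x * Z := by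
  rw [q.av_symm]; exact q.symm.X_av x

lemma sY : star (Complex.I • (X * Z)) = Complex.I • (X * Z) := by
  simp [star_smul, q.sX, q.sZ, q.anti]

lemma YY : (Complex.I • (X * Z)) * (Complex.I • (X * Z)) = 1 := by
  simp only [mul_smul_comm, smul_mul_assoc, smul_smul, Complex.I_mul_I, mul_assoc, q.anti',
    q.XX', q.ZZ', q.anti, mul_neg, neg_mul, neg_neg, q.XX, q.ZZ]
  simp [smul_smul]

lemma decomp (x : M) : x = av X Z x + X * av X Z (X * x) + Z * av X Z (Z * x) +
    (Complex.I • (X * Z)) * av X Z ((Complex.I • (X * Z)) * x) := by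
  simp only [av_apply, mul_smul_comm, smul_mul_assoc, mul_add, add_mul, mul_assoc, q.XX', q.XX,
    q.ZZ', q.anti', q.anti, mul_neg, neg_neg, mul_one, neg_mul, smul_add, smul_smul, smul_neg]
  have : Complex.I * (1 / 4 * Complex.I) = -(1 / 4) := by
    rw [mul_left_comm, Complex.I_mul_I]; ring
  have h2 : 1 / 4 * (Complex.I * Complex.I) = -(1 / 4 : ℂ) := by
    rw [Complex.I_mul_I]; ring
  simp only [this, h2]
  module

lemma av_four (x : M) : (4 : ℂ) • av X Z x = x + X * x * X + Z * x * Z +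
    (Complex.I • (X * Z)) * x * (Complex.I • (X * Z)) := by
  simp only [av_apply, mul_smul_comm, smul_mul_assoc, mul_assoc, smul_smul, Complex.I_mul_I,
    q.anti, q.anti', mul_neg, neg_mul, neg_neg, smul_neg, neg_smul, one_smul]
  module

lemma cj {g : M} (h1 : star g * g = 1) (h2 : g * star g = 1) :
    Qb (g * X * star g) (g * Z * star g) := by
  have e : ∀ a, star g * (g * a) = a := fun a => by rw [← mul_assoc, h1, one_mul]
  refine ⟨by simp [q.sX, mul_assoc], by simp [q.sZ, mul_assoc], ?_, ?_, ?_⟩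
  · simp only [mul_assoc, e, q.XX', h2]
  · simp only [mul_assoc, e, q.ZZ', h2]
  · simp only [mul_assoc, e, q.anti', mul_neg]

end Qb

lemma norm_sym [Nontrivial M] {h : M} (h1 : star h = h) (h2 : h * h = 1) : ‖h‖ = 1 := by
  have := CStarRing.norm_star_mul_self (x := h)
  rw [h1, h2, norm_one] at this
  nlinarith [norm_nonneg h]

lemma norm_half_le [Nontrivial M] {h : M} (h1 : star h = h) (h2 : h * h = 1) (x : M) :
    ‖half h x‖ ≤ ‖x‖ := by
  rw [half_apply, norm_smul]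
  have e := norm_sym h1 h2
  have a1 := norm_mul_le h (x * h)
  have a2 := norm_mul_le x h
  have a3 := norm_add_le x (h * (x * h))
  rw [e] at a1 a2
  have : ‖(1 / 2 : ℂ)‖ = 1 / 2 := by simp
  rw [this]; linarith

lemma Qb.norm_av_le [Nontrivial M] {X Z : M} (q : Qb X Z) (x : M) : ‖av X Z x‖ ≤ ‖x‖ :=
  (norm_half_le q.sX q.XX _).trans (norm_half_le q.sZ q.ZZ _)

noncomputable def comm (S : StarSubalgebra ℂ M) (X Z : M) : StarSubalgebra ℂ M :=
  S ⊓ StarSubalgebra.centralizer ℂ {X, Z}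

lemma Qb.mem_comm {X Z : M} (q : Qb X Z) {S : StarSubalgebra ℂ M} {x : M} :
    x ∈ comm S X Z ↔ x ∈ S ∧ X * x = x * X ∧ Z * x = x * Z := by
  simp [comm, StarSubalgebra.mem_centralizer_iff, q.sX, q.sZ]

lemma av_mem {X Z : M} {S : StarSubalgebra ℂ M} (hX : X ∈ S) (hZ : Z ∈ S) {x : M} (hx : x ∈ S) :
    av X Z x ∈ S := by
  rw [av_apply]
  refine S.smul_mem (add_mem (add_mem (add_mem hx ?_) ?_) ?_) _ <;>
  repeat (first | assumption | apply mul_mem)

lemma Qb.av_mem_comm {X Z : M} (q : Qb X Z) {S : StarSubalgebra ℂ M} (hX : X ∈ S) (hZ : Z ∈ S)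
    {x : M} (hx : x ∈ S) : av X Z x ∈ comm S X Z :=
  q.mem_comm.2 ⟨av_mem hX hZ hx, q.X_av x, q.Z_av x⟩

namespace Tr
variable (T : Tr M)

lemma τ_half {h : M} (h2 : h * h = 1) (x : M) : T.τ (half h x) = T.τ x := by
  rw [half_apply, map_smul, map_add, T.tr h, mul_assoc, h2, mul_one]
  simp; ring

lemma τ_av {X Z : M} (q : Qb X Z) (x : M) : T.τ (av X Z x) = T.τ x := by
  rw [av, LinearMap.comp_apply, T.τ_half q.XX, T.τ_half q.ZZ]

lemma n2_half {h : M} (h1 : star h = h) (h2 : h * h = 1) (x : M) :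
    T.n2 (half h x) ^ 2 = T.n2 x ^ 2 - T.n2 (h * x - x * h) ^ 2 / 4 := by
  have e1 : T.n2 (h * (x * h)) = T.n2 x := by
    rw [T.n2_unit_left (by rw [h1, h2]), T.n2_unit_right (by rw [h1, h2])]
  have e2 : T.n2 (h * x - x * h) = T.n2 (x - h * (x * h)) := by
    rw [← T.n2_unit_left (u := h) (by rw [h1, h2]), mul_sub, ← mul_assoc, h2, one_mul]
  have := parallelogram_law_with_norm ℂ (T.toH x) (T.toH (h * (x * h)))
  rw [← map_add, ← map_sub] at this
  change T.n2 _ ^ 2 + T.n2 _ ^ 2 = 2 * (T.n2 _ ^ 2 + T.n2 _ ^ 2) at this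
  rw [half_apply, T.n2_smul, e2]
  have e3 : ‖(1 / 2 : ℂ)‖ = 1 / 2 := by simp
  rw [e3, e1] at *
  nlinarith

lemma n2_half_le {h : M} (h1 : star h = h) (h2 : h * h = 1) (x : M) :
    T.n2 (half h x) ≤ T.n2 x := by
  apply le_of_sq_le_sq _ (T.n2_nonneg _)
  rw [T.n2_half h1 h2]; nlinarith [sq_nonneg (T.n2 (h * x - x * h))]

lemma n2_av_le {X Z : M} (q : Qb X Z) (x : M) : T.n2 (av X Z x) ≤ T.n2 x :=
  (T.n2_half_le q.sX q.XX _).trans (T.n2_half_le q.sZ q.ZZ _)

def Cl2 (S : StarSubalgebra ℂ M) : Prop :=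
  ∀ (x : ℕ → M) (z : M) (R : ℝ), (∀ n, x n ∈ S) → (∀ n, ‖x n‖ ≤ R) → T.Lim x z → z ∈ S

lemma Cl2.isClosed {T : Tr M} {S : StarSubalgebra ℂ M} (h : T.Cl2 S) : IsClosed (S : Set M) := by
  refine isClosed_of_closure_subset fun z hz => ?_
  obtain ⟨x, hx, hl⟩ := mem_closure_iff_seq_limit.1 hz
  obtain ⟨R, hR⟩ := (Metric.isBounded_range_of_tendsto x hl).exists_norm_le
  exact h x z R hx (fun n => hR _ ⟨n, rfl⟩) (T.lim_of_norm hl)

structure Good (S : StarSubalgebra ℂ M) : Prop where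
  cl : T.Cl2 S
  fac : ∀ c ∈ S, (∀ x ∈ S, c * x = x * c) → ∃ z : ℂ, c = z • 1
  inf : ¬ FiniteDimensional ℂ S

noncomputable def sub (S : StarSubalgebra ℂ M) [IsClosed (S : Set M)] : Tr S where
  τ := T.τ ∘ₗ S.subtype.toLinearMap
  one := T.one
  pos x := T.pos x
  tr x y := T.tr x y
  faith x h := Subtype.ext (T.faith x h)

lemma sub_τ (S : StarSubalgebra ℂ M) [IsClosed (S : Set M)] (x : S) : (T.sub S).τ x = T.τ x := rfl

lemma sub_n2 (S : StarSubalgebra ℂ M) [IsClosed (S : Set M)] (x : S) :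
    (T.sub S).n2 x = T.n2 x := by
  apply eq_of_sq (n2_nonneg _ _) (n2_nonneg _ _)
  rw [n2_sq, n2_sq]; rfl

lemma sub_lim (S : StarSubalgebra ℂ M) [IsClosed (S : Set M)] (x : ℕ → S) (z : S) :
    (T.sub S).Lim x z ↔ T.Lim (fun n => x n) z := by
  simp only [Lim, sub_n2]; rfl

lemma sub_cpl (S : StarSubalgebra ℂ M) [IsClosed (S : Set M)] (hc : T.Cpl) (h : T.Cl2 S) :
    (T.sub S).Cpl := by
  intro x hx hcau
  have : CauchySeq (fun n => T.toH (x n : M)) := by
    rw [Metric.cauchySeq_iff] at hcau ⊢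
    intro ε hε
    obtain ⟨N, hN⟩ := hcau ε hε
    refine ⟨N, fun m hm n hn => ?_⟩
    have := hN m hm n hn
    rw [dist_eq_norm, ← map_sub] at this ⊢
    change (T.sub S).n2 _ < ε at this
    rw [sub_n2] at this
    exact this
  obtain ⟨z, hz, hl⟩ := hc (fun n => x n) hx this
  exact ⟨⟨z, h _ z 1 (fun n => (x n).2) hx hl⟩, hz, (T.sub_lim S _ _).2 hl⟩

lemma Good.facS {T : Tr M} {S : StarSubalgebra ℂ M} [IsClosed (S : Set M)] (h : T.Good S) :
    Fac S := by
  intro c hc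
  obtain ⟨z, hz⟩ := h.fac c c.2 fun x hx => congrArg Subtype.val (hc ⟨x, hx⟩)
  exact ⟨z, Subtype.ext hz⟩

lemma good_top (hf : Fac M) (hi : ¬ FiniteDimensional ℂ M) : T.Good ⊤ := by
  refine ⟨fun _ _ _ _ _ _ => trivial, fun c _ h => hf c fun x => h x trivial, fun h => hi ?_⟩
  exact Module.Finite.of_surjective (⊤ : StarSubalgebra ℂ M).subtype.toLinearMap
    fun x => ⟨⟨x, trivial⟩, rfl⟩

lemma Good.step {T : Tr M} {S : StarSubalgebra ℂ M} (h : T.Good S) {X Z : M} (q : Qb X Z)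
    (hX : X ∈ S) (hZ : Z ∈ S) : T.Good (comm S X Z) := by
  have hY : Complex.I • (X * Z) ∈ S := S.smul_mem (mul_mem hX hZ) _
  refine ⟨fun x z R hx hR hl => ?_, fun c hc hcc => ?_, fun hfin => h.inf ?_⟩
  · refine q.mem_comm.2 ⟨h.cl x z R (fun n => (q.mem_comm.1 (hx n)).1) hR hl, ?_, ?_⟩
    · refine Lim.unique T (Lim.mul_left T hl X) ?_
      simpa only [(q.mem_comm.1 (hx _)).2.1] using Lim.mul_right T hl X
    · refine Lim.unique T (Lim.mul_left T hl Z) ?_
      simpa only [(q.mem_comm.1 (hx _)).2.2] using Lim.mul_right T hl Z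
  · obtain ⟨c1, c2, c3⟩ := q.mem_comm.1 hc
    refine h.fac c c1 fun x hx => ?_
    have k : ∀ y ∈ S, Commute c (av X Z y) := fun y hy => hcc _ (q.av_mem_comm hX hZ hy)
    have cX : Commute c X := c2.symm
    have cZ : Commute c Z := c3.symm
    have : Commute c (av X Z x + X * av X Z (X * x) + Z * av X Z (Z * x) +
        (Complex.I • (X * Z)) * av X Z ((Complex.I • (X * Z)) * x)) :=
      ((((k _ hx).add_right (cX.mul_right (k _ (mul_mem hX hx)))).add_right
        (cZ.mul_right (k _ (mul_mem hZ hx)))).add_right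
        (((cX.mul_right cZ).smul_right _).mul_right (k _ (mul_mem hY hx))))
    rw [← q.decomp x] at this
    exact this
  · let C := comm S X Z
    let ι : C →ₗ[ℂ] M := C.subtype.toLinearMap
    let f : (C × C × C × C) →ₗ[ℂ] M := ι.coprod ((LinearMap.mulLeft ℂ X ∘ₗ ι).coprod
      ((LinearMap.mulLeft ℂ Z ∘ₗ ι).coprod (LinearMap.mulLeft ℂ (Complex.I • (X * Z)) ∘ₗ ι)))
    have hf : ∀ a b c d : C, f (a, b, c, d) = a + X * b + Z * c + (Complex.I • (X * Z)) * d := by
      intro a b c d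
      simp only [f, LinearMap.coprod_apply, LinearMap.comp_apply, LinearMap.mulLeft_apply,
        add_assoc]
      rfl
    have hm : ∀ y : C, (y : M) ∈ S := fun y => (q.mem_comm.1 y.2).1
    refine Module.Finite.of_surjective
      (f.codRestrict S.toSubalgebra.toSubmodule (fun ⟨a, b, c, d⟩ => ?_)) fun x => ?_
    · rw [hf]
      change _ ∈ S
      exact add_mem (add_mem (add_mem (hm a) (mul_mem hX (hm b))) (mul_mem hZ (hm c)))
        (mul_mem hY (hm d))
    · refine ⟨(⟨_, q.av_mem_comm hX hZ x.2⟩, ⟨_, q.av_mem_comm hX hZ (mul_mem hX x.2)⟩,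
        ⟨_, q.av_mem_comm hX hZ (mul_mem hZ x.2)⟩, ⟨_, q.av_mem_comm hX hZ (mul_mem hY x.2)⟩),
        Subtype.ext ?_⟩
      rw [LinearMap.codRestrict_apply, hf]
      exact (q.decomp x).symm

end Tr
end Vale.Agent.P085
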