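import Vale.Agent.P085.Irr

open scoped ComplexOrder InnerProductSpace ComplexConjugate
open Filter Topology

set_option linter.unusedSimpArgs false

namespace Vale.Agent.P085
variable {M : Type*} [CStarAlgebra M]

lemma Qb.av_one {X Z : M} (q : Qb X Z) : av X Z 1 = 1 := by
  simp only [av_apply, one_mul, q.XX, q.ZZ, q.ZZ']
  module

lemma av_mul {X Z s : M} (hX : X * s = s * X) (hZ : Z * s = s * Z) (y : M) :
    av X Z y * s = av X Z (y * s) := by
  have a2 : ∀ a, Z * (s * a) = s * (Z * a) := fun a => by rw [← mul_assoc, hZ, mul_assoc]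
  simp only [av_apply, smul_mul_assoc, add_mul, mul_assoc, hX, hZ, a2]

namespace Tr
variable (T : Tr M)

lemma τ_X {X Z : M} (q : Qb X Z) : T.τ X = 0 := by
  have : T.τ X = - T.τ X := by
    conv_lhs => rw [← q.ZZ' X, T.tr, mul_assoc, q.anti, mul_neg, q.ZZ', map_neg]
  linear_combination (1 / 2 : ℂ) * this

structure Tower where
  X : ℕ → M
  Z : ℕ → M
  S : ℕ → StarSubalgebra ℂ M
  E : ℕ → M →ₗ[ℂ] M
  qb : ∀ n, Qb (X n) (Z n)
  hX : ∀ n, X n ∈ S n
  hZ : ∀ n, Z n ∈ S n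
  S_succ : ∀ n, S (n + 1) = comm (S n) (X n) (Z n)
  E0 : ∀ x, E 0 x = x
  E_succ : ∀ n x, E (n + 1) x = av (X n) (Z n) (E n x)
  lim : ∀ x, Tendsto (fun n => T.n2 (E n x - T.τ x • 1)) atTop (𝓝 0)

lemma tower_lim (ξ : ℕ → M) (hξ : ∀ x, ∀ ε > 0, ∃ k, T.n2 (x - ξ k) < ε)
    (X' Z' : ℕ → M) (E : ℕ → M →ₗ[ℂ] M) (q : ∀ n, Qb (X' n) (Z' n)) (E0 : ∀ x, E 0 x = x)
    (E_succ : ∀ n x, E (n + 1) x = av (X' n) (Z' n) (E n x))
    (hn : ∀ n x, x = ξ (Nat.unpair n).1 → T.n2 (av (X' n) (Z' n) (E n x - T.τ (E n x) • 1)) ^ 2 ≤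
        (199 / 200) * T.n2 (E n x - T.τ (E n x) • 1) ^ 2) (x : M) :
    Tendsto (fun n => T.n2 (E n x - T.τ x • 1)) atTop (𝓝 0) := by
  have hτ : ∀ n x, T.τ (E n x) = T.τ x := by
    intro n x
    induction n with
    | zero => rw [E0]
    | succ n ih => rw [E_succ, T.τ_av (q n), ih]
  have e1 : ∀ n x, E (n + 1) x - T.τ x • 1 = av (X' n) (Z' n) (E n x - T.τ x • 1) := by
    intro n x
    rw [map_sub, map_smul, (q n).av_one, E_succ]
  have anti : ∀ x, Antitone (fun n => T.n2 (E n x - T.τ x • 1)) := fun x =>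
    antitone_nat_of_succ_le fun n => by rw [e1]; exact T.n2_av_le (q n) _
  have limξ : ∀ k, Tendsto (fun n => T.n2 (E n (ξ k) - T.τ (ξ k) • 1)) atTop (𝓝 0) := by
    intro k
    have hl := tendsto_atTop_ciInf (anti (ξ k)) ⟨0, by rintro _ ⟨n, rfl⟩; exact T.n2_nonneg _⟩
    have h0 : 0 ≤ ⨅ n, T.n2 (E n (ξ k) - T.τ (ξ k) • 1) := le_ciInf fun n => T.n2_nonneg _
    generalize (⨅ n, T.n2 (E n (ξ k) - T.τ (ξ k) • 1)) = L at hl h0
    have t1 : Tendsto (fun N => Nat.pair k N) atTop atTop :=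
      tendsto_atTop_mono (fun N => Nat.right_le_pair k N) tendsto_id
    have t2 : Tendsto (fun N => Nat.pair k N + 1) atTop atTop :=
      (tendsto_add_atTop_nat 1).comp t1
    have := le_of_tendsto_of_tendsto' ((hl.comp t2).pow 2)
      (((hl.comp t1).pow 2).const_mul (199 / 200)) (fun N => by
        have := hn (Nat.pair k N) (ξ k) (by rw [Nat.unpair_pair])
        rw [hτ, ← e1] at this
        exact this)
    have : L = 0 := by nlinarith
    rwa [this] at hl
  rw [Metric.tendsto_atTop]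
  intro ε hε
  obtain ⟨k, hk⟩ := hξ x (ε / 4) (by positivity)
  obtain ⟨N, hN⟩ := Metric.tendsto_atTop.1 (limξ k) (ε / 2) (by positivity)
  refine ⟨N, fun n hn => ?_⟩
  have a1 := hN n hn
  rw [Real.dist_eq, sub_zero, abs_of_nonneg (T.n2_nonneg _)] at a1 ⊢
  have a2 : T.n2 (E n (x - ξ k) - T.τ (x - ξ k) • 1) ≤ T.n2 (E 0 (x - ξ k) - T.τ (x - ξ k) • 1) :=
    anti (x - ξ k) (Nat.zero_le n)
  have a3 := T.n2_sub_le (x - ξ k) (T.τ (x - ξ k) • 1)
  rw [T.n2_smul, n2_one, mul_one] at a3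
  have a4 := T.τ_le_n2 (x - ξ k)
  rw [E0] at a2
  have e : E n x - T.τ x • 1 =
      (E n (x - ξ k) - T.τ (x - ξ k) • 1) + (E n (ξ k) - T.τ (ξ k) • 1) := by
    simp only [map_sub]; module
  rw [e]
  linarith [T.n2_add_le (E n (x - ξ k) - T.τ (x - ξ k) • 1) (E n (ξ k) - T.τ (ξ k) • 1)]

theorem exists_tower (hc : T.Cpl) (hf : Fac M) (hi : ¬ FiniteDimensional ℂ M)
    (ξ : ℕ → M) (hξ : ∀ x, ∀ ε > 0, ∃ k, T.n2 (x - ξ k) < ε) : Nonempty T.Tower := by
  let St := {p : StarSubalgebra ℂ M × (M →ₗ[ℂ] M) // T.Good p.1 ∧ ∀ x, p.2 x ∈ p.1}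
  have key : ∀ (p : St) (x : M), ∃ X Z, X ∈ p.1.1 ∧ Z ∈ p.1.1 ∧ Qb X Z ∧
      T.n2 (av X Z (p.1.2 x - T.τ (p.1.2 x) • 1)) ^ 2 ≤
        (199 / 200) * T.n2 (p.1.2 x - T.τ (p.1.2 x) • 1) ^ 2 := fun p x =>
    T.irr hc p.2.1 (sub_mem (p.2.2 x) (p.1.1.smul_mem (one_mem _) _))
      (by rw [map_sub, τ_smul_one, sub_self])
  choose X Z hX hZ hq hn using key
  have hstep : ∀ (p : St) (x : M), ∃ p' : St, p'.1.1 = comm p.1.1 (X p x) (Z p x) ∧
      ∀ y, p'.1.2 y = av (X p x) (Z p x) (p.1.2 y) := fun p x =>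
    ⟨⟨(comm p.1.1 (X p x) (Z p x), av (X p x) (Z p x) ∘ₗ p.1.2),
      p.2.1.step (hq p x) (hX p x) (hZ p x),
      fun y => (hq p x).av_mem_comm (hX p x) (hZ p x) (p.2.2 y)⟩, rfl, fun _ => rfl⟩
  choose step hs1 hs2 using hstep
  obtain ⟨p0, hp0⟩ : ∃ p0 : St, ∀ y, p0.1.2 y = y :=
    ⟨⟨(⊤, LinearMap.id), T.good_top hf hi, fun _ => trivial⟩, fun _ => rfl⟩
  obtain ⟨st, h0, hs⟩ : ∃ st : ℕ → St, st 0 = p0 ∧
      ∀ n, st (n + 1) = step (st n) (ξ (Nat.unpair n).1) :=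
    ⟨fun n => Nat.rec p0 (fun n p => step p (ξ (Nat.unpair n).1)) n, rfl, fun _ => rfl⟩
  have E0 : ∀ x, (st 0).1.2 x = x := fun x => by rw [h0, hp0]
  have E_succ : ∀ n x, (st (n + 1)).1.2 x = av (X (st n) (ξ (Nat.unpair n).1))
      (Z (st n) (ξ (Nat.unpair n).1)) ((st n).1.2 x) := fun n x => by rw [hs, hs2]
  exact ⟨⟨fun n => X (st n) (ξ (Nat.unpair n).1), fun n => Z (st n) (ξ (Nat.unpair n).1),
    fun n => (st n).1.1, fun n => (st n).1.2, fun n => hq _ _, fun n => hX _ _, fun n => hZ _ _,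
    fun n => by rw [hs, hs1], E0, E_succ,
    T.tower_lim ξ hξ _ _ (fun n => (st n).1.2) (fun n => hq _ _) E0 E_succ
      (fun n x hx => by rw [hx]; exact hn _ _)⟩⟩

end Tr

/-- symmetries in `A` -/
structure Sy (A : StarSubalgebra ℂ M) (h : M) : Prop where
  mem : h ∈ A
  st : star h = h
  sq : h * h = 1

structure Mean (T : Tr M) (A : StarSubalgebra ℂ M) where
  Av : (M → ℝ) → ℝ → Prop
  mono : ∀ {f g c d}, Av g c → (∀ h, Sy A h → f h ≤ g h) → c ≤ d → Av f d
  add : ∀ {f g c d}, Av f c → Av g d → Av (fun h => f h + g h) (c + d)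
  smul : ∀ {f c} (r : ℝ), 0 ≤ r → Av f c → Av (fun h => r * f h) (r * c)
  const : ∀ c, Av (fun _ => c) c
  ex : ∀ {f c}, Av f c → ∀ ε > 0, ∃ h, Sy A h ∧ f h ≤ c + ε
  α : ∀ b x, Av (fun h => (T.τ (b * h * x * h)).re) (T.τ b * T.τ x).re
  β : ∀ x, Av (fun h => ‖T.τ (x * h)‖) 0

namespace Tr.Tower
variable {T : Tr M} (W : T.Tower)

lemma S_anti : Antitone W.S :=
  antitone_nat_of_succ_le fun n x hx => by
    rw [W.S_succ] at hx; exact ((W.qb n).mem_comm.1 hx).1

lemma cX {n : ℕ} {s : M} (hs : s ∈ W.S (n + 1)) : W.X n * s = s * W.X n := by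
  rw [W.S_succ] at hs; exact ((W.qb n).mem_comm.1 hs).2.1

lemma cZ {n : ℕ} {s : M} (hs : s ∈ W.S (n + 1)) : W.Z n * s = s * W.Z n := by
  rw [W.S_succ] at hs; exact ((W.qb n).mem_comm.1 hs).2.2

lemma τ_E (n : ℕ) (c : M) {s : M} (hs : s ∈ W.S n) : T.τ (W.E n c * s) = T.τ (c * s) := by
  induction n with
  | zero => rw [W.E0]
  | succ n ih =>
    rw [W.E_succ, av_mul (W.cX hs) (W.cZ hs), T.τ_av (W.qb n), ih (W.S_anti (Nat.le_succ n) hs)]

lemma τ_X_lim (c : M) : Tendsto (fun m => ‖T.τ (c * W.X m)‖) atTop (𝓝 0) := by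
  refine squeeze_zero (fun _ => norm_nonneg _) (fun m => ?_) (W.lim c)
  have e : T.τ (c * W.X m) = T.τ ((W.E m c - T.τ c • 1) * W.X m) := by
    rw [sub_mul, map_sub, W.τ_E m c (W.hX m), smul_mul_assoc, one_mul, map_smul, T.τ_X (W.qb m)]
    simp
  rw [e, ← T.n2_unit_right (u := W.X m) (by rw [(W.qb m).sX, (W.qb m).XX])]
  exact T.τ_le_n2 _

noncomputable def Y (n : ℕ) : M := Complex.I • (W.X n * W.Z n)

noncomputable def avg : ℕ → (M → ℝ) → ℝ
  | 0, f => f 1
  | n + 1, f => (avg n f + avg n (fun h => f (W.X n * h)) + avg n (fun h => f (W.Z n * h)) +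
      avg n (fun h => f (W.Y n * h))) / 4

def G (A : StarSubalgebra ℂ M) (n : ℕ) (h : M) : Prop := Sy A h ∧ ∀ s ∈ W.S n, h * s = s * h

variable {A : StarSubalgebra ℂ M}

lemma G.sy {W : T.Tower} {n : ℕ} {h σ : M} (hh : W.G A n h) (hσ : Sy A σ) (hS : σ ∈ W.S n) :
    Sy A (σ * h) := by
  have e := hh.2 σ hS
  refine ⟨mul_mem hσ.mem hh.1.mem, by rw [star_mul, hσ.st, hh.1.st, e], ?_⟩
  rw [mul_assoc, ← mul_assoc h, e, mul_assoc, hh.1.sq, mul_one, hσ.sq]

lemma G.step {W : T.Tower} {n : ℕ} {h σ : M} (hh : W.G A n h) (hσ : Sy A σ) (hS : σ ∈ W.S n)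
    (hc : ∀ s ∈ W.S (n + 1), σ * s = s * σ) : W.G A (n + 1) (σ * h) := by
  refine ⟨hh.sy hσ hS, fun s hs => ?_⟩
  rw [mul_assoc, hh.2 s (W.S_anti (Nat.le_succ n) hs), ← mul_assoc, hc s hs, mul_assoc]

section
variable (hA : ∀ n, W.X n ∈ A ∧ W.Z n ∈ A)
include hA

lemma syX (n : ℕ) : Sy A (W.X n) := ⟨(hA n).1, (W.qb n).sX, (W.qb n).XX⟩
lemma syZ (n : ℕ) : Sy A (W.Z n) := ⟨(hA n).2, (W.qb n).sZ, (W.qb n).ZZ⟩
lemma syY (n : ℕ) : Sy A (W.Y n) :=
  ⟨A.smul_mem (mul_mem (hA n).1 (hA n).2) _, (W.qb n).sY, (W.qb n).YY⟩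

omit hA in
lemma hY (n : ℕ) : W.Y n ∈ W.S n := (W.S n).smul_mem (mul_mem (W.hX n) (W.hZ n)) _

lemma G4 {n : ℕ} {h : M} (hh : W.G A n h) : W.G A (n + 1) h ∧ W.G A (n + 1) (W.X n * h) ∧
    W.G A (n + 1) (W.Z n * h) ∧ W.G A (n + 1) (W.Y n * h) := by
  refine ⟨⟨hh.1, fun s hs => hh.2 s (W.S_anti (Nat.le_succ n) hs)⟩,
    hh.step (W.syX hA n) (W.hX n) fun s hs => W.cX hs,
    hh.step (W.syZ hA n) (W.hZ n) fun s hs => W.cZ hs,
    hh.step (W.syY hA n) (W.hY n) fun s hs => ?_⟩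
  rw [Y, smul_mul_assoc, mul_smul_comm, mul_assoc, W.cZ hs, ← mul_assoc, W.cX hs, mul_assoc]

omit hA in
lemma G0 : W.G A 0 1 := ⟨⟨one_mem _, star_one _, mul_one _⟩, fun s _ => by simp⟩

lemma avg_mono (n : ℕ) {f g : M → ℝ} (h : ∀ x, W.G A n x → f x ≤ g x) : W.avg n f ≤ W.avg n g := by
  induction n generalizing f g with
  | zero => exact h 1 W.G0
  | succ n ih =>
    simp only [avg]
    have a1 := ih (f := f) (g := g) fun x hx => h _ (W.G4 hA hx).1
    have a2 := ih (f := fun x => f (W.X n * x)) (g := fun x => g (W.X n * x))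
      fun x hx => h _ (W.G4 hA hx).2.1
    have a3 := ih (f := fun x => f (W.Z n * x)) (g := fun x => g (W.Z n * x))
      fun x hx => h _ (W.G4 hA hx).2.2.1
    have a4 := ih (f := fun x => f (W.Y n * x)) (g := fun x => g (W.Y n * x))
      fun x hx => h _ (W.G4 hA hx).2.2.2
    linarith

lemma avg_congr (n : ℕ) {f g : M → ℝ} (h : ∀ x, W.G A n x → f x = g x) :
    W.avg n f = W.avg n g :=
  le_antisymm (W.avg_mono hA n fun x hx => (h x hx).le) (W.avg_mono hA n fun x hx => (h x hx).ge)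

omit hA in
lemma avg_add (n : ℕ) (f g : M → ℝ) : W.avg n (fun x => f x + g x) = W.avg n f + W.avg n g := by
  induction n generalizing f g with
  | zero => rfl
  | succ n ih => simp only [avg, ih]; ring

omit hA in
lemma avg_smul (n : ℕ) (r : ℝ) (f : M → ℝ) : W.avg n (fun x => r * f x) = r * W.avg n f := by
  induction n generalizing f with
  | zero => rfl
  | succ n ih => simp only [avg, ih]; ring

omit hA in
lemma avg_const (n : ℕ) (r : ℝ) : W.avg n (fun _ => r) = r := by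
  induction n with
  | zero => rfl
  | succ n ih => simp only [avg, ih]; ring

omit hA in
lemma avg_lim (n : ℕ) (F : ℕ → M → ℝ) (hF : ∀ h, Tendsto (fun m => F m h) atTop (𝓝 0)) :
    Tendsto (fun m => W.avg n (F m)) atTop (𝓝 0) := by
  induction n generalizing F with
  | zero => exact hF 1
  | succ n ih =>
    simp only [avg]
    have := ((((ih F hF).add (ih (fun m x => F m (W.X n * x)) fun h => hF _)).add
      (ih (fun m x => F m (W.Z n * x)) fun h => hF _)).add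
      (ih (fun m x => F m (W.Y n * x)) fun h => hF _)).div_const 4
    simpa using this

lemma avg_α (n : ℕ) (b x : M) :
    W.avg n (fun h => (T.τ (b * h * x * h)).re) = (T.τ (b * W.E n x)).re := by
  induction n generalizing b with
  | zero => simp [avg, W.E0]
  | succ n ih =>
    have k : ∀ σ ∈ W.S n, W.avg n (fun h => (T.τ (b * (σ * h) * x * (σ * h))).re) =
        (T.τ (b * (σ * W.E n x * σ))).re := by
      intro σ hσ
      rw [W.avg_congr hA n (g := fun h => (T.τ ((σ * b * σ) * h * x * h)).re), ih]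
      · rw [mul_assoc σ, mul_assoc σ, T.tr σ]; simp only [mul_assoc]
      · intro h hh
        have : b * (σ * h) * x * (σ * h) = (b * σ * h * x * h) * σ := by
          nth_rw 2 [← hh.2 σ hσ]; simp only [mul_assoc]
        rw [this, T.tr _ σ]; simp only [mul_assoc]
    simp only [avg]
    rw [ih, k _ (W.hX n), k _ (W.hZ n), k _ (W.hY n), W.E_succ]
    have := congrArg (fun t => (T.τ (b * t)).re) ((W.qb n).av_four (W.E n x))
    simp only [mul_add, map_add, Complex.add_re] at this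
    rw [Y, ← this, mul_smul_comm, map_smul]
    simp

noncomputable def mean : Mean T A where
  Av f c := ∀ ε > 0, ∀ᶠ n in atTop, ∀ᶠ m in atTop, W.avg n (fun h => f (W.X m * h)) ≤ c + ε
  mono := by
    intro f g c d hg hfg hcd ε hε
    filter_upwards [hg ε hε] with n hn
    filter_upwards [hn, eventually_ge_atTop n] with m hm hnm
    refine (W.avg_mono hA n fun x hx => hfg _ ?_).trans (hm.trans (by linarith))
    exact hx.sy (W.syX hA m) (W.S_anti hnm (W.hX m))
  add := by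
    intro f g c d hf hg ε hε
    filter_upwards [hf (ε / 2) (by positivity), hg (ε / 2) (by positivity)] with n h1 h2
    filter_upwards [h1, h2] with m h1 h2
    rw [W.avg_add]; linarith
  smul := by
    intro f c r hr hf ε hε
    filter_upwards [hf (ε / (r + 1)) (by positivity)] with n h1
    filter_upwards [h1] with m h1
    rw [W.avg_smul]
    have : r * (ε / (r + 1)) ≤ ε := by
      rw [mul_div_assoc', div_le_iff₀ (by positivity)]; nlinarith
    nlinarith
  const := by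
    intro c ε hε
    refine Eventually.of_forall fun n => Eventually.of_forall fun m => ?_
    rw [W.avg_const]; linarith
  ex := by
    intro f c hf ε hε
    obtain ⟨n, hn⟩ := (hf (ε / 2) (by positivity)).exists
    obtain ⟨m, hm, hnm⟩ := (hn.and (eventually_ge_atTop n)).exists
    by_contra hno
    push Not at hno
    have := W.avg_mono hA n (f := fun _ => c + ε) (g := fun h => f (W.X m * h)) fun x hx =>
      (hno _ (hx.sy (W.syX hA m) (W.S_anti hnm (W.hX m)))).le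
    rw [W.avg_const] at this
    linarith
  α := by
    intro b x ε hε
    have hl := (W.lim x).const_mul (T.n2 b)
    rw [mul_zero] at hl
    filter_upwards [hl.eventually (gt_mem_nhds hε)] with n hn
    filter_upwards [eventually_ge_atTop n] with m hnm
    have q := W.qb m
    rw [W.avg_congr hA n (g := fun h => (T.τ ((W.X m * b * W.X m) * h * x * h)).re), W.avg_α hA]
    · have e : T.τ (W.X m * b * W.X m * W.E n x) =
          T.τ (W.X m * b * W.X m * (W.E n x - T.τ x • 1)) + T.τ b * T.τ x := by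
        rw [mul_sub, map_sub, mul_smul_comm, mul_one, map_smul, T.tr _ (W.X m), ← mul_assoc, q.XX,
          one_mul, smul_eq_mul]; ring
      have a1 := T.τ_mul_le (W.X m * b * W.X m) (W.E n x - T.τ x • 1)
      rw [T.n2_unit_right (u := W.X m) (by rw [q.sX, q.XX]),
        T.n2_unit_left (u := W.X m) (by rw [q.sX, q.XX])] at a1
      rw [e, Complex.add_re]
      linarith [Complex.re_le_norm (T.τ (W.X m * b * W.X m * (W.E n x - T.τ x • 1)))]
    · intro h hh
      have : b * (W.X m * h) * x * (W.X m * h) = (b * W.X m * h * x * h) * W.X m := by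
        nth_rw 2 [← hh.2 _ (W.S_anti hnm (W.hX m))]; simp only [mul_assoc]
      rw [this, T.tr _ (W.X m)]; simp only [mul_assoc]
  β := by
    intro x ε hε
    refine Eventually.of_forall fun n => ?_
    have := W.avg_lim n (fun m h => ‖T.τ (x * (W.X m * h))‖) fun h => by
      have := W.τ_X_lim (h * x)
      simpa only [← mul_assoc x, T.tr _ h, mul_assoc h] using this
    filter_upwards [this.eventually (gt_mem_nhds hε)] with m hm
    linarith

end
end Tr.Tower
end Vale.Agent.P085
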